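import Vale.Agent.P004E.Iface
import Vale.Agent.P004G.H3.FnSer
import Vale.Agent.P004.H128.Pass1

/-!
# P004E/H253: multiplicative functions with given local values, and the passage between a full
Euler product and its squarefree part
-/

open Real MeasureTheory Set Filter
open scoped ENNReal Topology

namespace P004E.KT

open P004G

/-! ### multiplicative functions with given local values -/

/-- the multiplicative function with the local values `F p k` at `p ^ k` -/
noncomputable def mk (F : ℕ → ℕ → ℝ) : ArithmeticFunction ℝ :=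
  ⟨fun n => if n = 0 then 0 else n.factorization.prod F, by simp⟩

theorem mk_apply (F : ℕ → ℕ → ℝ) {n : ℕ} (hn : n ≠ 0) : mk F n = n.factorization.prod F := by
  simp [mk, hn]

theorem mk_mult (F : ℕ → ℕ → ℝ) : (mk F).IsMultiplicative := by
  rw [ArithmeticFunction.IsMultiplicative.iff_ne_zero]
  refine ⟨by rw [mk_apply F one_ne_zero]; simp, fun {m n} hm hn h => ?_⟩
  rw [mk_apply F hm, mk_apply F hn, mk_apply F (mul_ne_zero hm hn), Nat.factorization_mul hm hn,
    Finsupp.prod_add_index_of_disjoint]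
  simpa [Nat.support_factorization] using Nat.Coprime.disjoint_primeFactors h

theorem mk_pow (F : ℕ → ℕ → ℝ) (hF : ∀ p, F p 0 = 1) {p : ℕ} (k : ℕ) (hp : p.Prime) :
    mk F (p ^ k) = F p k := by
  rw [mk_apply F (pow_ne_zero _ hp.ne_zero), hp.factorization_pow,
    Finsupp.prod_single_index (hF p)]

/-- the convolution at a prime power -/
theorem mul_pow (f g : ArithmeticFunction ℝ) {p : ℕ} (k : ℕ) (hp : p.Prime) :
    (f * g) (p ^ k) = ∑ i ∈ Finset.range (k + 1), f (p ^ i) * g (p ^ (k - i)) := by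
  rw [ArithmeticFunction.mul_apply, Nat.sum_divisorsAntidiagonal (fun i j => f i * g j),
    Nat.divisors_prime_pow hp, Finset.sum_map]
  refine Finset.sum_congr rfl fun i hi => ?_
  have hi' : i ≤ k := by
    have := Finset.mem_range.1 hi
    omega
  simp only [Function.Embedding.coeFn_mk]
  rw [Nat.pow_div hi' hp.pos]

/-! ### the coefficients -/

variable [Crv]

/-- the coefficients of the twist, normalised at `s = 1`, coprime to `q` -/
noncomputable def av (h : ℤ) (q : ℕ) : ArithmeticFunction ℝ :=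
  ⟨fun n => if n.Coprime q then (ca n : ℝ) / n * chi h n else 0, by simp⟩

theorem av_apply (h : ℤ) (q n : ℕ) :
    av h q n = if n.Coprime q then (ca n : ℝ) / n * chi h n else 0 := rfl

theorem chi_mul (h : ℤ) {m n : ℕ} (hm : m ≠ 0) (hn : n ≠ 0) :
    chi h (m * n) = chi h m * chi h n := by
  unfold chi
  haveI : NeZero m := ⟨hm⟩
  haveI : NeZero n := ⟨hn⟩
  rw [jacobiSym.mul_right]
  push_cast
  rfl

theorem chi_pow (h : ℤ) {p : ℕ} (hp : p ≠ 0) (k : ℕ) : chi h (p ^ k) = chi h p ^ k := by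
  induction k with
  | zero => simp [chi]
  | succ k ih => rw [pow_succ, chi_mul h (pow_ne_zero k hp) hp, ih, pow_succ]

theorem av_mult (h : ℤ) (q : ℕ) : (av h q).IsMultiplicative := by
  rw [ArithmeticFunction.IsMultiplicative.iff_ne_zero]
  refine ⟨by simp [av_apply, pfCoef.one, chi], fun {m n} hm hn hmn => ?_⟩
  simp only [av_apply]
  rw [chi_mul h hm hn, pfCoef.mul m n hmn]
  by_cases h1 : m.Coprime q
  · by_cases h2 : n.Coprime q
    · rw [if_pos h1, if_pos h2, if_pos (Nat.Coprime.mul_left h1 h2)]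
      push_cast
      field_simp
    · rw [if_neg h2, if_neg fun h3 => h2 (Nat.Coprime.coprime_mul_left h3), mul_zero]
  · rw [if_neg h1, if_neg fun h3 => h1 (Nat.Coprime.coprime_mul_right h3), zero_mul]

/-- the local value of the character: `0` at the primes dividing `q` -/
noncomputable def yv (h : ℤ) (q p : ℕ) : ℝ := if p ∣ q then 0 else chi h p

theorem av_pow (h : ℤ) (q : ℕ) {p : ℕ} (hp : p.Prime) (k : ℕ) :
    av h q (p ^ k) = (ca (p ^ k) : ℝ) / (p : ℝ) ^ k * yv h q p ^ k := by
  rw [av_apply, chi_pow h hp.ne_zero]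
  unfold yv
  rcases Nat.eq_zero_or_pos k with rfl | hk
  · simp [pfCoef.one]
  by_cases h1 : p ∣ q
  · rw [if_neg, if_pos h1, zero_pow hk.ne', mul_zero]
    rw [Nat.coprime_pow_left_iff hk, hp.coprime_iff_not_dvd]
    simpa using h1
  · rw [if_pos, if_neg h1]
    · push_cast
      ring
    · rw [Nat.coprime_pow_left_iff hk, hp.coprime_iff_not_dvd]
      exact h1

/-- the value at `p` -/
noncomputable def tv (h : ℤ) (q p : ℕ) : ℝ := (ca p : ℝ) / p * yv h q p

/-- the determinant at `p` -/
noncomputable def sv (h : ℤ) (q p : ℕ) : ℝ := if p ∣ bd then 0 else yv h q p ^ 2 / p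

theorem av_prime (h : ℤ) (q : ℕ) {p : ℕ} (hp : p.Prime) : av h q p = tv h q p := by
  have := av_pow h q hp 1
  simpa [tv] using this

theorem tv_bad (h : ℤ) (q : ℕ) {p : ℕ} (hp : p.Prime) (hb : p ∣ bd) : tv h q p = 0 := by
  unfold tv
  rw [pfCoef.bad p (by rw [hp.coprime_iff_not_dvd]; simpa using hb)]
  simp

theorem av_bad (h : ℤ) (q : ℕ) {p : ℕ} (hp : p.Prime) (hb : p ∣ bd) {k : ℕ} (hk : k ≠ 0) :
    av h q (p ^ k) = 0 := by
  rw [av_pow h q hp, pfCoef.bad (p ^ k)]
  · simp
  · rw [Nat.coprime_pow_left_iff (Nat.pos_of_ne_zero hk), hp.coprime_iff_not_dvd]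
    simpa using hb

theorem av_hecke (h : ℤ) (q : ℕ) {p : ℕ} (hp : p.Prime) (k : ℕ) :
    av h q (p ^ (k + 2)) = tv h q p * av h q (p ^ (k + 1)) - sv h q p * av h q (p ^ k) := by
  by_cases hb : p ∣ bd
  · rw [av_bad h q hp hb (by omega), av_bad h q hp hb (by omega), tv_bad h q hp hb]
    simp [sv, hb]
  have hp0 : (p : ℝ) ≠ 0 := by exact_mod_cast hp.ne_zero
  rw [av_pow h q hp, av_pow h q hp, av_pow h q hp, pfCoef.hecke p k hp hb]
  unfold tv sv
  rw [if_neg hb]
  push_cast
  field_simp
  ring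

/-- the squarefree part -/
noncomputable def bv (h : ℤ) (q : ℕ) : ArithmeticFunction ℝ :=
  ⟨fun n => if Squarefree n then av h q n else 0, by simp⟩

theorem bv_apply (h : ℤ) (q n : ℕ) : bv h q n = if Squarefree n then av h q n else 0 := rfl

theorem bv_mult (h : ℤ) (q : ℕ) : (bv h q).IsMultiplicative := by
  rw [ArithmeticFunction.IsMultiplicative.iff_ne_zero]
  refine ⟨by rw [bv_apply, if_pos squarefree_one, (av_mult h q).map_one], fun {m n} hm hn hmn => ?_⟩
  simp only [bv_apply]
  rw [(av_mult h q).map_mul_of_coprime hmn]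
  by_cases h1 : Squarefree m
  · by_cases h2 : Squarefree n
    · rw [if_pos h1, if_pos h2, if_pos ((Nat.squarefree_mul hmn).2 ⟨h1, h2⟩)]
    · rw [if_neg h2, if_neg fun h3 => h2 ((Nat.squarefree_mul hmn).1 h3).2, mul_zero]
  · rw [if_neg h1, if_neg fun h3 => h1 ((Nat.squarefree_mul hmn).1 h3).1, zero_mul]

theorem bv_pow (h : ℤ) (q : ℕ) {p : ℕ} (hp : p.Prime) (k : ℕ) :
    bv h q (p ^ k) = if k = 0 then 1 else if k = 1 then tv h q p else 0 := by
  rw [bv_apply]
  rcases k with _ | _ | k
  · simp [(av_mult h q).map_one]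
  · simp [hp.prime.squarefree, av_prime h q hp]
  · rw [if_neg, if_neg (by omega), if_neg (by omega)]
    intro h1
    have := (Nat.squarefree_pow_iff hp.one_lt.ne' (by omega : k + 1 + 1 ≠ 0)).1 h1
    omega

/-- the inverse of `bv` -/
noncomputable def βv (h : ℤ) (q : ℕ) : ArithmeticFunction ℝ := mk fun p k => (-tv h q p) ^ k

theorem βv_pow (h : ℤ) (q : ℕ) {p : ℕ} (hp : p.Prime) (k : ℕ) :
    βv h q (p ^ k) = (-tv h q p) ^ k := mk_pow _ (fun p => by simp) k hp

theorem βv_mult (h : ℤ) (q : ℕ) : (βv h q).IsMultiplicative := mk_mult _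

omit [Crv] in
theorem one_pow_apply {p : ℕ} (hp : p.Prime) (k : ℕ) :
    (1 : ArithmeticFunction ℝ) (p ^ k) = if k = 0 then 1 else 0 := by
  rcases Nat.eq_zero_or_pos k with rfl | hk
  · simp
  · rw [if_neg hk.ne', ArithmeticFunction.one_apply_ne]
    intro h1
    have := Nat.one_lt_pow hk.ne' hp.one_lt
    omega

theorem β_mul_b (h : ℤ) (q : ℕ) : βv h q * bv h q = 1 := by
  rw [ArithmeticFunction.IsMultiplicative.eq_iff_eq_on_prime_powers _
    ((βv_mult h q).mul (bv_mult h q)) _ ArithmeticFunction.isMultiplicative_one]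
  intro p k hp
  rw [mul_pow _ _ k hp, one_pow_apply hp]
  rcases k with _ | k
  · simp [(bv_mult h q).map_one, (βv_mult h q).map_one]
  · rw [Finset.sum_range_succ, Finset.sum_range_succ, Finset.sum_eq_zero]
    · rw [βv_pow h q hp, βv_pow h q hp, bv_pow h q hp, bv_pow h q hp]
      simp
      ring
    · intro i hi
      have hi' := Finset.mem_range.1 hi
      rw [bv_pow h q hp, if_neg (by omega), if_neg (by omega), mul_zero]

/-- the inverse of `av` -/
noncomputable def αv (h : ℤ) (q : ℕ) : ArithmeticFunction ℝ :=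
  mk fun p k => if k = 0 then 1 else if k = 1 then -tv h q p else if k = 2 then sv h q p else 0

theorem αv_pow (h : ℤ) (q : ℕ) {p : ℕ} (hp : p.Prime) (k : ℕ) :
    αv h q (p ^ k) =
      if k = 0 then 1 else if k = 1 then -tv h q p else if k = 2 then sv h q p else 0 :=
  mk_pow _ (fun p => by simp) k hp

theorem αv_mult (h : ℤ) (q : ℕ) : (αv h q).IsMultiplicative := mk_mult _

theorem a_mul_α (h : ℤ) (q : ℕ) : av h q * αv h q = 1 := by
  rw [ArithmeticFunction.IsMultiplicative.eq_iff_eq_on_prime_powers _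
    ((av_mult h q).mul (αv_mult h q)) _ ArithmeticFunction.isMultiplicative_one]
  intro p k hp
  rw [mul_pow _ _ k hp, one_pow_apply hp]
  rcases k with _ | _ | k
  · simp [(av_mult h q).map_one, (αv_mult h q).map_one]
  · rw [Finset.sum_range_succ, Finset.sum_range_succ, Finset.sum_range_zero, αv_pow h q hp,
      αv_pow h q hp]
    simp [(av_mult h q).map_one, av_prime h q hp]
  · rw [Finset.sum_range_succ, Finset.sum_range_succ, Finset.sum_range_succ, Finset.sum_eq_zero]
    · rw [αv_pow h q hp, αv_pow h q hp, αv_pow h q hp, av_hecke h q hp]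
      have e1 : k + 1 + 1 - k = 2 := by omega
      have e2 : k + 1 + 1 - (k + 1) = 1 := by omega
      have e3 : k + 1 + 1 - (k + 1 + 1) = 0 := by omega
      rw [e1, e2, e3]
      simp
      ring
    · intro i hi
      have hi' := Finset.mem_range.1 hi
      rw [αv_pow h q hp, if_neg (by omega), if_neg (by omega), if_neg (by omega), mul_zero]

/-- `a = κ * b` -/
noncomputable def κv (h : ℤ) (q : ℕ) : ArithmeticFunction ℝ := av h q * βv h q

/-- `b = e * a` -/
noncomputable def ev (h : ℤ) (q : ℕ) : ArithmeticFunction ℝ := bv h q * αv h q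

theorem κ_mult (h : ℤ) (q : ℕ) : (κv h q).IsMultiplicative := (av_mult h q).mul (mk_mult _)

theorem e_mult (h : ℤ) (q : ℕ) : (ev h q).IsMultiplicative := (bv_mult h q).mul (mk_mult _)

theorem κ_mul_b (h : ℤ) (q : ℕ) : κv h q * bv h q = av h q := by
  rw [κv, mul_assoc, β_mul_b, mul_one]

theorem e_mul_a (h : ℤ) (q : ℕ) : ev h q * av h q = bv h q := by
  rw [ev, mul_assoc, mul_comm (αv h q), a_mul_α, mul_one]

theorem e_mul_κ (h : ℤ) (q : ℕ) : ev h q * κv h q = 1 := by
  rw [κv, ← mul_assoc, e_mul_a, mul_comm, β_mul_b]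

end P004E.KT
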