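import Vale.Agent.P004E.H253.K9

/-!
# P004E/H253: the pointwise a priori bound `StAP`
-/

open Real MeasureTheory Set Filter
open scoped ENNReal Topology

namespace P004E.KT

open P004G

theorem id_le {f : ArithmeticFunction ℝ} (hf : f.IsMultiplicative) (h0 : ∀ n, 0 ≤ f n)
    (h : ∀ p k : ℕ, p.Prime → f (p ^ k) ≤ (p : ℝ) ^ k) (n : ℕ) : f n ≤ n := by
  have h1 := mult_le hf (ArithmeticFunction.isMultiplicative_id.natCast (R := ℝ)) (fun p k hp => by
    rw [abs_of_nonneg (h0 _), ArithmeticFunction.natCoe_apply, ArithmeticFunction.id_apply]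
    push_cast
    exact h p k hp) n
  rw [abs_of_nonneg (h0 _), ArithmeticFunction.natCoe_apply, ArithmeticFunction.id_apply] at h1
  exact h1

theorem Em_le_id (n : ℕ) : Em n ≤ n := by
  refine id_le Em_mult Em_nonneg (fun p k hp => ?_) n
  have hp2 : (2 : ℝ) ≤ p := by exact_mod_cast hp.two_le
  have hp0 : (0 : ℝ) < p := by linarith
  have hs1 : 1 ≤ √(p : ℝ) := by
    rw [Real.one_le_sqrt]
    linarith
  have hpk : (0 : ℝ) ≤ (p : ℝ) ^ k := by positivity
  rw [Em_pow hp]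
  split_ifs with h1 h2 h3
  · rw [h1, pow_zero]
  · rw [h2, div_le_iff₀ hp0]
    nlinarith [mul_nonneg (sub_nonneg.2 hp2) (sub_nonneg.2 hp2), mul_pos hp0 hp0]
  · rw [h3, div_le_iff₀ (by positivity)]
    have h4 : (1 : ℝ) ≤ (p : ℝ) ^ 3 := one_le_pow₀ (by linarith)
    have h5 : 2 ≤ (p : ℝ) * √(p : ℝ) := by nlinarith
    nlinarith
  · exact hpk

theorem Pm_le_id (q n : ℕ) : Pm q n ≤ n := by
  refine id_le (Pm_mult q) (Pm_nonneg q) (fun p k hp => ?_) n
  have hp2 : (2 : ℝ) ≤ p := by exact_mod_cast hp.two_le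
  have hp0 : (0 : ℝ) < p := by linarith
  have hs1 : 1 ≤ √(p : ℝ) := by
    rw [Real.one_le_sqrt]
    linarith
  have hpk : (0 : ℝ) ≤ (p : ℝ) ^ k := by positivity
  rw [Pm_pow q hp]
  split_ifs with h1 h2 h3 h4
  · rw [h1, pow_zero]
  · rw [h3, pow_one, div_le_iff₀ (by linarith)]
    nlinarith
  · rw [h4, div_le_iff₀ hp0]
    nlinarith [mul_pos hp0 hp0]
  · exact hpk
  · exact hpk

/-- the number of divisors -/
theorem two_pow_le_dv {q : ℕ} (hq : q ≠ 0) : (2 : ℝ) ^ q.primeFactors.card ≤ dv q := by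
  unfold P004.dv
  rw [Nat.card_divisors hq]
  push_cast
  rw [← Finset.prod_const]
  refine Finset.prod_le_prod (fun _ _ => by norm_num) fun p hp => ?_
  have h1 := (Nat.prime_of_mem_primeFactors hp).factorization_pos_of_dvd hq
    (Nat.dvd_of_mem_primeFactors hp)
  have h2 : (1 : ℝ) ≤ q.factorization p := by exact_mod_cast h1
  linarith

theorem prod_sq_le_dv {q : ℕ} (hq : q ≠ 0) :
    ∏ p ∈ q.primeFactors, (1 + 1 / √(p : ℝ)) ^ 2 ≤ dv q ^ 2 := by
  rw [Finset.prod_pow]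
  have h1 : ∏ p ∈ q.primeFactors, (1 + 1 / √(p : ℝ)) ≤ dv q := by
    refine le_trans ?_ (two_pow_le_dv hq)
    rw [← Finset.prod_const]
    refine Finset.prod_le_prod (fun _ _ => by positivity) fun p hp => ?_
    have hp1 : (1 : ℝ) ≤ p := by exact_mod_cast (Nat.prime_of_mem_primeFactors hp).one_le
    have hs1 : 1 ≤ √(p : ℝ) := by rwa [Real.one_le_sqrt]
    have : 1 / √(p : ℝ) ≤ 1 := by
      rw [div_le_one (by linarith)]
      exact hs1
    linarith
  have h0 : 0 ≤ ∏ p ∈ q.primeFactors, (1 + 1 / √(p : ℝ)) := Finset.prod_nonneg fun p _ => by positivity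
  exact pow_le_pow_left₀ h0 h1 2

/-- the majorant of the product -/
noncomputable def EP (q : ℕ) : ArithmeticFunction ℝ := Em * Pm q

theorem EP_nonneg (q n : ℕ) : 0 ≤ EP q n := by
  rw [EP, ArithmeticFunction.mul_apply]
  exact Finset.sum_nonneg fun p _ => mul_nonneg (Em_nonneg _) (Pm_nonneg _ _)

theorem EP_le (q n : ℕ) : EP q n ≤ (n : ℝ) ^ 2 := by
  rw [EP, ArithmeticFunction.mul_apply]
  calc ∑ p ∈ n.divisorsAntidiagonal, Em p.1 * Pm q p.2
      ≤ ∑ p ∈ n.divisorsAntidiagonal, (n : ℝ) := by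
        refine Finset.sum_le_sum fun p hp => ?_
        have h3 := (Nat.mem_divisorsAntidiagonal.1 hp).1
        rw [← h3]
        push_cast
        have h4 := Em_nonneg p.1
        have h5 := Pm_nonneg q p.2
        exact mul_le_mul (Em_le_id _) (Pm_le_id _ _) h5 (by positivity)
    _ = (n.divisors.card : ℝ) * (n : ℝ) := by
        rw [Nat.sum_divisorsAntidiagonal (fun _ _ => (n : ℝ)), Finset.sum_const, nsmul_eq_mul]
    _ ≤ (n : ℝ) * (n : ℝ) := by
        gcongr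
        exact_mod_cast Nat.card_divisors_le_self n
    _ = (n : ℝ) ^ 2 := by ring

theorem PS_EP_le {q : ℕ} (hq : q ≠ 0) (x : ℝ) : PS (EP q) x ≤ PS Em x * dv q ^ 2 := by
  rw [EP, PS_mul, PS_eq_Ioc, Finset.sum_mul]
  refine Finset.sum_le_sum fun n _ => ?_
  have h1 := Em_nonneg n
  gcongr
  exact (Pm_sum_le hq _).trans (prod_sq_le_dv hq)

variable [Crv]

theorem av_sq_shift (h : ℤ) (j q : ℕ) : av (h * (j : ℤ) ^ 2) q = av h (q * j) := by
  ext n
  rw [av_apply, av_apply]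
  rcases Nat.eq_zero_or_pos n with rfl | hn
  · simp
  rw [chi_mul_sq h j hn.ne']
  by_cases h1 : n.Coprime q
  · by_cases h2 : n.Coprime j
    · rw [if_pos h1, if_pos h2, if_pos (Nat.Coprime.mul_right h1 h2)]
    · rw [if_pos h1, if_neg h2, if_neg (fun h3 => h2 (Nat.Coprime.coprime_mul_left_right h3)),
        mul_zero]
  · rw [if_neg h1, if_neg (fun h3 => h1 (Nat.Coprime.coprime_mul_right_right h3))]

theorem bv_sq_shift (h : ℤ) (j q : ℕ) : bv (h * (j : ℤ) ^ 2) q = bv h (q * j) := by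
  ext n
  rw [bv_apply, bv_apply, av_sq_shift]

/-- the coefficients of the squarefree sum in terms of the full sum of `h` -/
noncomputable def cP (h : ℤ) (q : ℕ) : ArithmeticFunction ℝ := ev h q * Pq h q

theorem cP_mul (h : ℤ) (q : ℕ) : cP h q * av h 1 = bv h q := by
  rw [cP, mul_assoc, Pq_mul, e_mul_a]

theorem abs_cP_le (h : ℤ) (q n : ℕ) : |cP h q n| ≤ EP q n := by
  rw [cP, EP, ArithmeticFunction.mul_apply, ArithmeticFunction.mul_apply]
  refine (Finset.abs_sum_le_sum_abs _ _).trans (Finset.sum_le_sum fun p _ => ?_)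
  rw [abs_mul]
  exact mul_le_mul (abs_ev_le h q _) (abs_Pq_le h q _) (abs_nonneg _) (Em_nonneg _)

theorem Pb_cP (h : ℤ) (q : ℕ) : Pb (cP h q) := by
  refine ⟨1, fun n => (abs_cP_le h q n).trans ((EP_le q n).trans ?_)⟩
  rcases Nat.eq_zero_or_pos n with rfl | hn
  · simp
  · have : (1 : ℝ) ≤ n := by exact_mod_cast hn
    rw [one_mul]
    exact pow_le_pow_right₀ this (by norm_num)

/-- far values of the full sum -/
theorem tr_far {h : ℤ} {k : ℝ → ℝ} (hk : Kn 0 k) {v : ℝ} (hv : 1 ≤ v) :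
    |tr (av h 1) (kap k) v| ≤ (∑' n : ℕ, (n : ℝ) ^ 1 * Real.exp (-(1 / 2) * n)) *
      Real.exp (-(v / 2)) := by
  have hv0 : 0 < v := by linarith
  have hs := Real.summable_pow_mul_exp_neg_nat_mul 1 (by norm_num : (0 : ℝ) < 1 / 2)
  unfold tr
  rw [← Real.norm_eq_abs]
  refine (tsum_of_norm_bounded (hs.mul_right (Real.exp (-(v / 2)))).hasSum fun n => ?_).trans
    (le_of_eq tsum_mul_right)
  rcases Nat.eq_zero_or_pos n with rfl | hn
  · simp
  have hn' : (0 : ℝ) < n := by exact_mod_cast hn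
  have hn1 : (1 : ℝ) ≤ n := by exact_mod_cast hn
  rw [norm_mul, Real.norm_eq_abs, Real.norm_eq_abs, mul_assoc, ← Real.exp_add]
  have h1 := av_lin h 1 n
  have h2 := abs_kap_le hk (t := n * v) (by positivity)
  calc |av h 1 n| * |kap k (n * v)| ≤ (1 * (n : ℝ)) * Real.exp (-(n * v)) := by gcongr
    _ ≤ (n : ℝ) ^ 1 * Real.exp (-(1 / 2) * n + -(v / 2)) := by
        rw [one_mul, pow_one]
        gcongr
        nlinarith [mul_nonneg (sub_nonneg.2 hn1) (sub_nonneg.2 hv)]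

omit [Crv] in
theorem exp_sqrt_le {r : ℝ} (hr : 0 < r) :
    r ^ 2 * Real.exp (-(√r / 2)) ≤ 10321920 * (1 / r ^ 2) := by
  have hs : 0 < √r := Real.sqrt_pos.2 hr
  have h1 := Real.pow_div_factorial_le_exp (√r / 2) (by positivity) 8
  have h2 : (√r / 2) ^ 8 = r ^ 4 / 256 := by
    have : √r ^ 8 = r ^ 4 := by
      calc √r ^ 8 = (√r ^ 2) ^ 4 := by ring
        _ = r ^ 4 := by rw [Real.sq_sqrt hr.le]
    rw [div_pow, this]
    norm_num
  rw [h2] at h1
  have h3 : ((8 : ℕ).factorial : ℝ) = 40320 := by norm_num [Nat.factorial]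
  rw [h3] at h1
  rw [Real.exp_neg, ← div_eq_mul_inv, div_le_iff₀ (Real.exp_pos _)]
  have h4 : 10321920 * (1 / r ^ 2) * (r ^ 4 / 256 / 40320) = r ^ 2 := by
    field_simp
    ring
  calc r ^ 2 = 10321920 * (1 / r ^ 2) * (r ^ 4 / 256 / 40320) := h4.symm
    _ ≤ 10321920 * (1 / r ^ 2) * Real.exp (√r / 2) := by gcongr

/-- the real form -/
theorem Sw_real : ∃ C : ℝ, 1 ≤ C ∧ ∀ (L u : ℝ) (h : ℤ) (q : ℕ) (k : ℝ → ℝ), 1 ≤ L →
    q ≠ 0 → Real.exp (-L) ≤ u → Kn 0 k → Jz h ≠ ⊤ →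
    |Sw h q u k| ≤ C * L ^ 32 * dv q ^ 2 * (√(Jz h).toReal + 1) := by
  obtain ⟨C₂, hC₂, hEm⟩ := Em_sum_le
  set C₃ := ∑' n : ℕ, (n : ℝ) ^ 1 * Real.exp (-(1 / 2) * n) with hC₃
  have hC₃0 : 0 ≤ C₃ := tsum_nonneg fun n => by positivity
  set C₄ := ∑' n : ℕ, 1 / (n : ℝ) ^ 2 with hC₄
  have hs2 : Summable fun n : ℕ => 1 / (n : ℝ) ^ 2 := Real.summable_one_div_nat_pow.2 (by norm_num)
  have hC₄0 : 0 ≤ C₄ := tsum_nonneg fun n => by positivity
  refine ⟨C₂ * 6 ^ 32 + C₃ * 10321920 * C₄, ?_, fun L u h q k hL hq hu hk hfin => ?_⟩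
  · have : 0 ≤ C₃ * 10321920 * C₄ := by positivity
    nlinarith
  have hu0 : 0 < u := lt_of_lt_of_le (Real.exp_pos _) hu
  set J := √(Jz h).toReal with hJ
  have hJ0 : 0 ≤ J := Real.sqrt_nonneg _
  set R := Real.exp (2 * L) with hR
  have hR0 : 0 < R := Real.exp_pos _
  have hdv : 1 ≤ dv q := P004.H3.one_le_dv hq
  -- the terms
  have hterm : ∀ r : ℕ, ‖cP h q r * tr (av h 1) (kap k) (r * u)‖ ≤
      J * (if (r : ℝ) ≤ R then EP q r else 0) + C₃ * 10321920 * (1 / (r : ℝ) ^ 2) := by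
    intro r
    rcases Nat.eq_zero_or_pos r with rfl | hr
    · simp
    have hr0 : (0 : ℝ) < r := by exact_mod_cast hr
    rw [norm_mul, Real.norm_eq_abs, Real.norm_eq_abs]
    have h1 := abs_cP_le h q r
    have h0 := EP_nonneg q r
    split_ifs with hrR
    · have h2 : |tr (av h 1) (kap k) (r * u)| ≤ J := by
        have h3 := Tw_le (h := h) (v := r * u) hk (by positivity) hfin
        rw [Tw_eq hk (by positivity), abs_mul, abs_of_pos (by norm_num : (0 : ℝ) < 4)] at h3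
        have := abs_nonneg (tr (av h 1) (kap k) (r * u))
        linarith
      have h4 : 0 ≤ C₃ * 10321920 * (1 / (r : ℝ) ^ 2) := by positivity
      have h5 : |cP h q r| * |tr (av h 1) (kap k) (r * u)| ≤ EP q r * J := by gcongr
      linarith
    · push Not at hrR
      -- `r u ≥ √r`
      have hsr : Real.exp L ≤ √(r : ℝ) := by
        apply Real.le_sqrt_of_sq_le
        rw [← Real.exp_nat_mul]
        push_cast
        exact hrR.le
      have hru : √(r : ℝ) ≤ r * u := by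
        calc √(r : ℝ) = √(r : ℝ) * 1 := (mul_one _).symm
          _ ≤ √(r : ℝ) * (√(r : ℝ) * Real.exp (-L)) := by
              gcongr
              rw [Real.exp_neg, ← div_eq_mul_inv, le_div_iff₀ (Real.exp_pos _), one_mul]
              exact hsr
          _ = r * Real.exp (-L) := by rw [← mul_assoc, Real.mul_self_sqrt hr0.le]
          _ ≤ r * u := by gcongr
      have hs1 : 1 ≤ √(r : ℝ) := by
        rw [Real.one_le_sqrt]
        exact_mod_cast hr
      have h2 := tr_far (h := h) hk (v := r * u) (by linarith)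
      calc |cP h q r| * |tr (av h 1) (kap k) (r * u)|
          ≤ (r : ℝ) ^ 2 * (C₃ * Real.exp (-(r * u / 2))) := by
            gcongr
            exact h1.trans (EP_le q r)
        _ ≤ (r : ℝ) ^ 2 * (C₃ * Real.exp (-(√(r : ℝ) / 2))) := by gcongr
        _ = C₃ * ((r : ℝ) ^ 2 * Real.exp (-(√(r : ℝ) / 2))) := by ring
        _ ≤ C₃ * (10321920 * (1 / (r : ℝ) ^ 2)) :=
            mul_le_mul_of_nonneg_left (exp_sqrt_le hr0) hC₃0
        _ = _ := by ring
  have hfinsum : HasSum (fun r : ℕ => if (r : ℝ) ≤ R then EP q r else 0) (PS (EP q) R) := by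
    have h1 : PS (EP q) R = ∑ r ∈ Finset.range (⌊R⌋₊ + 1), (if (r : ℝ) ≤ R then EP q r else 0) := by
      unfold PS
      refine Finset.sum_congr rfl fun r hr => ?_
      rw [if_pos]
      have h3 : r ≤ ⌊R⌋₊ := by
        have := Finset.mem_range.1 hr
        omega
      exact (Nat.le_floor_iff hR0.le).1 h3
    rw [h1]
    refine hasSum_sum_of_ne_finset_zero fun r hr => ?_
    rw [if_neg]
    intro h2
    apply hr
    rw [Finset.mem_range]
    have := Nat.le_floor h2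
    omega
  have hmaj := (hfinsum.mul_left J).add (hs2.hasSum.mul_left (C₃ * 10321920))
  rw [Sw_eq hk hu0, ← cP_mul, tr_mul (Pb_cP h q) (Pb_av h 1) (kap_bd hk) hu0, ← Real.norm_eq_abs]
  refine (tsum_of_norm_bounded hmaj hterm).trans ?_
  have h5 : PS (EP q) R ≤ C₂ * 6 ^ 32 * L ^ 32 * dv q ^ 2 := by
    refine (PS_EP_le hq R).trans ?_
    have h6 : PS Em R ≤ C₂ * 6 ^ 32 * L ^ 32 := by
      refine (hEm R hR0.le).trans ?_
      have h7 : Real.log (1 + R) ≤ 3 * L := by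
        have h8 : 1 + R ≤ Real.exp (3 * L) := by
          have h9 : Real.exp (3 * L) = R * Real.exp L := by
            rw [hR, ← Real.exp_add]
            ring_nf
          have h10 : 2 ≤ Real.exp L := by
            have := Real.add_one_le_exp L
            linarith
          have h11 : 1 ≤ R := Real.one_le_exp (by linarith)
          rw [h9]
          nlinarith
        calc Real.log (1 + R) ≤ Real.log (Real.exp (3 * L)) := Real.log_le_log (by positivity) h8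
          _ = 3 * L := Real.log_exp _
      have h12 : 0 ≤ Real.log (1 + R) := Real.log_nonneg (by linarith)
      calc C₂ * (1 + Real.log (1 + R)) ^ 32 ≤ C₂ * (6 * L) ^ 32 := by
            gcongr
            linarith
        _ = C₂ * 6 ^ 32 * L ^ 32 := by ring
    gcongr
  have h13 : 1 ≤ L ^ 32 * dv q ^ 2 := by
    have h14 : 1 ≤ L ^ 32 := one_le_pow₀ hL
    have h15 : 1 ≤ dv q ^ 2 := one_le_pow₀ hdv
    nlinarith
  have h16 : 0 ≤ C₃ * 10321920 * C₄ := by positivity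
  calc J * PS (EP q) R + C₃ * 10321920 * C₄
      ≤ J * (C₂ * 6 ^ 32 * L ^ 32 * dv q ^ 2) + C₃ * 10321920 * C₄ * (L ^ 32 * dv q ^ 2) :=
        add_le_add (mul_le_mul_of_nonneg_left h5 hJ0) (le_mul_of_one_le_right h16 h13)
    _ ≤ (C₂ * 6 ^ 32 + C₃ * 10321920 * C₄) * (L ^ 32 * dv q ^ 2) * (J + 1) := by
        have h17 : 0 ≤ C₂ * 6 ^ 32 * (L ^ 32 * dv q ^ 2) := by positivity
        have h18 : 0 ≤ C₃ * 10321920 * C₄ * (L ^ 32 * dv q ^ 2) := by positivity
        nlinarith [mul_nonneg hJ0 h18]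
    _ = _ := by ring

/-- **Module S3b** -/
theorem pfAP : StAP := by
  obtain ⟨C, hC, hb⟩ := Sw_real
  refine ⟨2 * C ^ 2, by nlinarith, 64, fun L u ε q j₁ j₂ k hL hε hj₁ hj₂ hq hu hk => ?_⟩
  have hk0 : Kn 0 k := kn_mono hk (by omega)
  have hu0 : 0 < u := lt_of_lt_of_le (Real.exp_pos _) hu
  have hJm : Jz (ε * (j₁ : ℤ)) ≤ Jm j₁ := by
    unfold Jm
    rcases Int.natAbs_eq ε with h1 | h1
    · rw [h1, hε]
      simp
    · rw [h1, hε]
      simp
  have e1 : ε * ((j₁ * j₂ ^ 2 : ℕ) : ℤ) = (ε * (j₁ : ℤ)) * (j₂ : ℤ) ^ 2 := by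
    push_cast
    ring
  have e2 : Sw (ε * ((j₁ * j₂ ^ 2 : ℕ) : ℤ)) q u k = Sw (ε * (j₁ : ℤ)) (q * j₂) u k := by
    rw [e1, Sw_eq hk0 hu0, Sw_eq hk0 hu0, bv_sq_shift]
  have hdq : 1 ≤ dv q := P004.H3.one_le_dv hq.ne'
  have hdj : 1 ≤ dv j₂ := P004.H3.one_le_dv hj₂.ne'
  have hKpos : 0 < 2 * C ^ 2 * L ^ 64 * dv q ^ 64 * dv j₂ ^ 64 := by positivity
  refine le_trans ?_ (mul_le_mul' le_rfl (add_le_add hJm le_rfl) :
    ENNReal.ofReal (2 * C ^ 2 * L ^ 64 * dv q ^ 64 * dv j₂ ^ 64) * (Jz (ε * (j₁ : ℤ)) + 1) ≤ _)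
  by_cases hfin : Jz (ε * (j₁ : ℤ)) = ⊤
  · rw [hfin, top_add, ENNReal.mul_top]
    · exact le_top
    · rw [Ne, ENNReal.ofReal_eq_zero, not_le]
      exact hKpos
  rw [e2]
  have h1 := hb L u (ε * (j₁ : ℤ)) (q * j₂) k hL (mul_ne_zero hq.ne' hj₂.ne') hu hk0 hfin
  set J := (Jz (ε * (j₁ : ℤ))).toReal with hJ
  have hJ0 : 0 ≤ J := ENNReal.toReal_nonneg
  have h2 : dv (q * j₂) ≤ dv q * dv j₂ := P004.H3.dv_mul_le q j₂
  have h3 : Sw (ε * (j₁ : ℤ)) (q * j₂) u k ^ 2 ≤ 2 * C ^ 2 * L ^ 64 * dv q ^ 64 * dv j₂ ^ 64 *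
      (J + 1) := by
    rw [← sq_abs]
    have h4 : 0 ≤ dv (q * j₂) := P004.H3.dv_nonneg _
    have h5 : dv q ^ 4 ≤ dv q ^ 64 := pow_le_pow_right₀ hdq (by norm_num)
    have h6 : dv j₂ ^ 4 ≤ dv j₂ ^ 64 := pow_le_pow_right₀ hdj (by norm_num)
    calc |Sw (ε * (j₁ : ℤ)) (q * j₂) u k| ^ 2
        ≤ (C * L ^ 32 * dv (q * j₂) ^ 2 * (√J + 1)) ^ 2 := by gcongr
      _ ≤ (C * L ^ 32 * (dv q * dv j₂) ^ 2 * (√J + 1)) ^ 2 := by gcongr
      _ = C ^ 2 * L ^ 64 * dv q ^ 4 * dv j₂ ^ 4 * (√J + 1) ^ 2 := by ring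
      _ ≤ C ^ 2 * L ^ 64 * dv q ^ 64 * dv j₂ ^ 64 * (2 * (J + 1)) := by
          have h7 : (√J + 1) ^ 2 ≤ 2 * (J + 1) := by
            have h8 : √J ^ 2 = J := Real.sq_sqrt hJ0
            nlinarith [sq_nonneg (√J - 1)]
          gcongr
      _ = _ := by ring
  calc ENNReal.ofReal (Sw (ε * (j₁ : ℤ)) (q * j₂) u k ^ 2)
      ≤ ENNReal.ofReal (2 * C ^ 2 * L ^ 64 * dv q ^ 64 * dv j₂ ^ 64 * (J + 1)) :=
        ENNReal.ofReal_le_ofReal h3
    _ = ENNReal.ofReal (2 * C ^ 2 * L ^ 64 * dv q ^ 64 * dv j₂ ^ 64) * ENNReal.ofReal (J + 1) :=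
        ENNReal.ofReal_mul hKpos.le
    _ = _ := by
        rw [ENNReal.ofReal_add hJ0 zero_le_one, ENNReal.ofReal_toReal hfin, ENNReal.ofReal_one]

end P004E.KT
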