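import Vale.Agent.P004E.H253.K1
import Vale.Agent.P004.H293.PrimeSums

/-!
# P004E/H253: local bounds
-/

open Real MeasureTheory Set Filter
open scoped ENNReal Topology

namespace P004E.KT

open P004G

variable [Crv]

/-- no small zero of the local factors (only `p = 3` matters) -/
abbrev Hlam : Prop := StHlam

/-- the bound for the local parameter -/
noncomputable def rr (p : ℕ) : ℝ := min (2 / √(p : ℝ)) (9 / 10)

omit [Crv] in
theorem rr_pos {p : ℕ} (hp : p.Prime) : 0 < rr p := by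
  have : (0 : ℝ) < p := by exact_mod_cast hp.pos
  unfold rr
  have : 0 < √(p : ℝ) := Real.sqrt_pos.2 this
  exact lt_min (by positivity) (by norm_num)

omit [Crv] in
theorem rr_le (p : ℕ) : rr p ≤ 9 / 10 := min_le_right _ _

omit [Crv] in
theorem rr_le' (p : ℕ) : rr p ≤ 2 / √(p : ℝ) := min_le_left _ _

omit [Crv] in
theorem inv_sqrt_le {p : ℕ} (hp : 3 ≤ p) : 1 / √(p : ℝ) ≤ 2 / 3 * rr p := by
  have h3 : (3 : ℝ) ≤ p := by exact_mod_cast hp
  have hs : 0 < √(p : ℝ) := Real.sqrt_pos.2 (by linarith)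
  have h1 : 5 / 3 ≤ √(p : ℝ) := by
    apply Real.le_sqrt_of_sq_le
    norm_num
    linarith
  unfold rr
  rw [mul_min_of_nonneg _ _ (by norm_num : (0 : ℝ) ≤ 2 / 3)]
  refine le_min ?_ ?_
  · rw [← mul_div_assoc]
    gcongr
    norm_num
  · rw [div_le_iff₀ hs]
    linarith

theorem three_le {p : ℕ} (hp : p.Prime) (hb : ¬ p ∣ bd) : 3 ≤ p := by
  rcases hp.two_le.eq_or_lt with h | h
  · exact absurd (h ▸ two_dvd_bd) hb
  · omega

theorem abs_yv_le (h : ℤ) (q p : ℕ) : |yv h q p| ≤ 1 := by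
  unfold yv
  split_ifs
  · simp
  · exact P004.H3.abs_chi_le h p

theorem ca_prime_pow_le {p : ℕ} (hp : p.Prime) (k : ℕ) :
    |(ca (p ^ k) : ℝ)| / (p : ℝ) ^ k ≤ (k + 1) * (1 / √(p : ℝ)) ^ k := by
  have hp0 : (0 : ℝ) < p := by exact_mod_cast hp.pos
  have hs : 0 < √(p : ℝ) := Real.sqrt_pos.2 hp0
  have h1 := pfCoef.bound (p ^ k)
  rw [P004.H128.dv_pow hp k] at h1
  have h2 : √((p ^ k : ℕ) : ℝ) = √(p : ℝ) ^ k := by
    push_cast
    rw [Real.sqrt_eq_rpow, Real.sqrt_eq_rpow, ← Real.rpow_natCast, ← Real.rpow_natCast,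
      ← Real.rpow_mul hp0.le, ← Real.rpow_mul hp0.le, mul_comm]
  rw [h2] at h1
  rw [div_le_iff₀ (by positivity)]
  refine h1.trans (le_of_eq ?_)
  have h3 : (p : ℝ) ^ k = √(p : ℝ) ^ k * √(p : ℝ) ^ k := by
    rw [← _root_.mul_pow, Real.mul_self_sqrt hp0.le]
  rw [h3, one_div, inv_pow]
  field_simp

/-- the value of `ca p / p` -/
theorem ca_div_le (hH : Hlam) {p : ℕ} (hp : p.Prime) (hb : ¬ p ∣ bd) :
    |(ca p : ℝ) / p| ≤ rr p := by
  have hp0 : (0 : ℝ) < p := by exact_mod_cast hp.pos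
  rw [abs_div, abs_of_pos hp0]
  refine le_min ?_ ?_
  · have := ca_prime_pow_le hp 1
    simp only [pow_one] at this
    refine this.trans (le_of_eq ?_)
    norm_num
    ring
  · rw [div_le_iff₀ hp0]
    have := hH p hp hb
    linarith

theorem abs_tv_le (hH : Hlam) (h : ℤ) (q : ℕ) {p : ℕ} (hp : p.Prime) : |tv h q p| ≤ rr p := by
  by_cases hb : p ∣ bd
  · rw [tv_bad h q hp hb, abs_zero]
    exact (rr_pos hp).le
  · unfold tv
    rw [abs_mul]
    have h1 := ca_div_le hH hp hb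
    have h2 := abs_yv_le h q p
    calc |(ca p : ℝ) / p| * |yv h q p| ≤ rr p * 1 := by gcongr; exact (rr_pos hp).le
      _ = rr p := mul_one _

theorem abs_av_le (h : ℤ) (q : ℕ) {p : ℕ} (hp : p.Prime) (k : ℕ) :
    |av h q (p ^ k)| ≤ (k + 1) * (2 / 3 * rr p) ^ k := by
  rcases Nat.eq_zero_or_pos k with rfl | hk
  · simp [(av_mult h q).map_one]
  by_cases hb : p ∣ bd
  · rw [av_bad h q hp hb hk.ne', abs_zero]
    have := rr_pos hp
    positivity
  · have hp0 : (0 : ℝ) < p := by exact_mod_cast hp.pos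
    have hs : 0 < √(p : ℝ) := Real.sqrt_pos.2 hp0
    rw [av_pow h q hp, abs_mul, abs_div, abs_pow, abs_pow, abs_of_pos hp0]
    have h1 := ca_prime_pow_le hp k
    have h2 : |yv h q p| ^ k ≤ 1 := pow_le_one₀ (abs_nonneg _) (abs_yv_le h q p)
    have h3 := inv_sqrt_le (three_le hp hb)
    calc |(ca (p ^ k) : ℝ)| / (p : ℝ) ^ k * |yv h q p| ^ k
        ≤ ((k + 1) * (1 / √(p : ℝ)) ^ k) * 1 := by gcongr
      _ = (k + 1) * (1 / √(p : ℝ)) ^ k := mul_one _
      _ ≤ (k + 1) * (2 / 3 * rr p) ^ k := by gcongr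

theorem abs_βv_le (hH : Hlam) (h : ℤ) (q : ℕ) {p : ℕ} (hp : p.Prime) (k : ℕ) :
    |βv h q (p ^ k)| ≤ rr p ^ k := by
  rw [βv_pow h q hp, abs_pow, abs_neg]
  exact pow_le_pow_left₀ (abs_nonneg _) (abs_tv_le hH h q hp) k

omit [Crv] in
theorem sum_two_thirds (n : ℕ) :
    ∑ i ∈ Finset.range n, ((i : ℝ) + 1) * (2 / 3) ^ i = 9 - (9 + 3 * n) * (2 / 3) ^ n := by
  induction n with
  | zero => simp
  | succ n ih =>
    rw [Finset.sum_range_succ, ih, pow_succ]
    push_cast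
    ring

theorem abs_κv_le (hH : Hlam) (h : ℤ) (q : ℕ) {p : ℕ} (hp : p.Prime) (k : ℕ) :
    |κv h q (p ^ k)| ≤ 9 * rr p ^ k := by
  have hr := rr_pos hp
  rw [κv, mul_pow _ _ k hp]
  refine (Finset.abs_sum_le_sum_abs _ _).trans ?_
  calc ∑ i ∈ Finset.range (k + 1), |av h q (p ^ i) * βv h q (p ^ (k - i))|
      ≤ ∑ i ∈ Finset.range (k + 1), ((i : ℝ) + 1) * (2 / 3) ^ i * rr p ^ k := by
        refine Finset.sum_le_sum fun i hi => ?_
        have hi' : i ≤ k := by
          have := Finset.mem_range.1 hi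
          omega
        rw [abs_mul]
        calc |av h q (p ^ i)| * |βv h q (p ^ (k - i))|
            ≤ ((i + 1) * (2 / 3 * rr p) ^ i) * rr p ^ (k - i) := by
              gcongr
              · exact abs_av_le h q hp i
              · exact abs_βv_le hH h q hp _
          _ = ((i : ℝ) + 1) * (2 / 3) ^ i * (rr p ^ i * rr p ^ (k - i)) := by
              rw [_root_.mul_pow]; ring
          _ = ((i : ℝ) + 1) * (2 / 3) ^ i * rr p ^ k := by
              rw [← pow_add, Nat.add_sub_cancel' hi']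
    _ = (∑ i ∈ Finset.range (k + 1), ((i : ℝ) + 1) * (2 / 3) ^ i) * rr p ^ k := by
        rw [Finset.sum_mul]
    _ ≤ 9 * rr p ^ k := by
        rw [sum_two_thirds]
        gcongr
        have : (0 : ℝ) ≤ (9 + 3 * ((k + 1 : ℕ) : ℝ)) * (2 / 3) ^ (k + 1) := by positivity
        linarith

theorem κv_one (h : ℤ) (q : ℕ) {p : ℕ} (hp : p.Prime) : κv h q p = 0 := by
  have := mul_pow (av h q) (βv h q) 1 hp
  rw [pow_one] at this
  rw [κv, this, Finset.sum_range_succ, Finset.sum_range_succ, Finset.sum_range_zero,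
    βv_pow h q hp, βv_pow h q hp]
  simp [(av_mult h q).map_one, av_prime h q hp]

theorem κv_two (h : ℤ) (q : ℕ) {p : ℕ} (hp : p.Prime) :
    κv h q (p ^ 2) = tv h q p ^ 2 - sv h q p := by
  have h2 := av_hecke h q hp 0
  rw [κv, mul_pow _ _ 2 hp, Finset.sum_range_succ, Finset.sum_range_succ, Finset.sum_range_succ,
    Finset.sum_range_zero, βv_pow h q hp, βv_pow h q hp, βv_pow h q hp]
  simp only [zero_add, pow_zero, pow_one] at h2
  rw [h2]
  simp [(av_mult h q).map_one, av_prime h q hp]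
  ring

/-! ### the fixed part -/

/-- `(λ_p² - 1) / p` -/
noncomputable def γv (p : ℕ) : ℝ := if p ∣ bd then 0 else (lam p ^ 2 - 1) / p

theorem lam_sq_div {p : ℕ} (hp : p.Prime) : lam p ^ 2 / p = ((ca p : ℝ) / p) ^ 2 := by
  have hp0 : (0 : ℝ) < p := by exact_mod_cast hp.pos
  unfold lam
  rw [div_pow, Real.sq_sqrt hp0.le]
  field_simp

theorem γv_good {p : ℕ} (hp : p.Prime) (hb : ¬ p ∣ bd) :
    γv p = ((ca p : ℝ) / p) ^ 2 - 1 / p := by
  rw [γv, if_neg hb, sub_div, lam_sq_div hp]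

theorem inv_le_rr_sq {p : ℕ} (hp : p.Prime) (hb : ¬ p ∣ bd) : 1 / (p : ℝ) ≤ rr p ^ 2 := by
  have hp0 : (0 : ℝ) < p := by exact_mod_cast hp.pos
  have hs : 0 < √(p : ℝ) := Real.sqrt_pos.2 hp0
  have h3 := inv_sqrt_le (three_le hp hb)
  have hr := rr_pos hp
  calc 1 / (p : ℝ) = (1 / √(p : ℝ)) ^ 2 := by rw [div_pow, Real.sq_sqrt hp0.le, one_pow]
    _ ≤ (2 / 3 * rr p) ^ 2 := by gcongr
    _ ≤ rr p ^ 2 := by nlinarith

theorem abs_γv_le (hH : Hlam) {p : ℕ} (hp : p.Prime) : |γv p| ≤ rr p ^ 2 := by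
  have hr := rr_pos hp
  by_cases hb : p ∣ bd
  · rw [γv, if_pos hb, abs_zero]
    positivity
  · rw [γv_good hp hb]
    have h1 := inv_le_rr_sq hp hb
    have h2 : ((ca p : ℝ) / p) ^ 2 ≤ rr p ^ 2 := by
      rw [← sq_abs]
      exact pow_le_pow_left₀ (abs_nonneg _) (ca_div_le hH hp hb) 2
    have h3 : 0 ≤ ((ca p : ℝ) / p) ^ 2 := sq_nonneg _
    have h4 : 0 ≤ 1 / (p : ℝ) := by positivity
    rw [abs_le]
    constructor <;> linarith

/-- the fixed part -/
noncomputable def Gv : ArithmeticFunction ℝ :=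
  mk fun p k => if k = 0 then 1 else if k = 2 then γv p else 0

/-- its inverse -/
noncomputable def Hv : ArithmeticFunction ℝ :=
  mk fun p k => if Even k then (-γv p) ^ (k / 2) else 0

theorem Gv_pow {p : ℕ} (hp : p.Prime) (k : ℕ) :
    (Gv : ArithmeticFunction ℝ) (p ^ k) = if k = 0 then 1 else if k = 2 then γv p else 0 :=
  mk_pow _ (fun p => by simp) k hp

theorem Hv_pow {p : ℕ} (hp : p.Prime) (k : ℕ) :
    (Hv : ArithmeticFunction ℝ) (p ^ k) = if Even k then (-γv p) ^ (k / 2) else 0 :=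
  mk_pow _ (fun p => by simp) k hp

theorem Gv_mult : (Gv : ArithmeticFunction ℝ).IsMultiplicative := mk_mult _

theorem Hv_mult : (Hv : ArithmeticFunction ℝ).IsMultiplicative := mk_mult _

theorem H_mul_G : (Hv * Gv : ArithmeticFunction ℝ) = 1 := by
  rw [ArithmeticFunction.IsMultiplicative.eq_iff_eq_on_prime_powers _
    (Hv_mult.mul Gv_mult) _ ArithmeticFunction.isMultiplicative_one]
  intro p k hp
  rw [mul_pow _ _ k hp, one_pow_apply hp]
  rcases k with _ | _ | k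
  · simp [Gv_mult.map_one, Hv_mult.map_one]
  · rw [Finset.sum_range_succ, Finset.sum_range_succ, Finset.sum_range_zero, Gv_pow hp,
      Gv_pow hp, Hv_pow hp, Hv_pow hp]
    simp
  · rw [Finset.sum_range_succ, Finset.sum_range_succ, Finset.sum_range_succ, Finset.sum_eq_zero]
    · rw [Gv_pow hp, Gv_pow hp, Gv_pow hp, Hv_pow hp, Hv_pow hp, Hv_pow hp]
      have e1 : k + 1 + 1 - k = 2 := by omega
      have e2 : k + 1 + 1 - (k + 1) = 1 := by omega
      have e3 : k + 1 + 1 - (k + 1 + 1) = 0 := by omega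
      rw [e1, e2, e3]
      have e4 : (k + 1 + 1) / 2 = k / 2 + 1 := by omega
      rw [e4]
      by_cases hk : Even k
      · have hk2 : Even (k + 1 + 1) := by
          rw [show k + 1 + 1 = k + 2 by ring]
          exact hk.add (by norm_num)
        rw [if_pos hk, if_pos hk2]
        simp
        ring
      · have hk2 : ¬ Even (k + 1 + 1) := by
          rw [show k + 1 + 1 = k + 2 by ring]
          intro h1
          exact hk ((Nat.even_add.1 h1).2 (by norm_num))
        rw [if_neg hk, if_neg hk2]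
        simp
    · intro i hi
      have hi' := Finset.mem_range.1 hi
      rw [Gv_pow hp, if_neg (by omega), if_neg (by omega), mul_zero]

theorem abs_Hv_le (hH : Hlam) {p : ℕ} (hp : p.Prime) (k : ℕ) :
    |(Hv : ArithmeticFunction ℝ) (p ^ k)| ≤ rr p ^ k := by
  have hr := rr_pos hp
  rw [Hv_pow hp]
  split_ifs with hk
  · rw [abs_pow, abs_neg]
    calc |γv p| ^ (k / 2) ≤ (rr p ^ 2) ^ (k / 2) := by
          gcongr
          exact abs_γv_le hH hp
      _ = rr p ^ k := by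
          rw [← pow_mul, Nat.two_mul_div_two_of_even hk]
  · rw [abs_zero]
    positivity

/-- the correction -/
noncomputable def wv (h : ℤ) (q : ℕ) : ArithmeticFunction ℝ := κv h q * Hv

theorem w_mult (h : ℤ) (q : ℕ) : (wv h q).IsMultiplicative := (κ_mult h q).mul Hv_mult

theorem κ_eq (h : ℤ) (q : ℕ) : κv h q = wv h q * Gv := by
  rw [wv, mul_assoc, H_mul_G, mul_one]

theorem abs_wv_le (hH : Hlam) (h : ℤ) (q : ℕ) {p : ℕ} (hp : p.Prime) (k : ℕ) :
    |wv h q (p ^ k)| ≤ 9 * (k + 1) * rr p ^ k := by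
  have hr := rr_pos hp
  rw [wv, mul_pow _ _ k hp]
  refine (Finset.abs_sum_le_sum_abs _ _).trans ?_
  calc ∑ i ∈ Finset.range (k + 1), |κv h q (p ^ i) * Hv (p ^ (k - i))|
      ≤ ∑ i ∈ Finset.range (k + 1), 9 * rr p ^ k := by
        refine Finset.sum_le_sum fun i hi => ?_
        have hi' : i ≤ k := by
          have := Finset.mem_range.1 hi
          omega
        rw [abs_mul]
        calc |κv h q (p ^ i)| * |Hv (p ^ (k - i))|
            ≤ (9 * rr p ^ i) * rr p ^ (k - i) := by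
              gcongr
              · exact abs_κv_le hH h q hp i
              · exact abs_Hv_le hH hp _
          _ = 9 * (rr p ^ i * rr p ^ (k - i)) := by ring
          _ = 9 * rr p ^ k := by
              rw [← pow_add, Nat.add_sub_cancel' hi']
    _ = 9 * (k + 1) * rr p ^ k := by
        rw [Finset.sum_const, Finset.card_range, nsmul_eq_mul]
        push_cast
        ring

theorem wv_one (h : ℤ) (q : ℕ) {p : ℕ} (hp : p.Prime) : wv h q p = 0 := by
  have := mul_pow (κv h q) Hv 1 hp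
  rw [pow_one] at this
  rw [wv, this, Finset.sum_range_succ, Finset.sum_range_succ, Finset.sum_range_zero,
    Hv_pow hp, Hv_pow hp]
  simp [(κ_mult h q).map_one, κv_one h q hp]

theorem wv_two (h : ℤ) (q : ℕ) {p : ℕ} (hp : p.Prime) :
    wv h q (p ^ 2) = tv h q p ^ 2 - sv h q p - γv p := by
  rw [wv, mul_pow _ _ 2 hp, Finset.sum_range_succ, Finset.sum_range_succ, Finset.sum_range_succ,
    Finset.sum_range_zero, Hv_pow hp, Hv_pow hp, Hv_pow hp, κv_two h q hp]
  simp [(κ_mult h q).map_one]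
  ring

omit [Crv] in
theorem chi_sq_eq_one {h : ℤ} {p : ℕ} (hp : p.Prime) (h2 : ¬ p ∣ h.natAbs) :
    chi h p ^ 2 = 1 := by
  unfold chi
  have h3 : Int.gcd h p = 1 := by
    have h4 : Nat.Coprime h.natAbs p := ((hp.coprime_iff_not_dvd).2 h2).symm
    rw [Int.gcd_eq_natAbs]
    simpa using h4
  have h6 := jacobiSym.sq_one h3
  exact_mod_cast h6

omit [Crv] in
theorem chi_eq_zero {h : ℤ} {p : ℕ} (hp : p.Prime) (h2 : p ∣ h.natAbs) : chi h p = 0 := by
  unfold chi
  rw [(jacobiSym.eq_zero_iff).2 ⟨hp.ne_zero, ?_⟩]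
  · simp
  · rw [Int.gcd_eq_natAbs]
    intro h3
    have h4 : p ∣ Nat.gcd h.natAbs (p : ℤ).natAbs := Nat.dvd_gcd h2 (by simp)
    rw [h3] at h4
    exact hp.one_lt.ne' (Nat.dvd_one.1 h4)

theorem abs_wv_two_le (hH : Hlam) {h : ℤ} {q : ℕ} {p : ℕ} (hp : p.Prime) :
    |wv h q (p ^ 2)| ≤ if p ∣ h.natAbs * q then rr p ^ 2 else 0 := by
  have hr := rr_pos hp
  rw [wv_two h q hp]
  by_cases hb : p ∣ bd
  · rw [tv_bad h q hp hb, sv, if_pos hb, γv, if_pos hb]
    simp
    split_ifs <;> positivity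
  by_cases h1 : p ∣ q
  · rw [if_pos (dvd_mul_of_dvd_right h1 _)]
    have e1 : tv h q p = 0 := by simp [tv, yv, h1]
    have e2 : sv h q p = 0 := by simp [sv, yv, h1]
    rw [e1, e2]
    have := abs_γv_le hH hp
    simpa using this
  by_cases h2 : p ∣ h.natAbs
  · rw [if_pos (dvd_mul_of_dvd_left h2 _)]
    have e0 : chi h p = 0 := chi_eq_zero hp h2
    have e1 : tv h q p = 0 := by simp [tv, yv, e0]
    have e2 : sv h q p = 0 := by simp [sv, yv, e0]
    rw [e1, e2]
    have := abs_γv_le hH hp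
    simpa using this
  · rw [if_neg (fun h3 => by
      rcases (hp.dvd_mul).1 h3 with h4 | h4
      · exact h2 h4
      · exact h1 h4)]
    have e0 : yv h q p ^ 2 = 1 := by rw [yv, if_neg h1]; exact chi_sq_eq_one hp h2
    rw [γv_good hp hb, tv, sv, if_neg hb, _root_.mul_pow, e0]
    simp

end P004E.KT
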