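import Vale.Agent.P004E.H253.K2
import Vale.Agent.P004E.SDefs

/-!
# P004E/H253: Dirichlet convolutions and summation by parts
-/

open Real MeasureTheory Set Filter
open scoped ENNReal Topology

namespace P004E.KT

open P004G

/-- the sum over a Dirichlet convolution -/
theorem hasSum_conv {f : ℕ × ℕ → ℝ} (hf : Summable f) (h0 : ∀ p : ℕ × ℕ, p.1 * p.2 = 0 → f p = 0) :
    HasSum (fun n : ℕ => ∑ p ∈ n.divisorsAntidiagonal, f p) (∑' p, f p) := by
  have h1 := hf.hasSum.tsum_fiberwise (fun p : ℕ × ℕ => p.1 * p.2)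
  have e : (fun n : ℕ => ∑ p ∈ n.divisorsAntidiagonal, f p) =
      fun c : ℕ => ∑' b : (fun p : ℕ × ℕ => p.1 * p.2) ⁻¹' {c}, f b := by
    funext n
    rcases eq_or_ne n 0 with rfl | hn
    · have : ∀ b : (fun p : ℕ × ℕ => p.1 * p.2) ⁻¹' {0}, f b = 0 := fun b => h0 b b.2
      simp [this]
    · have h2 : (fun p : ℕ × ℕ => p.1 * p.2) ⁻¹' {n} = (n.divisorsAntidiagonal : Set (ℕ × ℕ)) := by
        ext p
        simp [hn]
      rw [h2, Finset.tsum_subtype' n.divisorsAntidiagonal f]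
  rw [e]
  exact h1

/-- polynomially bounded -/
def Pb (f : ArithmeticFunction ℝ) : Prop := ∃ C : ℝ, ∀ n : ℕ, |f n| ≤ C * (n : ℝ) ^ 3

/-- kernels: `K t = ∫_1^∞ K₁ (t x) dx / x` -/
structure KK (K K₁ : ℝ → ℝ) : Prop where
  meas : Measurable K₁
  bd : ∃ M : ℝ, ∀ t, 0 < t → |K t| ≤ M * Real.exp (-t)
  bd₁ : ∃ M : ℝ, ∀ t, 0 < t → |K₁ t| ≤ M * Real.exp (-t)
  eq : ∀ t, 0 < t → K t = ∫ x in Ioi (1 : ℝ), K₁ (t * x) / x

/-- the sum `∑ f n K (n u)` -/
noncomputable def tr (f : ArithmeticFunction ℝ) (K : ℝ → ℝ) (u : ℝ) : ℝ :=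
  ∑' n : ℕ, f n * K (n * u)

/-- partial sums -/
noncomputable def PS (f : ArithmeticFunction ℝ) (x : ℝ) : ℝ :=
  ∑ n ∈ Finset.range (⌊x⌋₊ + 1), f n

theorem mul_ge {r m : ℕ} (hr : 1 ≤ r) (hm : 1 ≤ m) {u : ℝ} (hu : 0 < u) :
    r * (u / 2) + m * (u / 2) ≤ (r : ℝ) * m * u := by
  have h1 : (1 : ℝ) ≤ r := by exact_mod_cast hr
  have h2 : (1 : ℝ) ≤ m := by exact_mod_cast hm
  nlinarith [mul_nonneg (sub_nonneg.2 h1) (sub_nonneg.2 h2), mul_nonneg (sub_nonneg.2 h1) hu.le,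
    mul_nonneg (sub_nonneg.2 h2) hu.le,
    mul_nonneg (mul_nonneg (sub_nonneg.2 h1) (sub_nonneg.2 h2)) hu.le]

theorem nonneg_of_Pb {f : ArithmeticFunction ℝ} {C : ℝ} (h : ∀ n : ℕ, |f n| ≤ C * (n : ℝ) ^ 3) :
    0 ≤ C := by
  have := h 1
  have h2 := abs_nonneg (f 1)
  simp only [Nat.cast_one, one_pow, mul_one] at this
  linarith

/-- the majorant over pairs is summable -/
theorem summable_pair (C : ℝ) {u : ℝ} (hu : 0 < u) :
    Summable fun p : ℕ × ℕ => C * (((p.1 : ℝ) ^ 3 * Real.exp (-(u / 2) * p.1)) *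
      ((p.2 : ℝ) ^ 3 * Real.exp (-(u / 2) * p.2))) := by
  refine Summable.mul_left _ ?_
  have h1 := Real.summable_pow_mul_exp_neg_nat_mul 3 (half_pos hu)
  exact h1.mul_of_nonneg h1 (fun n => by positivity) (fun n => by positivity)

/-- the bound for one pair -/
theorem pair_le {κ b : ArithmeticFunction ℝ} {C₁ C₂ : ℝ} (h1 : ∀ n : ℕ, |κ n| ≤ C₁ * (n : ℝ) ^ 3)
    (h2 : ∀ n : ℕ, |b n| ≤ C₂ * (n : ℝ) ^ 3) {u M y : ℝ} (hu : 0 < u) (hM : 0 ≤ M) (p : ℕ × ℕ)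
    (hy : 1 ≤ p.1 → 1 ≤ p.2 → |y| ≤ M * Real.exp (-((p.1 : ℝ) * p.2 * u))) :
    |κ p.1 * b p.2 * y| ≤ (C₁ * C₂ * M) * (((p.1 : ℝ) ^ 3 * Real.exp (-(u / 2) * p.1)) *
      ((p.2 : ℝ) ^ 3 * Real.exp (-(u / 2) * p.2))) := by
  have hC1 := nonneg_of_Pb h1
  have hC2 := nonneg_of_Pb h2
  rcases Nat.eq_zero_or_pos p.1 with hp | hp
  · rw [hp]
    simp
  rcases Nat.eq_zero_or_pos p.2 with hq | hq
  · rw [hq]
    simp
  rw [abs_mul, abs_mul]
  have h3 := hy hp hq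
  have h4 : Real.exp (-((p.1 : ℝ) * p.2 * u)) ≤
      Real.exp (-(u / 2) * p.1) * Real.exp (-(u / 2) * p.2) := by
    rw [← Real.exp_add]
    apply Real.exp_le_exp.2
    have := mul_ge hp hq hu
    linarith
  calc |κ p.1| * |b p.2| * |y|
      ≤ (C₁ * (p.1 : ℝ) ^ 3) * (C₂ * (p.2 : ℝ) ^ 3) * (M * (Real.exp (-(u / 2) * p.1) *
        Real.exp (-(u / 2) * p.2))) := by
        gcongr
        · exact h1 _
        · exact h2 _
        · exact h3.trans (by gcongr)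
    _ = _ := by ring

theorem summable_pairK {κ b : ArithmeticFunction ℝ} (hκ : Pb κ) (hb : Pb b) {K : ℝ → ℝ}
    (hK : ∃ M : ℝ, ∀ t, 0 < t → |K t| ≤ M * Real.exp (-t)) {u : ℝ} (hu : 0 < u) :
    Summable fun p : ℕ × ℕ => κ p.1 * b p.2 * K (p.1 * p.2 * u) := by
  obtain ⟨C₁, h1⟩ := hκ
  obtain ⟨C₂, h2⟩ := hb
  obtain ⟨M, hM⟩ := hK
  refine Summable.of_norm_bounded (summable_pair (C₁ * C₂ * |M|) hu) fun p => ?_
  rw [Real.norm_eq_abs]
  refine pair_le h1 h2 hu (abs_nonneg M) p fun hp hq => ?_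
  have h3 : (0 : ℝ) < (p.1 : ℝ) * p.2 * u := by
    have : (0 : ℝ) < p.1 := by exact_mod_cast hp
    have : (0 : ℝ) < p.2 := by exact_mod_cast hq
    positivity
  exact (hM _ h3).trans (by gcongr; exact le_abs_self M)

/-- the sum of a convolution -/
theorem tr_conv {κ b : ArithmeticFunction ℝ} (hκ : Pb κ) (hb : Pb b) {K : ℝ → ℝ}
    (hK : ∃ M : ℝ, ∀ t, 0 < t → |K t| ≤ M * Real.exp (-t)) {u : ℝ} (hu : 0 < u) :
    tr (κ * b) K u = ∑' p : ℕ × ℕ, κ p.1 * b p.2 * K (p.1 * p.2 * u) := by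
  have h1 := hasSum_conv (summable_pairK hκ hb hK hu) (fun p hp => by
    rcases Nat.mul_eq_zero.1 hp with h | h <;> simp [h])
  unfold tr
  rw [← h1.tsum_eq]
  refine tsum_congr fun n => ?_
  rw [ArithmeticFunction.mul_apply, Finset.sum_mul]
  refine Finset.sum_congr rfl fun p hp => ?_
  have h2 := (Nat.mem_divisorsAntidiagonal.1 hp).1
  rw [← h2]
  push_cast
  ring

theorem tr_mul {κ b : ArithmeticFunction ℝ} (hκ : Pb κ) (hb : Pb b) {K : ℝ → ℝ}
    (hK : ∃ M : ℝ, ∀ t, 0 < t → |K t| ≤ M * Real.exp (-t)) {u : ℝ} (hu : 0 < u) :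
    tr (κ * b) K u = ∑' r : ℕ, κ r * tr b K (r * u) := by
  rw [tr_conv hκ hb hK hu, (summable_pairK hκ hb hK hu).tsum_prod]
  refine tsum_congr fun r => ?_
  unfold tr
  rw [← tsum_mul_left]
  refine tsum_congr fun m => ?_
  rw [show (r : ℝ) * m * u = m * (r * u) by ring]
  ring

theorem summable_tr {b : ArithmeticFunction ℝ} (hb : Pb b) {K : ℝ → ℝ}
    (hK : ∃ M : ℝ, ∀ t, 0 < t → |K t| ≤ M * Real.exp (-t)) {u : ℝ} (hu : 0 < u) :
    Summable fun m : ℕ => b m * K (m * u) := by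
  obtain ⟨C₂, h2⟩ := hb
  obtain ⟨M, hM⟩ := hK
  have hC := nonneg_of_Pb h2
  have h1 := (Real.summable_pow_mul_exp_neg_nat_mul 3 hu).mul_left (C₂ * |M|)
  refine Summable.of_norm_bounded h1 fun m => ?_
  rcases Nat.eq_zero_or_pos m with rfl | hm
  · simp
  have hm' : (0 : ℝ) < m := by exact_mod_cast hm
  rw [Real.norm_eq_abs, abs_mul]
  calc |b m| * |K (m * u)| ≤ (C₂ * (m : ℝ) ^ 3) * (|M| * Real.exp (-(m * u))) := by
        gcongr
        · exact h2 m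
        · exact (hM _ (by positivity)).trans (by gcongr; exact le_abs_self M)
    _ = C₂ * |M| * ((m : ℝ) ^ 3 * Real.exp (-u * m)) := by
        rw [show -u * (m : ℝ) = -(m * u) by ring]; ring

/-- **summation by parts** -/
theorem tr_abel {κ b : ArithmeticFunction ℝ} (hκ : Pb κ) (hb : Pb b) {K K₁ : ℝ → ℝ}
    (hK : KK K K₁) {u : ℝ} (hu : 0 < u) :
    tr (κ * b) K u = ∫ x in Ioi (1 : ℝ), PS κ x * tr b K₁ (x * u) / x := by
  obtain ⟨C₁, h1⟩ := id hκ
  obtain ⟨C₂, h2⟩ := id hb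
  obtain ⟨M, hM⟩ := hK.bd₁
  rw [tr_conv hκ hb hK.bd hu]
  set F : ℕ × ℕ → ℝ → ℝ := fun p x =>
    κ p.1 * b p.2 * (Set.indicator (Ici (p.1 : ℝ)) (fun x => K₁ (p.2 * (x * u)) / x) x) with hF
  -- the integral of one term
  have hval : ∀ p : ℕ × ℕ, ∫ x in Ioi (1 : ℝ), F p x = κ p.1 * b p.2 * K (p.1 * p.2 * u) := by
    intro p
    rcases Nat.eq_zero_or_pos p.1 with hp | hp
    · simp [hF, hp]
    rcases Nat.eq_zero_or_pos p.2 with hq | hq
    · simp [hF, hq]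
    have hp' : (0 : ℝ) < p.1 := by exact_mod_cast hp
    have hp1 : (1 : ℝ) ≤ p.1 := by exact_mod_cast hp
    have hq' : (0 : ℝ) < p.2 := by exact_mod_cast hq
    simp only [hF]
    rw [integral_const_mul, setIntegral_indicator measurableSet_Ici]
    congr 1
    have e1 : ∫ x in Ioi (1 : ℝ) ∩ Ici (p.1 : ℝ), K₁ (p.2 * (x * u)) / x =
        ∫ x in Ioi (p.1 : ℝ), K₁ (p.2 * (x * u)) / x := by
      apply setIntegral_congr_set
      have h3 : (Ioi (1 : ℝ) ∩ Ici (p.1 : ℝ) : Set ℝ) =ᵐ[volume] (Ioi (1 : ℝ) ∩ Ioi (p.1 : ℝ) : Set ℝ) :=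
        (ae_eq_refl _).inter Ioi_ae_eq_Ici.symm
      refine h3.trans ?_
      rw [Ioi_inter_Ioi, sup_eq_right.2 hp1]
      exact Filter.EventuallyEq.rfl
    rw [e1, hK.eq _ (by positivity)]
    have h4 := integral_comp_mul_left_Ioi (fun x => K₁ (p.2 * (x * u)) / x) 1 hp'
    rw [mul_one] at h4
    rw [smul_eq_mul] at h4
    have h5 : ∫ x in Ioi (p.1 : ℝ), K₁ (p.2 * (x * u)) / x =
        p.1 * ∫ x in Ioi (1 : ℝ), K₁ (p.2 * (p.1 * x * u)) / (p.1 * x) := by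
      rw [h4, ← mul_assoc, mul_inv_cancel₀ hp'.ne', one_mul]
    rw [h5, ← integral_const_mul]
    refine setIntegral_congr_fun measurableSet_Ioi fun x hx => ?_
    have hx0 : (0 : ℝ) < x := lt_trans zero_lt_one hx
    rw [show (p.2 : ℝ) * (p.1 * x * u) = p.1 * p.2 * u * x by ring]
    field_simp
  -- bound
  have hbd : ∀ p : ℕ × ℕ, ∀ x ∈ Ioi (1 : ℝ), ‖F p x‖ ≤
      (C₁ * C₂ * |M|) * (((p.1 : ℝ) ^ 3 * Real.exp (-(u / 2 / 2) * p.1)) *
      ((p.2 : ℝ) ^ 3 * Real.exp (-(u / 2 / 2) * p.2))) * Real.exp (-(u / 2) * x) := by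
    intro p x hx
    have hx0 : (1 : ℝ) < x := hx
    rw [Real.norm_eq_abs]
    have h3 : |κ p.1 * b p.2 * (Set.indicator (Ici (p.1 : ℝ)) (fun x => K₁ (p.2 * (x * u)) / x) x)|
        ≤ (C₁ * C₂ * (|M| * Real.exp (-(u / 2) * x))) *
        (((p.1 : ℝ) ^ 3 * Real.exp (-(u / 2 / 2) * p.1)) *
      ((p.2 : ℝ) ^ 3 * Real.exp (-(u / 2 / 2) * p.2))) := by
      refine pair_le h1 h2 (half_pos hu) (by positivity) p fun hp hq => ?_
      have hp' : (0 : ℝ) < p.1 := by exact_mod_cast hp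
      have hq' : (0 : ℝ) < p.2 := by exact_mod_cast hq
      have hq1 : (1 : ℝ) ≤ p.2 := by exact_mod_cast hq
      unfold Set.indicator
      split_ifs with hx1
      · have hx2 : (p.1 : ℝ) ≤ x := hx1
        rw [abs_div, abs_of_pos (by linarith : (0 : ℝ) < x)]
        calc |K₁ (p.2 * (x * u))| / x ≤ |K₁ (p.2 * (x * u))| / 1 := by gcongr
          _ ≤ |M| * Real.exp (-(p.2 * (x * u))) := by
              rw [div_one]
              exact (hM _ (by positivity)).trans (by gcongr; exact le_abs_self M)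
          _ ≤ |M| * (Real.exp (-(u / 2) * x) * Real.exp (-((p.1 : ℝ) * p.2 * (u / 2)))) := by
              rw [← Real.exp_add]
              gcongr
              have h4 : (p.1 : ℝ) * p.2 * (u / 2) ≤ x * p.2 * (u / 2) := by gcongr
              have h5 : 1 * (x * (u / 2)) ≤ p.2 * (x * (u / 2)) := by gcongr
              linarith
          _ = _ := by ring
      · rw [abs_zero]
        positivity
    refine h3.trans (le_of_eq ?_)
    ring
  have hmeas : ∀ p : ℕ × ℕ, Measurable (F p) := by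
    intro p
    refine Measurable.const_mul ?_ _
    refine Measurable.indicator ?_ measurableSet_Ici
    exact (hK.meas.comp (by fun_prop)).div measurable_id
  have hexp : IntegrableOn (fun x : ℝ => Real.exp (-(u / 2) * x)) (Ioi 1) :=
    exp_neg_integrableOn_Ioi 1 (half_pos hu)
  have hint : ∀ p : ℕ × ℕ, Integrable (F p) (volume.restrict (Ioi 1)) := by
    intro p
    refine Integrable.mono' (hexp.const_mul ((C₁ * C₂ * |M|) *
      (((p.1 : ℝ) ^ 3 * Real.exp (-(u / 2 / 2) * p.1)) *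
      ((p.2 : ℝ) ^ 3 * Real.exp (-(u / 2 / 2) * p.2))))) (hmeas p).aestronglyMeasurable ?_
    exact (ae_restrict_iff' measurableSet_Ioi).2 (Eventually.of_forall fun x hx => hbd p x hx)
  have hsum : Summable fun p : ℕ × ℕ => ∫ x in Ioi (1 : ℝ), ‖F p x‖ := by
    refine Summable.of_nonneg_of_le (fun p => integral_nonneg fun x => norm_nonneg _)
      (fun p => ?_) ((summable_pair (C₁ * C₂ * |M|) (half_pos hu)).mul_right
        (∫ x in Ioi (1 : ℝ), Real.exp (-(u / 2) * x)))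
    rw [← integral_const_mul]
    exact setIntegral_mono_on (hint p).norm (hexp.const_mul _) measurableSet_Ioi
      (fun x hx => hbd p x hx)
  have hmain := (hasSum_integral_of_summable_integral_norm hint hsum).tsum_eq
  simp only [hval] at hmain
  rw [hmain]
  refine setIntegral_congr_fun measurableSet_Ioi fun x hx => ?_
  have hx0 : (0 : ℝ) < x := lt_trans zero_lt_one hx
  simp only [hF]
  have e1 : ∀ p : ℕ × ℕ, κ p.1 * b p.2 *
      (Set.indicator (Ici (p.1 : ℝ)) (fun x => K₁ (p.2 * (x * u)) / x) x) =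
      (if (p.1 : ℝ) ≤ x then κ p.1 else 0) * (b p.2 * (K₁ (p.2 * (x * u)) / x)) := by
    intro p
    unfold Set.indicator
    by_cases h : (p.1 : ℝ) ≤ x
    · rw [if_pos h, if_pos (show x ∈ Ici (p.1 : ℝ) from h)]
      ring
    · rw [if_neg h, if_neg (show ¬ x ∈ Ici (p.1 : ℝ) from h)]
      ring
  simp only [e1]
  have hfin : ∀ r : ℕ, r ∉ Finset.range (⌊x⌋₊ + 1) → (if (r : ℝ) ≤ x then κ r else 0) = 0 := by
    intro r hr
    rw [if_neg]
    intro h
    apply hr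
    rw [Finset.mem_range]
    have := Nat.le_floor h
    omega
  have hs1 : Summable fun r : ℕ => ‖(if (r : ℝ) ≤ x then κ r else 0)‖ :=
    summable_of_ne_finset_zero (s := Finset.range (⌊x⌋₊ + 1)) fun r hr => by rw [hfin r hr, norm_zero]
  have hs2 : Summable fun m : ℕ => ‖b m * (K₁ (m * (x * u)) / x)‖ := by
    have h3 := (summable_tr hb ⟨M, hM⟩ (mul_pos hx0 hu)).norm.mul_right (1 / x)
    refine h3.congr fun m => ?_
    rw [norm_mul, norm_mul, norm_div, Real.norm_of_nonneg hx0.le]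
    ring
  rw [← tsum_mul_tsum_of_summable_norm hs1 hs2, tsum_eq_sum hfin]
  have e2 : ∑ r ∈ Finset.range (⌊x⌋₊ + 1), (if (r : ℝ) ≤ x then κ r else 0) = PS κ x := by
    unfold PS
    refine Finset.sum_congr rfl fun r hr => ?_
    rw [if_pos]
    have h3 : r ≤ ⌊x⌋₊ := by
      have := Finset.mem_range.1 hr
      omega
    exact (Nat.le_floor_iff hx0.le).1 h3
  rw [e2]
  unfold tr
  rw [mul_div_assoc, ← tsum_div_const]
  congr 1
  refine tsum_congr fun m => ?_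
  ring

end P004E.KT
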