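import Vale.Agent.P004E.H253.K3

/-!
# P004E/H253: the correction `w` is absolutely summable; partial sums of `κ`
-/

open Real MeasureTheory Set Filter
open scoped ENNReal Topology

namespace P004E.KT

open P004G

/-! ### Euler products, upper bounds -/

theorem sum_le_prod {f : ℕ → ℝ} (hf0 : ∀ n, 0 ≤ f n) (h0 : f 0 = 0) (h1 : f 1 = 1)
    (hm : ∀ {m n : ℕ}, m.Coprime n → f (m * n) = f m * f n) (B : ℕ → ℝ)
    (hB : ∀ p : ℕ, p.Prime → ∀ K : ℕ, ∑ k ∈ Finset.range K, f (p ^ k) ≤ B p) (N : ℕ) :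
    ∑ n ∈ Finset.range N, f n ≤ ∏ p ∈ N.primesBelow, B p := by
  have hs : ∀ {p : ℕ}, p.Prime → Summable fun k : ℕ => ‖f (p ^ k)‖ := by
    intro p hp
    refine summable_of_sum_range_le (c := B p) (fun n => norm_nonneg _) fun n => ?_
    simp only [Real.norm_of_nonneg (hf0 _)]
    exact hB p hp n
  have h2 := (EulerProduct.summable_and_hasSum_smoothNumbers_prod_primesBelow_tsum h1 hm hs N).2
  have h3 : HasSum (Set.indicator (N.smoothNumbers) f) (∏ p ∈ N.primesBelow, ∑' k : ℕ, f (p ^ k)) :=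
    hasSum_subtype_iff_indicator.1 h2
  have h4 := sum_le_hasSum (Finset.range N) (fun n _ => Set.indicator_nonneg (fun m _ => hf0 m) n) h3
  calc ∑ n ∈ Finset.range N, f n ≤ ∑ n ∈ Finset.range N, Set.indicator (N.smoothNumbers) f n := by
        refine Finset.sum_le_sum fun n hn => ?_
        rcases Nat.eq_zero_or_pos n with rfl | hn0
        · rw [h0]
          exact Set.indicator_nonneg (fun m _ => hf0 m) 0
        · rw [Set.indicator_of_mem (Nat.mem_smoothNumbers_of_lt hn0 (Finset.mem_range.1 hn))]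
    _ ≤ _ := h4
    _ ≤ ∏ p ∈ N.primesBelow, B p := by
        refine Finset.prod_le_prod (fun p _ => tsum_nonneg fun k => hf0 _) fun p hp => ?_
        have hp' := Nat.prime_of_mem_primesBelow hp
        exact Real.tsum_le_of_sum_range_le (fun k => hf0 _) (hB p hp')

theorem sum_19_20 (n : ℕ) :
    ∑ i ∈ Finset.range n, ((i : ℝ) + 1) * (19 / 20) ^ i = 400 - (400 + 20 * n) * (19 / 20) ^ n := by
  induction n with
  | zero => simp
  | succ n ih =>
    rw [Finset.sum_range_succ, ih, pow_succ]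
    push_cast
    ring

/-- the local sum -/
theorem local_sum {f : ℕ → ℝ} {x c : ℝ} (hx0 : 0 ≤ x) (hx : x ≤ 19 / 20) (h0 : f 0 ≤ 1)
    (hf0 : ∀ n, 0 ≤ f n)
    (h1 : f 1 = 0) (h2 : f 2 ≤ c * x ^ 2) (h3 : ∀ k, f k ≤ 9 * (k + 1) * x ^ k) (K : ℕ) :
    ∑ k ∈ Finset.range K, f k ≤ 1 + c * x ^ 2 + 14400 * x ^ 3 := by
  have e1 : ∑ k ∈ Finset.range K, f k ≤ ∑ k ∈ Finset.range (K + 3), f k :=
    Finset.sum_le_sum_of_subset_of_nonneg (Finset.range_mono (by omega)) fun i _ _ => hf0 i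
  rw [Finset.sum_range_succ', Finset.sum_range_succ', Finset.sum_range_succ'] at e1
  have e2 : ∑ k ∈ Finset.range K, f (k + 1 + 1 + 1) ≤ 14400 * x ^ 3 := by
    calc ∑ k ∈ Finset.range K, f (k + 1 + 1 + 1)
        ≤ ∑ k ∈ Finset.range K, 36 * x ^ 3 * (((k : ℝ) + 1) * (19 / 20) ^ k) := by
          refine Finset.sum_le_sum fun k _ => ?_
          refine (h3 _).trans ?_
          push_cast
          have h4 : x ^ k ≤ (19 / 20) ^ k := pow_le_pow_left₀ hx0 hx k
          have h5 : x ^ (k + 1 + 1 + 1) = x ^ 3 * x ^ k := by ring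
          rw [h5]
          have h6 : (9 : ℝ) * (k + 1 + 1 + 1 + 1) ≤ 36 * (k + 1) := by
            have : (0 : ℝ) ≤ k := by positivity
            linarith
          calc (9 : ℝ) * (k + 1 + 1 + 1 + 1) * (x ^ 3 * x ^ k)
              ≤ 36 * (k + 1) * (x ^ 3 * (19 / 20) ^ k) := by gcongr
            _ = _ := by ring
      _ = 36 * x ^ 3 * ∑ k ∈ Finset.range K, ((k : ℝ) + 1) * (19 / 20) ^ k := by
          rw [← Finset.mul_sum]
      _ ≤ 36 * x ^ 3 * 400 := by
          gcongr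
          rw [sum_19_20]
          have : (0 : ℝ) ≤ (400 + 20 * K) * (19 / 20) ^ K := by positivity
          linarith
      _ = 14400 * x ^ 3 := by ring
  simp only [zero_add] at e1
  have e3 : f (1 + 1) ≤ c * x ^ 2 := h2
  linarith

theorem rr_rpow_le {p : ℕ} (hp : p.Prime) {η : ℝ} (h0 : 0 ≤ η) (h1 : η ≤ 1 / 100) :
    rr p * (p : ℝ) ^ η ≤ 19 / 20 := by
  have hp1 : (1 : ℝ) ≤ p := by exact_mod_cast hp.one_le
  have hp0 : (0 : ℝ) < p := by linarith
  have hr := rr_pos hp
  rcases le_total (p : ℝ) 100 with h | h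
  · have h2 : (p : ℝ) ^ η ≤ 21 / 20 := by
      calc (p : ℝ) ^ η ≤ (100 : ℝ) ^ η := Real.rpow_le_rpow hp0.le h h0
        _ ≤ (100 : ℝ) ^ (1 / 100 : ℝ) := Real.rpow_le_rpow_of_exponent_le (by norm_num) h1
        _ ≤ ((21 / 20 : ℝ) ^ (100 : ℕ)) ^ (1 / 100 : ℝ) :=
            Real.rpow_le_rpow (by norm_num) (by norm_num) (by norm_num)
        _ = 21 / 20 := by
            rw [← Real.rpow_natCast, ← Real.rpow_mul (by norm_num)]
            norm_num
    calc rr p * (p : ℝ) ^ η ≤ 9 / 10 * (21 / 20) := by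
          gcongr
          exact rr_le p
      _ ≤ 19 / 20 := by norm_num
  · have h2 : rr p ≤ 2 * (p : ℝ) ^ (-(1 / 2) : ℝ) := by
      refine (rr_le' p).trans (le_of_eq ?_)
      rw [Real.sqrt_eq_rpow, Real.rpow_neg hp0.le, div_eq_mul_inv]
    calc rr p * (p : ℝ) ^ η ≤ (2 * (p : ℝ) ^ (-(1 / 2) : ℝ)) * (p : ℝ) ^ (1 / 100 : ℝ) := by
          gcongr
      _ = 2 * (p : ℝ) ^ (-(49 / 100) : ℝ) := by
          rw [mul_assoc, ← Real.rpow_add hp0]
          norm_num
      _ ≤ 2 * (100 : ℝ) ^ (-(49 / 100) : ℝ) := by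
          gcongr 2 * ?_
          exact Real.rpow_le_rpow_of_nonpos (by norm_num) h (by norm_num)
      _ ≤ 2 * (100 : ℝ) ^ (-(1 / 4) : ℝ) := by
          gcongr 2 * ?_
          exact Real.rpow_le_rpow_of_exponent_le (by norm_num) (by norm_num)
      _ ≤ 19 / 20 := by
          have h5 : ((100 : ℝ) ^ (-(1 / 4) : ℝ)) ≤ 19 / 40 := by
            rw [Real.rpow_neg (by norm_num), inv_le_comm₀ (by positivity) (by norm_num)]
            calc ((19 / 40 : ℝ))⁻¹ = (((19 / 40 : ℝ)⁻¹) ^ (4 : ℕ)) ^ (1 / 4 : ℝ) := by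
                  rw [← Real.rpow_natCast, ← Real.rpow_mul (by norm_num)]
                  norm_num
              _ ≤ (100 : ℝ) ^ (1 / 4 : ℝ) :=
                  Real.rpow_le_rpow (by positivity) (by norm_num) (by norm_num)
          linarith

/-- the sum over the primes dividing `M` -/
noncomputable def Vs (η : ℝ) (M : ℕ) : ℝ := ∑ p ∈ M.primeFactors, (p : ℝ) ^ (-1 + 2 * η)

theorem Vs_nonneg (η : ℝ) (M : ℕ) : 0 ≤ Vs η M := Finset.sum_nonneg fun p _ => by positivity

/-- the absolute constant -/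
noncomputable def C54 : ℝ := 115200 * ∑' n : ℕ, (n : ℝ) ^ (-(5 / 4) : ℝ)

theorem summable_54 : Summable fun n : ℕ => (n : ℝ) ^ (-(5 / 4) : ℝ) :=
  Real.summable_nat_rpow.2 (by norm_num)

variable [Crv]

theorem w_sum_le (hH : Hlam) {h : ℤ} {q : ℕ} (hh : h ≠ 0) (hq : q ≠ 0) {η : ℝ} (h0 : 0 ≤ η)
    (h1 : η ≤ 1 / 100) (N : ℕ) :
    ∑ n ∈ Finset.range N, |wv h q n| * (n : ℝ) ^ η ≤
      Real.exp (C54 + 4 * Vs η (h.natAbs * q)) := by
  classical
  set M := h.natAbs * q with hM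
  have hM0 : M ≠ 0 := mul_ne_zero (Int.natAbs_ne_zero.2 hh) hq
  have hB : ∀ p : ℕ, p.Prime → ∀ K : ℕ,
      ∑ k ∈ Finset.range K, |wv h q (p ^ k)| * ((p ^ k : ℕ) : ℝ) ^ η ≤
        1 + (if p ∣ M then 1 else 0) * (rr p * (p : ℝ) ^ η) ^ 2 +
          14400 * (rr p * (p : ℝ) ^ η) ^ 3 := by
    intro p hp K
    have hr := rr_pos hp
    have hp0 : (0 : ℝ) < p := by exact_mod_cast hp.pos
    have e : ∀ k : ℕ, ((p ^ k : ℕ) : ℝ) ^ η = ((p : ℝ) ^ η) ^ k := by
      intro k
      push_cast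
      rw [← Real.rpow_natCast, ← Real.rpow_natCast, ← Real.rpow_mul hp0.le, ← Real.rpow_mul hp0.le,
        mul_comm]
    simp only [e]
    refine local_sum (f := fun k => |wv h q (p ^ k)| * ((p : ℝ) ^ η) ^ k) (by positivity)
      (rr_rpow_le hp h0 h1) ?_ (fun n => by positivity) ?_ ?_ ?_ K
    · simp [(w_mult h q).map_one]
    · simp [wv_one h q hp]
    · have := abs_wv_two_le hH (h := h) (q := q) hp
      calc |wv h q (p ^ 2)| * ((p : ℝ) ^ η) ^ 2
          ≤ (if p ∣ M then rr p ^ 2 else 0) * ((p : ℝ) ^ η) ^ 2 := by gcongr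
        _ = _ := by
            split_ifs
            · rw [one_mul, _root_.mul_pow]
            · simp
    · intro k
      calc |wv h q (p ^ k)| * ((p : ℝ) ^ η) ^ k
          ≤ (9 * (k + 1) * rr p ^ k) * ((p : ℝ) ^ η) ^ k := by
            gcongr
            exact abs_wv_le hH h q hp k
        _ = _ := by rw [_root_.mul_pow]; ring
  have h2 := sum_le_prod (f := fun n : ℕ => |wv h q n| * (n : ℝ) ^ η) (fun n => by positivity)
    (by simp) (by simp [(w_mult h q).map_one]) (fun {m n} hmn => by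
      rw [(w_mult h q).map_mul_of_coprime hmn, abs_mul]
      push_cast
      rw [Real.mul_rpow (by positivity) (by positivity)]
      ring) _ hB N
  refine h2.trans ?_
  have h3 : ∀ p ∈ N.primesBelow, (1 + (if p ∣ M then 1 else 0) * (rr p * (p : ℝ) ^ η) ^ 2 +
          14400 * (rr p * (p : ℝ) ^ η) ^ 3) ≤
      Real.exp (115200 * (p : ℝ) ^ (-(5 / 4) : ℝ) + if p ∣ M then 4 * (p : ℝ) ^ (-1 + 2 * η) else 0) := by
    intro p hp
    have hp' := Nat.prime_of_mem_primesBelow hp
    have hp1 : (1 : ℝ) ≤ p := by exact_mod_cast hp'.one_le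
    have hp0 : (0 : ℝ) < p := by linarith
    have hr := rr_pos hp'
    have h4 : rr p ≤ 2 * (p : ℝ) ^ (-(1 / 2) : ℝ) := by
      refine (rr_le' p).trans (le_of_eq ?_)
      rw [Real.sqrt_eq_rpow, Real.rpow_neg hp0.le, div_eq_mul_inv]
    have h5 : rr p * (p : ℝ) ^ η ≤ 2 * (p : ℝ) ^ (-(1 / 2) + η : ℝ) := by
      calc rr p * (p : ℝ) ^ η ≤ (2 * (p : ℝ) ^ (-(1 / 2) : ℝ)) * (p : ℝ) ^ η := by gcongr
        _ = _ := by rw [mul_assoc, ← Real.rpow_add hp0]
    have h6 : (rr p * (p : ℝ) ^ η) ^ 2 ≤ 4 * (p : ℝ) ^ (-1 + 2 * η) := by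
      calc (rr p * (p : ℝ) ^ η) ^ 2 ≤ (2 * (p : ℝ) ^ (-(1 / 2) + η : ℝ)) ^ 2 := by gcongr
        _ = 4 * (p : ℝ) ^ (-1 + 2 * η) := by
            rw [_root_.mul_pow, ← Real.rpow_natCast, ← Real.rpow_natCast, ← Real.rpow_mul hp0.le]
            norm_num
            ring_nf
    have h7 : (rr p * (p : ℝ) ^ η) ^ 3 ≤ 8 * (p : ℝ) ^ (-(5 / 4) : ℝ) := by
      calc (rr p * (p : ℝ) ^ η) ^ 3 ≤ (2 * (p : ℝ) ^ (-(1 / 2) + η : ℝ)) ^ 3 := by gcongr
        _ = 8 * (p : ℝ) ^ ((-(1 / 2) + η) * 3) := by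
            rw [_root_.mul_pow, ← Real.rpow_natCast, ← Real.rpow_natCast, ← Real.rpow_mul hp0.le]
            norm_num
        _ ≤ 8 * (p : ℝ) ^ (-(5 / 4) : ℝ) := by
            gcongr
            linarith
    have h8 := Real.add_one_le_exp (115200 * (p : ℝ) ^ (-(5 / 4) : ℝ) +
      if p ∣ M then 4 * (p : ℝ) ^ (-1 + 2 * η) else 0)
    refine le_trans ?_ h8
    split_ifs <;> linarith
  refine (Finset.prod_le_prod (fun p hp => ?_) h3).trans ?_
  · have hr := rr_pos (Nat.prime_of_mem_primesBelow hp)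
    split_ifs <;> positivity
  rw [← Real.exp_sum]
  apply Real.exp_le_exp.2
  rw [Finset.sum_add_distrib]
  have h9 : ∑ p ∈ N.primesBelow, 115200 * (p : ℝ) ^ (-(5 / 4) : ℝ) ≤ C54 := by
    rw [← Finset.mul_sum]
    unfold C54
    gcongr
    exact summable_54.sum_le_tsum _ fun n _ => by positivity
  have h10 : ∑ p ∈ N.primesBelow, (if p ∣ M then 4 * (p : ℝ) ^ (-1 + 2 * η) else 0) ≤
      4 * Vs η M := by
    rw [← Finset.sum_filter, ← Finset.mul_sum]
    unfold Vs
    gcongr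
    intro p hp
    have h11 := Finset.mem_filter.1 hp
    exact Nat.mem_primeFactors.2 ⟨Nat.prime_of_mem_primesBelow h11.1, h11.2, hM0⟩
  linarith

/-! ### the fixed part -/

theorem PS_Gv {x : ℝ} (hx : 0 ≤ x) : PS Gv x =
    ∑ a ∈ (Finset.Icc 1 ⌊√x⌋₊).filter (fun a => Squarefree a ∧ a.Coprime bd),
      (∏ p ∈ a.primeFactors, (lam p ^ 2 - 1)) / (a : ℝ) := by
  classical
  set S := (Finset.Icc 1 ⌊√x⌋₊).filter (fun a => Squarefree a ∧ a.Coprime bd) with hS
  -- the value at a square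
  have hval : ∀ a ∈ S, (Gv : ArithmeticFunction ℝ) (a ^ 2) =
      (∏ p ∈ a.primeFactors, (lam p ^ 2 - 1)) / (a : ℝ) := by
    intro a ha
    obtain ⟨ha1, hsq, hco⟩ := Finset.mem_filter.1 ha
    have ha0 : a ≠ 0 := by
      have := (Finset.mem_Icc.1 ha1).1
      omega
    unfold Gv
    rw [mk_apply _ (pow_ne_zero 2 ha0), Nat.factorization_pow]
    have e1 : (2 • a.factorization).prod (fun p k => if k = 0 then (1 : ℝ) else if k = 2 then γv p
        else 0) = ∏ p ∈ a.primeFactors, γv p := by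
      rw [Finsupp.prod_of_support_subset _ (s := a.primeFactors)]
      · refine Finset.prod_congr rfl fun p hp => ?_
        have h1 : a.factorization p = 1 := by
          have h2 := (Nat.squarefree_iff_factorization_le_one ha0).1 hsq p
          have h3 := (Nat.prime_of_mem_primeFactors hp).factorization_pos_of_dvd ha0
            (Nat.dvd_of_mem_primeFactors hp)
          omega
        rw [Finsupp.smul_apply, h1]
        simp
      · intro p hp
        have h1 : a.factorization p ≠ 0 := by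
          intro h2
          rw [Finsupp.mem_support_iff, Finsupp.smul_apply, h2] at hp
          simp at hp
        rw [← Nat.support_factorization]
        exact Finsupp.mem_support_iff.2 h1
      · intro p _
        simp
    rw [e1]
    have e2 : ∀ p ∈ a.primeFactors, γv p = (lam p ^ 2 - 1) / p := by
      intro p hp
      rw [γv, if_neg]
      intro hb
      have h1 := Nat.eq_one_of_dvd_coprimes hco (Nat.dvd_of_mem_primeFactors hp) hb
      exact (Nat.prime_of_mem_primeFactors hp).one_lt.ne' h1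
    rw [Finset.prod_congr rfl e2, Finset.prod_div_distrib]
    congr 1
    rw [← Nat.cast_prod, Nat.prod_primeFactors_of_squarefree hsq]
  -- the support
  have hsup : ∀ n ∈ Finset.range (⌊x⌋₊ + 1), n ∉ S.image (fun a => a ^ 2) →
      (Gv : ArithmeticFunction ℝ) n = 0 := by
    intro n hn hnS
    by_contra hne
    apply hnS
    have hn0 : n ≠ 0 := by
      rintro rfl
      simp at hne
    rw [Gv, mk_apply _ hn0] at hne
    unfold Finsupp.prod at hne
    replace hne := Finset.prod_ne_zero_iff.1 hne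
    have h1 : ∀ p ∈ n.primeFactors, n.factorization p = 2 ∧ ¬ p ∣ bd := by
      intro p hp
      have hp2 : p ∈ n.factorization.support := by rwa [Nat.support_factorization]
      have h2 := hne p hp2
      have h3 := (Nat.prime_of_mem_primeFactors hp).factorization_pos_of_dvd hn0
            (Nat.dvd_of_mem_primeFactors hp)
      simp only [] at h2
      rw [if_neg (by omega)] at h2
      by_cases h4 : n.factorization p = 2
      · rw [if_pos h4] at h2
        refine ⟨h4, fun hb => h2 ?_⟩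
        rw [γv, if_pos hb]
      · rw [if_neg h4] at h2
        exact absurd rfl h2
    set a := ∏ p ∈ n.primeFactors, p with ha
    have h2 : a ^ 2 = n := by
      conv_rhs => rw [← Nat.prod_factorization_pow_eq_self hn0]
      unfold Finsupp.prod
      rw [ha, ← Finset.prod_pow, Nat.support_factorization]
      refine Finset.prod_congr rfl fun p hp => ?_
      rw [(h1 p hp).1]
    have ha0 : a ≠ 0 := by
      intro h3
      rw [h3] at h2
      exact hn0 (by rw [← h2]; norm_num)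
    have hdvd : a ∣ n := by
      rw [← h2]
      exact dvd_pow_self a two_ne_zero
    refine Finset.mem_image.2 ⟨a, ?_, h2⟩
    rw [hS, Finset.mem_filter, Finset.mem_Icc]
    refine ⟨⟨Nat.one_le_iff_ne_zero.2 ha0, ?_⟩, ?_, ?_⟩
    · rw [Nat.le_floor_iff (Real.sqrt_nonneg _)]
      apply Real.le_sqrt_of_sq_le
      have h3 : n ≤ ⌊x⌋₊ := by
        have := Finset.mem_range.1 hn
        omega
      have h4 : (n : ℝ) ≤ x := (Nat.le_floor_iff hx).1 h3
      rw [← h2] at h4
      exact_mod_cast h4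
    · rw [Nat.squarefree_iff_factorization_le_one ha0]
      intro p
      have h3 : (a ^ 2).factorization p = 2 * a.factorization p := by
        rw [Nat.factorization_pow, Finsupp.smul_apply, smul_eq_mul]
      rw [h2] at h3
      by_cases hp : p ∈ n.primeFactors
      · have := (h1 p hp).1
        omega
      · have : n.factorization p = 0 := by
          rw [← Nat.support_factorization] at hp
          exact Finsupp.notMem_support_iff.1 hp
        omega
    · apply Nat.Coprime.symm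
      rw [Nat.coprime_prod_right_iff]
      intro p hp
      exact ((Nat.prime_of_mem_primeFactors hp).coprime_iff_not_dvd.2 (h1 p hp).2).symm
  have hsub : S.image (fun a => a ^ 2) ⊆ Finset.range (⌊x⌋₊ + 1) := by
    intro n hn
    obtain ⟨a, ha, rfl⟩ := Finset.mem_image.1 hn
    have h1 := (Finset.mem_Icc.1 (Finset.mem_filter.1 ha).1).2
    have h2 : (a : ℝ) ≤ √x := (Nat.le_floor_iff (Real.sqrt_nonneg _)).1 h1
    have h3 : (a : ℝ) ^ 2 ≤ x := by
      calc (a : ℝ) ^ 2 ≤ √x ^ 2 := by gcongr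
        _ = x := Real.sq_sqrt hx
    rw [Finset.mem_range]
    have h4 : a ^ 2 ≤ ⌊x⌋₊ := by
      rw [Nat.le_floor_iff hx]
      exact_mod_cast h3
    omega
  unfold PS
  rw [← Finset.sum_subset hsub hsup, Finset.sum_image]
  · exact Finset.sum_congr rfl hval
  · intro a _ b _ hab
    exact (Nat.pow_left_injective two_ne_zero) hab

/-- the fixed part, from `StN1` -/
theorem PS_Gv_bound (hN : StN1) : ∃ (C δ D : ℝ), 1 ≤ C ∧ 0 < δ ∧ δ ≤ 1 / 100 ∧
    ∀ η : ℝ, 0 ≤ η → η ≤ δ → ∀ y : ℝ, 0 < y → |PS Gv y - D| ≤ C * y ^ (-η) := by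
  obtain ⟨C, δ, D, hC, hδ, hb⟩ := hN
  refine ⟨C + |D|, min (δ / 2) (1 / 100), D, by linarith [abs_nonneg D], by positivity,
    min_le_right _ _, fun η h0 h1 y hy => ?_⟩
  rcases le_or_gt 1 y with h | h
  · rw [PS_Gv hy.le]
    have h2 : 1 ≤ √y := by rwa [Real.one_le_sqrt]
    refine (hb _ h2).trans ?_
    have h3 : √y ^ (-δ) = y ^ (-(δ / 2)) := by
      rw [Real.sqrt_eq_rpow, ← Real.rpow_mul hy.le]
      ring_nf
    rw [h3]
    have h4 : y ^ (-(δ / 2)) ≤ y ^ (-η) :=
      Real.rpow_le_rpow_of_exponent_le h (by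
        have := h1.trans (min_le_left _ _)
        linarith)
    have h5 : (0 : ℝ) ≤ y ^ (-η) := by positivity
    have h6 : (0 : ℝ) ≤ y ^ (-(δ / 2)) := by positivity
    nlinarith [abs_nonneg D]
  · have h2 : PS Gv y = 0 := by
      unfold PS
      rw [Nat.floor_eq_zero.2 h]
      simp
    rw [h2, zero_sub, abs_neg]
    have h3 : 1 ≤ y ^ (-η) := Real.one_le_rpow_of_pos_of_le_one_of_nonpos hy h.le (by linarith)
    nlinarith [abs_nonneg D]

/-! ### partial sums of `κ` -/

omit [Crv] in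
theorem PS_eq_Ioc (f : ArithmeticFunction ℝ) (x : ℝ) : PS f x = ∑ n ∈ Finset.Ioc 0 ⌊x⌋₊, f n := by
  unfold PS
  symm
  refine Finset.sum_subset (fun n hn => ?_) fun n hn h => ?_
  · rw [Finset.mem_Ioc] at hn
    rw [Finset.mem_range]
    omega
  · rw [Finset.mem_Ioc] at h
    rw [Finset.mem_range] at hn
    have : n = 0 := by omega
    rw [this]
    simp

omit [Crv] in
theorem PS_mul (f g : ArithmeticFunction ℝ) (x : ℝ) :
    PS (f * g) x = ∑ n ∈ Finset.Ioc 0 ⌊x⌋₊, f n * PS g (x / n) := by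
  rw [PS_eq_Ioc, ArithmeticFunction.sum_Ioc_mul_eq_sum_sum]
  refine Finset.sum_congr rfl fun n hn => ?_
  rw [PS_eq_Ioc, Nat.floor_div_natCast]

/-- **the tails of `κ`** -/
theorem PS_κ_bound (hN : StN1) (hH : Hlam) : ∃ (C δ : ℝ), 1 ≤ C ∧ 0 < δ ∧ δ ≤ 1 / 100 ∧
    ∀ (h : ℤ) (q : ℕ) (η : ℝ), h ≠ 0 → q ≠ 0 → 0 ≤ η → η ≤ δ → ∃ D : ℝ, ∀ x : ℝ, 0 < x →
      |PS (κv h q) x - D| ≤ C * Real.exp (4 * Vs η (h.natAbs * q)) * x ^ (-η) := by
  obtain ⟨C, δ, D, hC, hδ, hδ1, hb⟩ := PS_Gv_bound hN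
  refine ⟨C * Real.exp C54, δ, ?_, hδ, hδ1, fun h q η hh hq h0 h1 => ?_⟩
  · have h1 : 0 ≤ C54 := by
      unfold C54
      have : 0 ≤ ∑' n : ℕ, (n : ℝ) ^ (-(5 / 4) : ℝ) := tsum_nonneg fun n => by positivity
      positivity
    have h2 := Real.one_le_exp h1
    nlinarith
  have hs0 := w_sum_le hH hh hq h0 (h1.trans hδ1)
  have hsη : Summable fun n : ℕ => |wv h q n| * (n : ℝ) ^ η :=
    summable_of_sum_range_le (fun n => by positivity) hs0
  have hsη' := Real.tsum_le_of_sum_range_le (fun n => by positivity) hs0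
  have hsw : Summable fun n : ℕ => wv h q n := by
    refine Summable.of_norm_bounded hsη fun n => ?_
    rcases Nat.eq_zero_or_pos n with rfl | hn
    · simp
    rw [Real.norm_eq_abs]
    have : (1 : ℝ) ≤ (n : ℝ) ^ η := Real.one_le_rpow (by exact_mod_cast hn) h0
    nlinarith [abs_nonneg (wv h q n)]
  refine ⟨D * ∑' n, wv h q n, fun x hx => ?_⟩
  have e1 : PS (κv h q) x = ∑' n : ℕ, wv h q n * PS Gv (x / n) := by
    rw [κ_eq, PS_mul]
    symm
    refine tsum_eq_sum fun n hn => ?_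
    rcases Nat.eq_zero_or_pos n with rfl | hn0
    · simp
    have hn' : (0 : ℝ) < n := by exact_mod_cast hn0
    have h2 : PS Gv (x / n) = 0 := by
      unfold PS
      rw [Nat.floor_eq_zero.2]
      · simp
      · rw [div_lt_one hn']
        rw [Finset.mem_Ioc] at hn
        exact (Nat.floor_lt hx.le).1 (by omega)
    rw [h2, mul_zero]
  have hterm : ∀ n : ℕ, ‖wv h q n * PS Gv (x / n) - D * wv h q n‖ ≤
      (C * x ^ (-η)) * (|wv h q n| * (n : ℝ) ^ η) := by
    intro n
    rcases Nat.eq_zero_or_pos n with rfl | hn0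
    · simp
    have hn' : (0 : ℝ) < n := by exact_mod_cast hn0
    have h2 := hb η h0 h1 (x / n) (by positivity)
    have e2 : wv h q n * PS Gv (x / n) - D * wv h q n = wv h q n * (PS Gv (x / n) - D) := by ring
    rw [e2, Real.norm_eq_abs, abs_mul]
    calc |wv h q n| * |PS Gv (x / n) - D| ≤ |wv h q n| * (C * (x / n) ^ (-η)) := by gcongr
      _ = (C * x ^ (-η)) * (|wv h q n| * (n : ℝ) ^ η) := by
          rw [Real.div_rpow hx.le hn'.le, Real.rpow_neg hn'.le]
          field_simp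
  have hsum2 : Summable fun n : ℕ => wv h q n * PS Gv (x / n) - D * wv h q n :=
    Summable.of_norm_bounded (hsη.mul_left _) hterm
  have hsum3 : Summable fun n : ℕ => wv h q n * PS Gv (x / n) := by
    refine (hsum2.add (hsw.mul_left D)).congr fun n => ?_
    ring
  rw [e1, ← tsum_mul_left, ← hsum3.tsum_sub (hsw.mul_left D), ← Real.norm_eq_abs]
  refine (norm_tsum_le_tsum_norm hsum2.norm).trans ?_
  refine (hsum2.norm.tsum_le_tsum hterm (hsη.mul_left _)).trans ?_
  rw [tsum_mul_left]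
  calc C * x ^ (-η) * ∑' n : ℕ, |wv h q n| * (n : ℝ) ^ η
      ≤ C * x ^ (-η) * Real.exp (C54 + 4 * Vs η (h.natAbs * q)) := by gcongr
    _ = _ := by rw [Real.exp_add]; ring

end P004E.KT
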