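import Vale.Agent.P004E.H253.K4

/-!
# P004E/H253: the sum over the primes dividing `M`, and the majorant of the coefficients `e`
-/

open Real MeasureTheory Set Filter
open scoped ENNReal Topology

namespace P004E.KT

open P004G

theorem card_le {M : ℕ} (hM : M ≠ 0) : (M.primeFactors.card : ℝ) ≤ 2 * Real.log M := by
  have h1 : 2 ^ M.primeFactors.card ≤ M := by
    calc 2 ^ M.primeFactors.card = ∏ _p ∈ M.primeFactors, 2 := by
          rw [Finset.prod_const]
      _ ≤ ∏ p ∈ M.primeFactors, p :=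
          Finset.prod_le_prod' fun p hp => (Nat.prime_of_mem_primeFactors hp).two_le
      _ ≤ M := Nat.le_of_dvd (Nat.pos_of_ne_zero hM) (Nat.prod_primeFactors_dvd M)
  have h2 : (2 : ℝ) ^ M.primeFactors.card ≤ M := by exact_mod_cast h1
  have h3 := Real.log_le_log (by positivity) h2
  rw [Real.log_pow] at h3
  have h4 : (1 : ℝ) / 2 ≤ Real.log 2 := by
    have := Real.log_two_gt_d9
    linarith
  have h5 : (0 : ℝ) ≤ M.primeFactors.card := by positivity
  nlinarith

/-- the sum over the primes dividing `M` -/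
theorem Vs_le {L η : ℝ} {M : ℕ} (hL : 1 ≤ L) (hM : M ≠ 0) (hML : Real.log M ≤ L) (h0 : 0 ≤ η)
    (h1 : 2 * η * Real.log (3 + L) ≤ 1) :
    Vs η M ≤ 40 + 24 * Real.log (Real.log (3 + L) / Real.log 2) := by
  classical
  set z := 3 + L with hz
  have hz0 : 0 < z := by linarith
  have hlz : 1 ≤ Real.log z := by
    have h2 : Real.log (Real.exp 1) ≤ Real.log z := by
      apply Real.log_le_log (Real.exp_pos 1)
      have := Real.exp_one_lt_d9
      linarith
    rwa [Real.log_exp] at h2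
  have hη : η ≤ 1 / 2 := by nlinarith
  have hexp : Real.exp 1 ≤ 3 := by
    have := Real.exp_one_lt_d9
    linarith
  have hzη : z ^ (2 * η) ≤ 3 := by
    rw [Real.rpow_def_of_pos hz0]
    refine le_trans (Real.exp_le_exp.2 ?_) hexp
    linarith
  unfold Vs
  rw [← Finset.sum_filter_add_sum_filter_not M.primeFactors (fun p : ℕ => (p : ℝ) ≤ z)]
  have hA : ∑ p ∈ M.primeFactors.filter (fun p : ℕ => (p : ℝ) ≤ z), (p : ℝ) ^ (-1 + 2 * η) ≤
      3 * (8 * (1 + Real.log (Real.log z / Real.log 2))) := by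
    calc ∑ p ∈ M.primeFactors.filter (fun p : ℕ => (p : ℝ) ≤ z), (p : ℝ) ^ (-1 + 2 * η)
        ≤ ∑ p ∈ M.primeFactors.filter (fun p : ℕ => (p : ℝ) ≤ z), 3 * (1 / (p : ℝ)) := by
          refine Finset.sum_le_sum fun p hp => ?_
          obtain ⟨hp1, hp2⟩ := Finset.mem_filter.1 hp
          have hp3 := (Nat.prime_of_mem_primeFactors hp1).pos
          have hp4 : (0 : ℝ) < p := by exact_mod_cast hp3
          rw [Real.rpow_add hp4, Real.rpow_neg_one, mul_comm, one_div]
          gcongr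
          calc (p : ℝ) ^ (2 * η) ≤ z ^ (2 * η) := Real.rpow_le_rpow hp4.le hp2 (by linarith)
            _ ≤ 3 := hzη
      _ = 3 * ∑ p ∈ M.primeFactors.filter (fun p : ℕ => (p : ℝ) ≤ z), 1 / (p : ℝ) := by
          rw [← Finset.mul_sum]
      _ ≤ _ := by
          gcongr
          refine P004.H293.sum_inv_range (fun p hp => ?_) le_rfl (by linarith) (fun p hp => ?_)
            (fun p hp => ?_)
          · exact Nat.prime_of_mem_primeFactors (Finset.mem_filter.1 hp).1
          · exact_mod_cast (Nat.prime_of_mem_primeFactors (Finset.mem_filter.1 hp).1).two_le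
          · exact (Finset.mem_filter.1 hp).2
  have hB : ∑ p ∈ M.primeFactors.filter (fun p : ℕ => ¬ (p : ℝ) ≤ z), (p : ℝ) ^ (-1 + 2 * η) ≤ 6 := by
    calc ∑ p ∈ M.primeFactors.filter (fun p : ℕ => ¬ (p : ℝ) ≤ z), (p : ℝ) ^ (-1 + 2 * η)
        ≤ ∑ p ∈ M.primeFactors.filter (fun p : ℕ => ¬ (p : ℝ) ≤ z), 3 / z := by
          refine Finset.sum_le_sum fun p hp => ?_
          obtain ⟨hp1, hp2⟩ := Finset.mem_filter.1 hp
          have hp3 : z ≤ p := (not_le.1 hp2).le
          calc (p : ℝ) ^ (-1 + 2 * η) ≤ z ^ (-1 + 2 * η) :=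
                Real.rpow_le_rpow_of_nonpos hz0 hp3 (by linarith)
            _ = z ^ (2 * η) / z := by
                rw [Real.rpow_add hz0, Real.rpow_neg_one]
                field_simp
            _ ≤ 3 / z := by gcongr
      _ = (M.primeFactors.filter (fun p : ℕ => ¬ (p : ℝ) ≤ z)).card * (3 / z) := by
          rw [Finset.sum_const, nsmul_eq_mul]
      _ ≤ (2 * L) * (3 / z) := by
          gcongr
          refine le_trans ?_ ((card_le hM).trans (by linarith : 2 * Real.log M ≤ 2 * L))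
          exact_mod_cast Finset.card_filter_le _ _
      _ ≤ 6 := by
          rw [mul_div_assoc', div_le_iff₀ hz0]
          linarith
  linarith

/-- the bound for the constant -/
theorem exp_Vs_le {L η : ℝ} {M : ℕ} (hL : 1 ≤ L) (hM : M ≠ 0) (hML : Real.log M ≤ L) (h0 : 0 ≤ η)
    (h1 : 2 * η * Real.log (3 + L) ≤ 1) :
    Real.exp (4 * Vs η M) ≤ Real.exp 160 * (2 * Real.log (3 + L)) ^ 96 := by
  have h2 := Vs_le hL hM hML h0 h1
  have hl2 : (1 : ℝ) / 2 ≤ Real.log 2 := by
    have := Real.log_two_gt_d9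
    linarith
  have hlz : 0 < Real.log (3 + L) := Real.log_pos (by linarith)
  have h3 : 0 < Real.log (3 + L) / Real.log 2 := by positivity
  calc Real.exp (4 * Vs η M) ≤
        Real.exp (160 + (96 : ℕ) * Real.log (Real.log (3 + L) / Real.log 2)) := by
        apply Real.exp_le_exp.2
        push_cast
        linarith
    _ = Real.exp 160 * (Real.log (3 + L) / Real.log 2) ^ 96 := by
        rw [Real.exp_add, Real.exp_nat_mul, Real.exp_log h3]
    _ ≤ Real.exp 160 * (2 * Real.log (3 + L)) ^ 96 := by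
        gcongr
        rw [div_le_iff₀ (by linarith)]
        nlinarith

/-- powers of `log` against powers of `L` -/
theorem log_pow_le (n : ℕ) {ε : ℝ} (hε : 0 < ε) : ∃ C : ℝ, 1 ≤ C ∧ ∀ L : ℝ, 1 ≤ L →
    Real.log (3 + L) ^ n ≤ C * L ^ ε := by
  have hε' : 0 < ε / (n + 1) := by positivity
  refine ⟨(1 + 4 ^ (ε / (n + 1)) / (ε / (n + 1))) ^ n, ?_, fun L hL => ?_⟩
  · apply one_le_pow₀
    have : 0 ≤ (4 : ℝ) ^ (ε / (n + 1)) / (ε / (n + 1)) := by positivity
    linarith
  · have h1 : Real.log (3 + L) ≤ (3 + L) ^ (ε / (n + 1)) / (ε / (n + 1)) :=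
      Real.log_le_rpow_div (by linarith) hε'
    have h2 : (3 + L) ^ (ε / (n + 1)) ≤ (4 : ℝ) ^ (ε / (n + 1)) * L ^ (ε / (n + 1)) := by
      rw [← Real.mul_rpow (by norm_num) (by linarith)]
      exact Real.rpow_le_rpow (by linarith) (by linarith) hε'.le
    have h3 : 0 ≤ Real.log (3 + L) := Real.log_nonneg (by linarith)
    have h4 : (0 : ℝ) < L ^ (ε / (n + 1)) := Real.rpow_pos_of_pos (by linarith) _
    calc Real.log (3 + L) ^ n
        ≤ ((1 + 4 ^ (ε / (n + 1)) / (ε / (n + 1))) * L ^ (ε / (n + 1))) ^ n := by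
          gcongr
          calc Real.log (3 + L) ≤ (3 + L) ^ (ε / (n + 1)) / (ε / (n + 1)) := h1
            _ ≤ ((4 : ℝ) ^ (ε / (n + 1)) * L ^ (ε / (n + 1))) / (ε / (n + 1)) := by gcongr
            _ = (4 : ℝ) ^ (ε / (n + 1)) / (ε / (n + 1)) * L ^ (ε / (n + 1)) := by ring
            _ ≤ _ := by
                gcongr
                linarith
      _ = (1 + 4 ^ (ε / (n + 1)) / (ε / (n + 1))) ^ n * L ^ (ε / (n + 1) * n) := by
          rw [_root_.mul_pow, ← Real.rpow_natCast (L ^ (ε / (n + 1))) n, ← Real.rpow_mul (by linarith)]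
      _ ≤ (1 + 4 ^ (ε / (n + 1)) / (ε / (n + 1))) ^ n * L ^ ε := by
          gcongr
          rw [div_mul_eq_mul_div, div_le_iff₀ (by positivity)]
          nlinarith

/-! ### comparison of multiplicative functions -/

theorem mult_le {f g : ArithmeticFunction ℝ} (hf : f.IsMultiplicative) (hg : g.IsMultiplicative)
    (h : ∀ p k : ℕ, p.Prime → |f (p ^ k)| ≤ g (p ^ k)) (n : ℕ) : |f n| ≤ g n := by
  rcases Nat.eq_zero_or_pos n with rfl | hn
  · simp
  rw [hf.multiplicative_factorization f hn.ne', hg.multiplicative_factorization g hn.ne']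
  unfold Finsupp.prod
  rw [Finset.abs_prod]
  refine Finset.prod_le_prod (fun p _ => abs_nonneg _) fun p hp => ?_
  exact h p _ (Nat.prime_of_mem_primeFactors (by rwa [Nat.support_factorization] at hp))

/-- the majorant of `e` -/
noncomputable def Em : ArithmeticFunction ℝ :=
  mk fun p k => if k = 0 then 1 else if k = 2 then 4 / (p : ℝ) else
    if k = 3 then 2 / ((p : ℝ) * √(p : ℝ)) else 0

theorem Em_mult : Em.IsMultiplicative := mk_mult _

theorem Em_pow {p : ℕ} (hp : p.Prime) (k : ℕ) : Em (p ^ k) =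
    if k = 0 then 1 else if k = 2 then 4 / (p : ℝ) else
      if k = 3 then 2 / ((p : ℝ) * √(p : ℝ)) else 0 :=
  mk_pow _ (fun p => by simp) k hp

theorem Em_nonneg (n : ℕ) : 0 ≤ Em n := by
  have h := mult_le Em_mult Em_mult (fun p k hp => by
    rw [Em_pow hp, abs_of_nonneg]
    split_ifs <;> positivity) n
  exact (abs_nonneg _).trans h

variable [Crv]

theorem abs_ev_le (h : ℤ) (q n : ℕ) : |ev h q n| ≤ Em n := by
  refine mult_le (e_mult h q) Em_mult (fun p k hp => ?_) n
  have hp0 : (0 : ℝ) < p := by exact_mod_cast hp.pos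
  have hs : 0 < √(p : ℝ) := Real.sqrt_pos.2 hp0
  have ht : |tv h q p| ≤ 2 / √(p : ℝ) := by
    have h1 := ca_prime_pow_le hp 1
    simp only [pow_one, Nat.cast_one] at h1
    unfold tv
    rw [abs_mul, abs_div, abs_of_pos hp0]
    calc |(ca p : ℝ)| / p * |yv h q p| ≤ ((1 + 1) * (1 / √(p : ℝ))) * 1 := by
          gcongr
          exact abs_yv_le h q p
      _ = 2 / √(p : ℝ) := by ring
  have hsv : |sv h q p| ≤ 1 / (p : ℝ) := by
    unfold sv
    split_ifs
    · rw [abs_zero]; positivity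
    · rw [abs_div, abs_of_pos hp0, abs_pow]
      have := abs_yv_le h q p
      gcongr
      exact pow_le_one₀ (abs_nonneg _) this
  have hsv0 : 0 ≤ sv h q p := by
    unfold sv
    split_ifs <;> positivity
  have ht2 : tv h q p ^ 2 ≤ 4 / (p : ℝ) := by
    rw [← sq_abs]
    calc |tv h q p| ^ 2 ≤ (2 / √(p : ℝ)) ^ 2 := by gcongr
      _ = 4 / (p : ℝ) := by rw [div_pow, Real.sq_sqrt hp0.le]; norm_num
  rw [Em_pow hp, ev, mul_pow _ _ k hp]
  rcases k with _ | _ | _ | _ | k
  · simp [(bv_mult h q).map_one, (αv_mult h q).map_one]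
  · rw [Finset.sum_range_succ, Finset.sum_range_succ, Finset.sum_range_zero, bv_pow h q hp,
      bv_pow h q hp, αv_pow h q hp, αv_pow h q hp]
    simp
  · rw [Finset.sum_range_succ, Finset.sum_range_succ, Finset.sum_range_succ, Finset.sum_range_zero,
      bv_pow h q hp, bv_pow h q hp, bv_pow h q hp, αv_pow h q hp, αv_pow h q hp, αv_pow h q hp]
    simp
    have h4 : 1 / (p : ℝ) ≤ 4 / p := by gcongr; norm_num
    rw [abs_of_nonneg hsv0] at hsv
    rw [abs_le]
    constructor
    · nlinarith [sq_nonneg (tv h q p)]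
    · nlinarith [sq_nonneg (tv h q p)]
  · rw [Finset.sum_range_succ, Finset.sum_range_succ, Finset.sum_range_succ, Finset.sum_range_succ,
      Finset.sum_range_zero, bv_pow h q hp, bv_pow h q hp, bv_pow h q hp, bv_pow h q hp,
      αv_pow h q hp, αv_pow h q hp, αv_pow h q hp, αv_pow h q hp]
    simp
    calc |tv h q p| * |sv h q p| ≤ (2 / √(p : ℝ)) * (1 / p) := by gcongr
      _ = 2 / (p * √(p : ℝ)) := by field_simp
  · rw [if_neg (by omega), if_neg (by omega), if_neg (by omega), Finset.sum_eq_zero, abs_zero]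
    intro i hi
    have hi' := Finset.mem_range.1 hi
    by_cases h1 : i ≤ 1
    · have h2 : αv h q (p ^ (k + 1 + 1 + 1 + 1 - i)) = 0 := by
        rw [αv_pow h q hp, if_neg (by omega), if_neg (by omega), if_neg (by omega)]
      rw [h2, mul_zero]
    · have h2 : bv h q (p ^ i) = 0 := by
        rw [bv_pow h q hp, if_neg (by omega), if_neg (by omega)]
      rw [h2, zero_mul]

omit [Crv] in
/-- the sum of the majorant -/
theorem Em_sum_le : ∃ C : ℝ, 1 ≤ C ∧ ∀ x : ℝ, 0 ≤ x →
    PS Em x ≤ C * (1 + Real.log (1 + x)) ^ 32 := by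
  classical
  refine ⟨Real.exp (32 + 2 * ∑' n : ℕ, (n : ℝ) ^ (-(3 / 2) : ℝ)) * 4 ^ 32, ?_, fun x hx => ?_⟩
  · have h1 : 0 ≤ ∑' n : ℕ, (n : ℝ) ^ (-(3 / 2) : ℝ) := tsum_nonneg fun n => by positivity
    have h2 := Real.one_le_exp (show 0 ≤ 32 + 2 * ∑' n : ℕ, (n : ℝ) ^ (-(3 / 2) : ℝ) by positivity)
    linarith
  set N := ⌊x⌋₊ + 1 with hN
  have h32 : Summable fun n : ℕ => (n : ℝ) ^ (-(3 / 2) : ℝ) := Real.summable_nat_rpow.2 (by norm_num)
  have h1 := sum_le_prod (f := fun n => Em n) Em_nonneg (by simp) Em_mult.map_one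
    (fun {m n} hmn => Em_mult.map_mul_of_coprime hmn)
    (fun p => 1 + 4 / (p : ℝ) + 2 * (p : ℝ) ^ (-(3 / 2) : ℝ)) (fun p hp K => by
      have hp0 : (0 : ℝ) < p := by exact_mod_cast hp.pos
      have hs : 0 < √(p : ℝ) := Real.sqrt_pos.2 hp0
      have e1 : ∑ k ∈ Finset.range K, Em (p ^ k) ≤ ∑ k ∈ Finset.range (K + 4), Em (p ^ k) :=
        Finset.sum_le_sum_of_subset_of_nonneg (Finset.range_mono (by omega))
          fun i _ _ => Em_nonneg _
      refine e1.trans (le_of_eq ?_)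
      rw [Finset.sum_range_succ', Finset.sum_range_succ', Finset.sum_range_succ',
        Finset.sum_range_succ', Finset.sum_eq_zero, Em_pow hp, Em_pow hp, Em_pow hp, Em_pow hp]
      · simp
        have h2 : (p : ℝ) ^ (-(3 / 2) : ℝ) = 1 / (p * √(p : ℝ)) := by
          rw [Real.sqrt_eq_rpow, Real.rpow_neg hp0.le, one_div]
          congr 1
          nth_rw 2 [← Real.rpow_one (p : ℝ)]
          rw [← Real.rpow_add hp0]
          norm_num
        rw [h2]
        ring
      · intro k _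
        rw [Em_pow hp, if_neg (by omega), if_neg (by omega), if_neg (by omega)]) N
  refine h1.trans ?_
  have h2 : ∀ p ∈ N.primesBelow, 1 + 4 / (p : ℝ) + 2 * (p : ℝ) ^ (-(3 / 2) : ℝ) ≤
      Real.exp (4 * (1 / (p : ℝ)) + 2 * (p : ℝ) ^ (-(3 / 2) : ℝ)) := by
    intro p hp
    have := Real.add_one_le_exp (4 * (1 / (p : ℝ)) + 2 * (p : ℝ) ^ (-(3 / 2) : ℝ))
    refine le_trans (le_of_eq ?_) this
    ring
  refine (Finset.prod_le_prod (fun p hp => by positivity) h2).trans ?_
  rw [← Real.exp_sum, Finset.sum_add_distrib, ← Finset.mul_sum, ← Finset.mul_sum]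
  have h3 : ∑ p ∈ N.primesBelow, (p : ℝ) ^ (-(3 / 2) : ℝ) ≤ ∑' n : ℕ, (n : ℝ) ^ (-(3 / 2) : ℝ) :=
    h32.sum_le_tsum _ fun n _ => by positivity
  have hxz : (2 : ℝ) ≤ 2 + x := by linarith
  have h4 : ∑ p ∈ N.primesBelow, 1 / (p : ℝ) ≤ 8 * (1 + Real.log (Real.log (2 + x) / Real.log 2)) := by
    refine P004.H293.sum_inv_range (fun p hp => Nat.prime_of_mem_primesBelow hp) le_rfl hxz
      (fun p hp => ?_) (fun p hp => ?_)
    · exact_mod_cast (Nat.prime_of_mem_primesBelow hp).two_le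
    · have h5 := Nat.lt_of_mem_primesBelow hp
      have h6 : p ≤ ⌊x⌋₊ := by omega
      have h7 : (p : ℝ) ≤ x := (Nat.le_floor_iff hx).1 h6
      linarith
  have hl2 : (1 : ℝ) / 2 ≤ Real.log 2 := by
    have := Real.log_two_gt_d9
    linarith
  have hl3 : Real.log 2 ≤ 1 := by
    have := Real.log_two_lt_d9
    linarith
  have h8 : 0 < Real.log (2 + x) := Real.log_pos (by linarith)
  have h9 : 0 < Real.log (2 + x) / Real.log 2 := by positivity
  have h10 : Real.log (2 + x) / Real.log 2 ≤ 4 * (1 + Real.log (1 + x)) := by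
    rw [div_le_iff₀ (by linarith)]
    have h11 : Real.log (2 + x) ≤ Real.log (2 * (1 + x)) := by
      apply Real.log_le_log (by linarith)
      linarith
    rw [Real.log_mul (by norm_num) (by linarith)] at h11
    have h12 : 0 ≤ Real.log (1 + x) := Real.log_nonneg (by linarith)
    nlinarith
  calc Real.exp (4 * ∑ p ∈ N.primesBelow, 1 / (p : ℝ) + 2 * ∑ p ∈ N.primesBelow,
        (p : ℝ) ^ (-(3 / 2) : ℝ))
      ≤ Real.exp ((32 + 2 * ∑' n : ℕ, (n : ℝ) ^ (-(3 / 2) : ℝ)) +
        (32 : ℕ) * Real.log (Real.log (2 + x) / Real.log 2)) := by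
        apply Real.exp_le_exp.2
        push_cast
        linarith
    _ = Real.exp (32 + 2 * ∑' n : ℕ, (n : ℝ) ^ (-(3 / 2) : ℝ)) *
        (Real.log (2 + x) / Real.log 2) ^ 32 := by
        rw [Real.exp_add, Real.exp_nat_mul, Real.exp_log h9]
    _ ≤ Real.exp (32 + 2 * ∑' n : ℕ, (n : ℝ) ^ (-(3 / 2) : ℝ)) *
        (4 * (1 + Real.log (1 + x))) ^ 32 := by gcongr
    _ = _ := by rw [_root_.mul_pow]; ring

end P004E.KT
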