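import Vale.Agent.P004E.H253.K5

/-!
# P004E/H253: kernels, windows
-/

open Real MeasureTheory Set Filter
open scoped ENNReal Topology

namespace P004E.KT

open P004G

/-! ### windows -/

theorem kn_mono {m n : ℕ} {k : ℝ → ℝ} (h : Kn n k) (hmn : m ≤ n) : Kn m k :=
  ⟨h.smooth.of_le (by exact_mod_cast hmn), h.supp, fun i hi => h.bound i (hi.trans hmn)⟩

theorem kn_cont {n : ℕ} {k : ℝ → ℝ} (h : Kn n k) : Continuous k := h.smooth.continuous

theorem kn_abs {n : ℕ} {k : ℝ → ℝ} (h : Kn n k) (x : ℝ) : |k x| ≤ 1 := by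
  have := h.bound 0 (Nat.zero_le _) x
  rwa [iteratedDeriv_zero] at this

theorem kn_zero {n : ℕ} {k : ℝ → ℝ} (h : Kn n k) {x : ℝ} (hx : x ∉ Icc (0 : ℝ) 1) : k x = 0 := by
  by_contra h1
  exact hx ⟨(h.supp x h1).1, (h.supp x h1).2⟩

theorem kn_deriv {n : ℕ} {k : ℝ → ℝ} (h : Kn (n + 1) k) : Kn n (deriv k) := by
  refine ⟨?_, fun x hx => ?_, fun i hi x => ?_⟩
  · have h1 := h.smooth
    push_cast at h1
    exact (contDiff_succ_iff_deriv.1 h1).2.2
  · by_contra h1
    apply hx
    have h2 : k =ᶠ[𝓝 x] fun _ => 0 := by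
      have h3 : (Icc (0 : ℝ) 1)ᶜ ∈ 𝓝 x := by
        apply isClosed_Icc.isOpen_compl.mem_nhds
        intro h4
        exact h1 ⟨h4.1, h4.2⟩
      filter_upwards [h3] with y hy
      exact kn_zero h hy
    rw [h2.deriv_eq]
    simp
  · have := h.bound (i + 1) (by omega) x
    rwa [iteratedDeriv_succ'] at this

theorem xexp_le {v t : ℝ} (ht : 0 < t) (hv : t ≤ v) : v * Real.exp (-π * v) ≤ Real.exp (-t) := by
  have hv0 : 0 < v := lt_of_lt_of_le ht hv
  have h1 : v ≤ Real.exp v := by
    have := Real.add_one_le_exp v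
    linarith
  calc v * Real.exp (-π * v) ≤ Real.exp v * Real.exp (-π * v) := by gcongr
    _ = Real.exp (v + -π * v) := by rw [Real.exp_add]
    _ ≤ Real.exp (-t) := by
        apply Real.exp_le_exp.2
        have := Real.pi_gt_three
        nlinarith

/-- pointwise bound of the integrand -/
theorem kap_integrand_le {k : ℝ → ℝ} (hk : Kn 0 k) {t : ℝ} (ht : 0 < t) (x : ℝ) :
    ‖t * Real.exp x * Real.exp (-π * (t * Real.exp x)) * k x‖ ≤
      (Icc (0 : ℝ) 1).indicator (fun _ => Real.exp (-t)) x := by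
  by_cases hx : x ∈ Icc (0 : ℝ) 1
  · rw [Set.indicator_of_mem hx, norm_mul, Real.norm_of_nonneg (by positivity), Real.norm_eq_abs]
    have h1 := kn_abs hk x
    have h2 : t ≤ t * Real.exp x := by
      have := Real.one_le_exp hx.1
      nlinarith
    have h3 := xexp_le ht h2
    calc t * Real.exp x * Real.exp (-π * (t * Real.exp x)) * |k x| ≤ Real.exp (-t) * 1 := by
          gcongr
      _ = Real.exp (-t) := mul_one _
  · rw [kn_zero hk hx, mul_zero, norm_zero]
    exact Set.indicator_nonneg (fun _ _ => (Real.exp_pos _).le) x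

theorem integrable_ind (c : ℝ) : Integrable ((Icc (0 : ℝ) 1).indicator fun _ => c) :=
  (integrable_indicator_iff measurableSet_Icc).2 (by simp)

theorem integral_ind (c : ℝ) : ∫ x, (Icc (0 : ℝ) 1).indicator (fun _ => c) x = c := by
  rw [integral_indicator measurableSet_Icc]
  simp

theorem meas_kap_integrand {k : ℝ → ℝ} (hk : Kn 0 k) :
    Measurable fun p : ℝ × ℝ => p.1 * Real.exp p.2 * Real.exp (-π * (p.1 * Real.exp p.2)) * k p.2 := by
  have := (kn_cont hk).measurable
  fun_prop

theorem measurable_kap {k : ℝ → ℝ} (hk : Kn 0 k) : Measurable (kap k) :=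
  (meas_kap_integrand hk).stronglyMeasurable.integral_prod_right.measurable

theorem integrable_kap_integrand {k : ℝ → ℝ} (hk : Kn 0 k) {t : ℝ} (ht : 0 < t) :
    Integrable fun x => t * Real.exp x * Real.exp (-π * (t * Real.exp x)) * k x := by
  refine Integrable.mono' (integrable_ind (Real.exp (-t))) ?_
    (Eventually.of_forall (kap_integrand_le hk ht))
  have := kn_cont hk
  exact (by fun_prop : Continuous fun x => t * Real.exp x * Real.exp (-π * (t * Real.exp x)) *
    k x).aestronglyMeasurable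

theorem abs_kap_le {k : ℝ → ℝ} (hk : Kn 0 k) {t : ℝ} (ht : 0 < t) : |kap k t| ≤ Real.exp (-t) := by
  have h1 := norm_integral_le_of_norm_le (integrable_ind (Real.exp (-t)))
    (Eventually.of_forall (kap_integrand_le hk ht))
  rw [integral_ind] at h1
  exact h1

/-- `kap k` and `kap k'` -/
theorem KK_kap {k : ℝ → ℝ} (hk : Kn 1 k) : KK (kap k) (kap (deriv k)) := by
  have hk0 : Kn 0 k := kn_mono hk (by norm_num)
  have hk' : Kn 0 (deriv k) := kn_deriv hk
  refine ⟨measurable_kap hk', ⟨1, fun t ht => by rw [one_mul]; exact abs_kap_le hk0 ht⟩,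
    ⟨1, fun t ht => by rw [one_mul]; exact abs_kap_le hk' ht⟩, fun t ht => ?_⟩
  have hpi := Real.pi_pos
  -- the right side as a double integral
  have e1 : ∫ x in Ioi (1 : ℝ), kap (deriv k) (t * x) / x =
      ∫ x in Ioi (1 : ℝ), ∫ y, t * Real.exp y * Real.exp (-π * (t * x * Real.exp y)) * deriv k y := by
    refine setIntegral_congr_fun measurableSet_Ioi fun x hx => ?_
    have hx0 : (0 : ℝ) < x := lt_trans zero_lt_one hx
    simp only [kap]
    rw [div_eq_inv_mul, ← integral_const_mul]
    refine integral_congr_ae (Eventually.of_forall fun y => ?_)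
    simp only
    field_simp
  have hint : Integrable (Function.uncurry fun x y : ℝ =>
      t * Real.exp y * Real.exp (-π * (t * x * Real.exp y)) * deriv k y)
      ((volume.restrict (Ioi (1 : ℝ))).prod volume) := by
    have h1 : Integrable (fun p : ℝ × ℝ => Real.exp (-(t / 1) * p.1) *
        ((Icc (0 : ℝ) 1).indicator (fun _ => 1) p.2))
        ((volume.restrict (Ioi (1 : ℝ))).prod volume) := by
      exact Integrable.mul_prod (f := fun x : ℝ => Real.exp (-(t / 1) * x))
        (g := (Icc (0 : ℝ) 1).indicator (fun _ => (1 : ℝ)))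
        (exp_neg_integrableOn_Ioi 1 (by positivity)) (integrable_ind 1)
    refine Integrable.mono' h1 ?_ ?_
    · have := (kn_cont hk').measurable
      exact (by
        unfold Function.uncurry
        fun_prop : Measurable (Function.uncurry fun x y : ℝ =>
          t * Real.exp y * Real.exp (-π * (t * x * Real.exp y)) * deriv k y)).aestronglyMeasurable
    · have h2 : ∀ᵐ p ∂((volume.restrict (Ioi (1 : ℝ))).prod (volume : Measure ℝ)),
          p.1 ∈ Ioi (1 : ℝ) := by
        have h3 : ∀ᵐ x ∂(volume.restrict (Ioi (1 : ℝ))), x ∈ Ioi (1 : ℝ) :=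
          ae_restrict_mem measurableSet_Ioi
        exact Measure.quasiMeasurePreserving_fst.ae h3
      filter_upwards [h2] with p hp
      have hx1 : (1 : ℝ) < p.1 := hp
      have hx0 : (0 : ℝ) < p.1 := by linarith
      have h4 := kap_integrand_le hk' (t := t * p.1) (by positivity) p.2
      have h5 : ‖Function.uncurry (fun x y : ℝ =>
          t * Real.exp y * Real.exp (-π * (t * x * Real.exp y)) * deriv k y) p‖ =
          ‖t * p.1 * Real.exp p.2 * Real.exp (-π * (t * p.1 * Real.exp p.2)) * deriv k p.2‖ / p.1 := by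
        unfold Function.uncurry
        rw [eq_div_iff hx0.ne']
        nth_rw 2 [← Real.norm_of_nonneg hx0.le]
        rw [← norm_mul]
        congr 1
        ring
      rw [h5]
      calc ‖t * p.1 * Real.exp p.2 * Real.exp (-π * (t * p.1 * Real.exp p.2)) * deriv k p.2‖ / p.1
          ≤ (Icc (0 : ℝ) 1).indicator (fun _ => Real.exp (-(t * p.1))) p.2 / 1 := by
            gcongr
            · exact Set.indicator_nonneg (fun _ _ => (Real.exp_pos _).le) _
        _ = _ := by
            unfold Set.indicator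
            split_ifs
            · simp
            · simp
  rw [e1, integral_integral_swap hint]
  -- the inner integral
  have e2 : ∀ y : ℝ, ∫ x in Ioi (1 : ℝ), t * Real.exp y * Real.exp (-π * (t * x * Real.exp y)) *
      deriv k y = (1 / π) * Real.exp (-π * (t * Real.exp y)) * deriv k y := by
    intro y
    have hey := Real.exp_pos y
    have h1 : ∀ x : ℝ, t * Real.exp y * Real.exp (-π * (t * x * Real.exp y)) * deriv k y =
        (t * Real.exp y * deriv k y) * Real.exp (-(π * t * Real.exp y) * x) := by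
      intro x
      rw [show -π * (t * x * Real.exp y) = -(π * t * Real.exp y) * x by ring]
      ring
    simp only [h1]
    rw [integral_const_mul, integral_exp_mul_Ioi (by
      have : 0 < π * t * Real.exp y := by positivity
      linarith)]
    rw [show -(π * t * Real.exp y) * 1 = -π * (t * Real.exp y) by ring]
    field_simp
  simp only [e2]
  -- integration by parts
  have hd : ∀ y : ℝ, HasDerivAt (fun y => (1 / π) * Real.exp (-π * (t * Real.exp y)))
      (-(t * Real.exp y * Real.exp (-π * (t * Real.exp y)))) y := by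
    intro y
    have h1 : HasDerivAt (fun y => -π * (t * Real.exp y)) (-π * (t * Real.exp y)) y :=
      ((Real.hasDerivAt_exp y).const_mul t).const_mul (-π)
    have h2 := (h1.exp).const_mul (1 / π)
    refine h2.congr_deriv ?_
    field_simp
  have hdk : ∀ y : ℝ, HasDerivAt k (deriv k y) y := fun y =>
    ((hk.smooth.differentiable (by norm_num)) y).hasDerivAt
  have hcs : ∀ g : ℝ → ℝ, Continuous g → (∀ y, y ∉ Icc (0 : ℝ) 1 → g y = 0) → Integrable g := by
    intro g hg hg0
    refine hg.integrable_of_hasCompactSupport (HasCompactSupport.intro (K := Icc (0 : ℝ) 1) isCompact_Icc ?_)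
    exact fun y hy => hg0 y hy
  have hkc := kn_cont hk
  have hkc' := kn_cont hk'
  have h3 := integral_mul_deriv_eq_deriv_mul_of_integrable (u := fun y => (1 / π) *
    Real.exp (-π * (t * Real.exp y))) (v := k) (fun y _ => hd y) (fun y _ => hdk y)
    (hcs _ (by
      change Continuous fun y => (1 / π) * Real.exp (-π * (t * Real.exp y)) * deriv k y
      fun_prop) fun y hy => by simp [kn_zero hk' hy])
    (hcs _ (by
      change Continuous fun y => -(t * Real.exp y * Real.exp (-π * (t * Real.exp y))) * k y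
      fun_prop) fun y hy => by simp [kn_zero hk0 hy])
    (hcs _ (by
      change Continuous fun y => (1 / π) * Real.exp (-π * (t * Real.exp y)) * k y
      fun_prop) fun y hy => by simp [kn_zero hk0 hy])
  rw [h3, ← integral_neg]
  unfold kap
  refine integral_congr_ae (Eventually.of_forall fun y => ?_)
  simp only
  ring

/-- windows as series -/
theorem window_eq {f : ArithmeticFunction ℝ} (hf : Pb f) {c : ℕ → ℝ} (hc : ∀ n : ℕ, c n = n * f n)
    {k : ℝ → ℝ} (hk : Kn 0 k) {u : ℝ} (hu : 0 < u) :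
    ∫ x, u * Real.exp x * (∑' n : ℕ, c n * Real.exp (-π * n * (u * Real.exp x))) * k x =
      tr f (kap k) u := by
  obtain ⟨C, hC⟩ := hf
  have hC0 := nonneg_of_Pb hC
  set F : ℕ → ℝ → ℝ := fun n x => f n *
    ((n * u) * Real.exp x * Real.exp (-π * ((n * u) * Real.exp x)) * k x) with hF
  have hint : ∀ n : ℕ, Integrable (F n) := by
    intro n
    rcases Nat.eq_zero_or_pos n with rfl | hn
    · simp [hF]
    · have : (0 : ℝ) < n := by exact_mod_cast hn
      exact (integrable_kap_integrand hk (by positivity)).const_mul _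
  have hsum : Summable fun n : ℕ => ∫ x, ‖F n x‖ := by
    refine Summable.of_nonneg_of_le (fun n => integral_nonneg fun x => norm_nonneg _) (fun n => ?_)
      ((Real.summable_pow_mul_exp_neg_nat_mul 3 hu).mul_left C)
    rcases Nat.eq_zero_or_pos n with rfl | hn
    · simp [hF]
    · have hn' : (0 : ℝ) < n := by exact_mod_cast hn
      calc ∫ x, ‖F n x‖ ≤ ∫ x, |f n| *
            (Icc (0 : ℝ) 1).indicator (fun _ => Real.exp (-(n * u))) x := by
            refine integral_mono (hint n).norm ((integrable_ind _).const_mul _) fun x => ?_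
            simp only [hF]
            rw [norm_mul, Real.norm_eq_abs]
            gcongr
            exact kap_integrand_le hk (by positivity) x
        _ = |f n| * Real.exp (-(n * u)) := by rw [integral_const_mul, integral_ind]
        _ ≤ (C * (n : ℝ) ^ 3) * Real.exp (-(n * u)) := by
            gcongr
            exact hC n
        _ = C * ((n : ℝ) ^ 3 * Real.exp (-u * n)) := by
            rw [show -u * (n : ℝ) = -(n * u) by ring]; ring
  have hmain := (hasSum_integral_of_summable_integral_norm hint hsum).tsum_eq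
  have hval : ∀ n : ℕ, ∫ x, F n x = f n * kap k (n * u) := by
    intro n
    simp only [hF]
    rw [integral_const_mul]
    rfl
  simp only [hval] at hmain
  unfold tr
  rw [hmain]
  refine integral_congr_ae (Eventually.of_forall fun x => ?_)
  simp only [hF]
  rw [mul_right_comm, ← tsum_mul_left]
  refine tsum_congr fun n => ?_
  rw [hc n, show -π * (n : ℝ) * (u * Real.exp x) = -π * ((n * u) * Real.exp x) by ring]
  ring

/-! ### polynomial bounds -/

theorem Pb.mul {f g : ArithmeticFunction ℝ} (hf : ∃ C : ℝ, ∀ n : ℕ, |f n| ≤ C * n)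
    (hg : ∃ C : ℝ, ∀ n : ℕ, |g n| ≤ C * n) : Pb (f * g) := by
  obtain ⟨C₁, h1⟩ := hf
  obtain ⟨C₂, h2⟩ := hg
  refine ⟨C₁ * C₂, fun n => ?_⟩
  rw [ArithmeticFunction.mul_apply]
  refine (Finset.abs_sum_le_sum_abs _ _).trans ?_
  have hC1 : 0 ≤ C₁ := by
    have := (abs_nonneg _).trans (h1 1)
    simpa using this
  have hC2 : 0 ≤ C₂ := by
    have := (abs_nonneg _).trans (h2 1)
    simpa using this
  rcases Nat.eq_zero_or_pos n with rfl | hn
  · simp
  calc ∑ p ∈ n.divisorsAntidiagonal, |f p.1 * g p.2|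
      ≤ ∑ p ∈ n.divisorsAntidiagonal, C₁ * C₂ * (n : ℝ) := by
        refine Finset.sum_le_sum fun p hp => ?_
        have h3 := (Nat.mem_divisorsAntidiagonal.1 hp).1
        rw [abs_mul, ← h3]
        push_cast
        calc |f p.1| * |g p.2| ≤ (C₁ * p.1) * (C₂ * p.2) := by
              gcongr
              · exact h1 _
              · exact h2 _
          _ = _ := by ring
    _ = (n.divisors.card : ℝ) * (C₁ * C₂ * (n : ℝ)) := by
        rw [Nat.sum_divisorsAntidiagonal (fun _ _ => C₁ * C₂ * (n : ℝ)), Finset.sum_const,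
          nsmul_eq_mul]
    _ ≤ (n : ℝ) * (C₁ * C₂ * (n : ℝ)) := by
        gcongr
        exact_mod_cast Nat.card_divisors_le_self n
    _ ≤ C₁ * C₂ * (n : ℝ) ^ 3 := by
        have : (1 : ℝ) ≤ n := by exact_mod_cast hn
        have h4 : (n : ℝ) ^ 2 ≤ (n : ℝ) ^ 3 := pow_le_pow_right₀ this (by norm_num)
        calc (n : ℝ) * (C₁ * C₂ * (n : ℝ)) = C₁ * C₂ * (n : ℝ) ^ 2 := by ring
          _ ≤ _ := by gcongr

theorem Pb.of_lin {f : ArithmeticFunction ℝ} (hf : ∃ C : ℝ, ∀ n : ℕ, |f n| ≤ C * n) : Pb f := by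
  obtain ⟨C, h⟩ := hf
  have hC : 0 ≤ C := by
    have := (abs_nonneg _).trans (h 1)
    simpa using this
  refine ⟨C, fun n => (h n).trans ?_⟩
  rcases Nat.eq_zero_or_pos n with rfl | hn
  · simp
  · have : (1 : ℝ) ≤ n := by exact_mod_cast hn
    gcongr
    calc (n : ℝ) = (n : ℝ) ^ 1 := (pow_one _).symm
      _ ≤ (n : ℝ) ^ 3 := pow_le_pow_right₀ this (by norm_num)

variable [Crv]

theorem av_lin (h : ℤ) (q n : ℕ) : |av h q n| ≤ 1 * (n : ℝ) := by
  rcases Nat.eq_zero_or_pos n with rfl | hn
  · simp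
  have hn0 : (0 : ℝ) < n := by exact_mod_cast hn
  have hn1 : (1 : ℝ) ≤ n := by exact_mod_cast hn
  rw [one_mul, av_apply]
  split_ifs
  · rw [abs_mul, abs_div, abs_of_pos hn0]
    have h1 := P004.H3.abs_chi_le h n
    have h2 := pfCoef.bound n
    have h3 : dv n ≤ n := by
      unfold P004.dv
      exact_mod_cast Nat.card_divisors_le_self n
    have h4 : √(n : ℝ) ≤ n := by
      rw [Real.sqrt_le_left (by linarith)]
      nlinarith
    calc |(ca n : ℝ)| / n * |chi h n| ≤ ((n : ℝ) * n) / n * 1 := by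
          gcongr
          refine h2.trans ?_
          gcongr
      _ = n := by field_simp
  · simp

theorem bv_lin (h : ℤ) (q n : ℕ) : |bv h q n| ≤ 1 * (n : ℝ) := by
  rw [bv_apply]
  split_ifs
  · exact av_lin h q n
  · rw [abs_zero]; positivity

theorem βv_lin (hH : Hlam) (h : ℤ) (q n : ℕ) : |βv h q n| ≤ 1 * (n : ℝ) := by
  have h1 := mult_le (βv_mult h q) (ArithmeticFunction.isMultiplicative_zeta.natCast (R := ℝ))
    (fun p k hp => by
      have h2 := abs_βv_le hH h q hp k
      have h3 : rr p ^ k ≤ 1 := pow_le_one₀ (rr_pos hp).le ((rr_le p).trans (by norm_num))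
      have h4 : ((ArithmeticFunction.zeta : ArithmeticFunction ℕ) : ArithmeticFunction ℝ) (p ^ k) = 1 := by
        rw [ArithmeticFunction.natCoe_apply, ArithmeticFunction.zeta_apply_ne
          (pow_ne_zero _ hp.ne_zero)]
        simp
      rw [h4]
      linarith) n
  refine h1.trans ?_
  rw [ArithmeticFunction.natCoe_apply, ArithmeticFunction.zeta_apply]
  split_ifs with h5
  · simp [h5]
  · have : (1 : ℝ) ≤ n := by exact_mod_cast Nat.one_le_iff_ne_zero.2 h5
    simpa using this

theorem αv_lin (hH : Hlam) (h : ℤ) (q n : ℕ) : |αv h q n| ≤ 1 * (n : ℝ) := by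
  have h1 := mult_le (αv_mult h q) (ArithmeticFunction.isMultiplicative_zeta.natCast (R := ℝ))
    (fun p k hp => by
      have hp1 : (1 : ℝ) ≤ p := by exact_mod_cast hp.one_le
      have h4 : ((ArithmeticFunction.zeta : ArithmeticFunction ℕ) : ArithmeticFunction ℝ) (p ^ k) = 1 := by
        rw [ArithmeticFunction.natCoe_apply, ArithmeticFunction.zeta_apply_ne
          (pow_ne_zero _ hp.ne_zero)]
        simp
      rw [h4, αv_pow h q hp]
      split_ifs
      · simp
      · rw [abs_neg]
        exact (abs_tv_le hH h q hp).trans ((rr_le p).trans (by norm_num))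
      · unfold sv
        split_ifs
        · simp
        · rw [abs_div, abs_of_pos (by linarith : (0 : ℝ) < p), abs_pow]
          have h5 : |yv h q p| ^ 2 ≤ 1 := pow_le_one₀ (abs_nonneg _) (abs_yv_le h q p)
          rw [div_le_one (by linarith)]
          linarith
      · simp) n
  refine h1.trans ?_
  rw [ArithmeticFunction.natCoe_apply, ArithmeticFunction.zeta_apply]
  split_ifs with h5
  · simp [h5]
  · have : (1 : ℝ) ≤ n := by exact_mod_cast Nat.one_le_iff_ne_zero.2 h5
    simpa using this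

theorem Pb_av (h : ℤ) (q : ℕ) : Pb (av h q) := Pb.of_lin ⟨1, av_lin h q⟩

theorem Pb_bv (h : ℤ) (q : ℕ) : Pb (bv h q) := Pb.of_lin ⟨1, bv_lin h q⟩

theorem Pb_κv (hH : Hlam) (h : ℤ) (q : ℕ) : Pb (κv h q) := Pb.mul ⟨1, av_lin h q⟩ ⟨1, βv_lin hH h q⟩

theorem Pb_ev (hH : Hlam) (h : ℤ) (q : ℕ) : Pb (ev h q) := Pb.mul ⟨1, bv_lin h q⟩ ⟨1, αv_lin hH h q⟩

/-! ### the windows of the problem -/

theorem Sw_eq {h : ℤ} {q : ℕ} {u : ℝ} {k : ℝ → ℝ} (hk : Kn 0 k) (hu : 0 < u) :
    Sw h q u k = tr (bv h q) (kap k) u := by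
  have h1 := window_eq (Pb_bv h q) (c := fun n : ℕ => if Squarefree n ∧ n.Coprime q then
    (ca n : ℝ) * chi h n else 0) (fun n => by
      rw [bv_apply, av_apply]
      by_cases h2 : Squarefree n
      · have hn : (n : ℝ) ≠ 0 := by exact_mod_cast h2.ne_zero
        by_cases h3 : n.Coprime q
        · rw [if_pos ⟨h2, h3⟩, if_pos h2, if_pos h3]
          field_simp
        · rw [if_neg (fun h4 => h3 h4.2), if_pos h2, if_neg h3, mul_zero]
      · rw [if_neg (fun h4 => h2 h4.1), if_neg h2, mul_zero]) hk hu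
  rw [← h1]
  unfold Sw Uf
  refine integral_congr_ae (Eventually.of_forall fun x => ?_)
  simp only [ite_mul, zero_mul]

theorem Tw_eq {h : ℤ} {u : ℝ} {k : ℝ → ℝ} (hk : Kn 0 k) (hu : 0 < u) :
    Tw h u k = 4 * tr (av h 1) (kap k) u := by
  have h1 := window_eq (Pb_av h 1) (c := fun n : ℕ => (ca n : ℝ) * chi h n) (fun n => by
      rw [av_apply, if_pos (Nat.coprime_one_right n)]
      rcases Nat.eq_zero_or_pos n with rfl | hn
      · simp [pfCoef.zero]
      · have hn : (n : ℝ) ≠ 0 := by exact_mod_cast hn.ne'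
        field_simp) hk hu
  rw [← h1, ← integral_const_mul]
  unfold Tw theta
  refine integral_congr_ae (Eventually.of_forall fun x => ?_)
  simp only
  ring

omit [Crv] in
theorem chi_mul_sq (h : ℤ) (q : ℕ) {n : ℕ} (hn : n ≠ 0) :
    chi (h * (q : ℤ) ^ 2) n = if n.Coprime q then chi h n else 0 := by
  unfold chi
  rw [jacobiSym.mul_left]
  split_ifs with h1
  · rw [jacobiSym.sq_one' (by rw [Int.gcd_natCast_natCast]; exact h1.symm), mul_one]
  · have h3 : jacobiSym (q : ℤ) n = 0 := by
      rw [jacobiSym.eq_zero_iff]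
      refine ⟨hn, ?_⟩
      rw [Int.gcd_natCast_natCast]
      exact fun h2 => h1 (Nat.Coprime.symm h2)
    rw [jacobiSym.pow_left, h3]
    simp

theorem av_mul_sq (h : ℤ) (q : ℕ) : av (h * (q : ℤ) ^ 2) 1 = av h q := by
  ext n
  rw [av_apply, av_apply, if_pos (Nat.coprime_one_right n)]
  rcases Nat.eq_zero_or_pos n with rfl | hn
  · simp
  rw [chi_mul_sq h q hn.ne']
  split_ifs <;> simp

theorem Tw_sq_eq {h : ℤ} {q : ℕ} {u : ℝ} {k : ℝ → ℝ} (hk : Kn 0 k) (hu : 0 < u) :
    Tw (h * (q : ℤ) ^ 2) u k = 4 * tr (av h q) (kap k) u := by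
  rw [Tw_eq hk hu, av_mul_sq]

end P004E.KT
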