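import Vale.Agent.P004E.H253.K6

/-!
# P004E/H253: mean squares; `StTS` and `StST`
-/

open Real MeasureTheory Set Filter
open scoped ENNReal Topology

namespace P004E.KT

open P004G

/-- Minkowski in the form used below -/
theorem ms {ι : Type*} {S : Finset ι} {w : ι → ℝ} (hw : ∀ h ∈ S, 0 ≤ w h) {T : ι → ℝ} {I : Finset ℕ}
    {e A : ι → ℕ → ℝ} {E : ℕ → ℝ} {f g : ι → ℝ → ℝ} {G : ℝ → ℝ} {μ : Measure ℝ} {B : ℝ}
    (hB : 0 ≤ B) (hE : ∀ r ∈ I, 0 ≤ E r)
    (hT : ∀ h ∈ S, T h = ∑ r ∈ I, e h r * A h r + ∫ x, g h x * f h x ∂μ)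
    (he : ∀ h ∈ S, ∀ r ∈ I, |e h r| ≤ E r) (hA : ∀ r ∈ I, ∑ h ∈ S, w h * A h r ^ 2 ≤ B)
    (hg : ∀ᵐ x ∂μ, ∀ h ∈ S, |g h x| ≤ G x) (hG : Integrable G μ)
    (hf : ∀ᵐ x ∂μ, G x = 0 ∨ (0 ≤ G x ∧ ∑ h ∈ S, w h * f h x ^ 2 ≤ B))
    (hint : ∀ h ∈ S, Integrable (fun x => g h x * f h x) μ) :
    ∑ h ∈ S, w h * T h ^ 2 ≤ (∑ r ∈ I, E r + ∫ x, G x ∂μ) ^ 2 * B := by
  set N := √(∑ h ∈ S, w h * T h ^ 2) with hN
  have hT0 : 0 ≤ ∑ h ∈ S, w h * T h ^ 2 :=
    Finset.sum_nonneg fun h hh => mul_nonneg (hw h hh) (sq_nonneg _)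
  have hN2 : N * N = ∑ h ∈ S, w h * T h ^ 2 := Real.mul_self_sqrt hT0
  have hN0 : 0 ≤ N := Real.sqrt_nonneg _
  have hB2 : √B * √B = B := Real.mul_self_sqrt hB
  have hB0 : 0 ≤ √B := Real.sqrt_nonneg _
  -- Cauchy-Schwarz
  have hcs : ∀ a : ι → ℝ, ∑ h ∈ S, w h * a h ^ 2 ≤ B →
      ∑ h ∈ S, w h * (|T h| * |a h|) ≤ N * √B := by
    intro a ha
    have h1 := Finset.sum_mul_sq_le_sq_mul_sq S (fun h => √(w h) * |T h|) (fun h => √(w h) * |a h|)
    have e1 : ∑ h ∈ S, (√(w h) * |T h|) * (√(w h) * |a h|) = ∑ h ∈ S, w h * (|T h| * |a h|) := by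
      refine Finset.sum_congr rfl fun h hh => ?_
      calc (√(w h) * |T h|) * (√(w h) * |a h|) = (√(w h) * √(w h)) * (|T h| * |a h|) := by ring
        _ = _ := by rw [Real.mul_self_sqrt (hw h hh)]
    have e2 : ∀ b : ι → ℝ, ∑ h ∈ S, (√(w h) * |b h|) ^ 2 = ∑ h ∈ S, w h * b h ^ 2 := by
      intro b
      refine Finset.sum_congr rfl fun h hh => ?_
      rw [_root_.mul_pow, Real.sq_sqrt (hw h hh), sq_abs]
    rw [e1, e2, e2] at h1
    have h2 : (∑ h ∈ S, w h * (|T h| * |a h|)) ^ 2 ≤ (N * √B) ^ 2 := by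
      calc (∑ h ∈ S, w h * (|T h| * |a h|)) ^ 2
          ≤ (∑ h ∈ S, w h * T h ^ 2) * (∑ h ∈ S, w h * a h ^ 2) := h1
        _ ≤ (∑ h ∈ S, w h * T h ^ 2) * B := by gcongr
        _ = (N * √B) ^ 2 := by rw [← hN2]; nlinarith
    exact le_of_sq_le_sq h2 (by positivity) |> fun h => h
  have hG0 : 0 ≤ ∫ x, G x ∂μ := integral_nonneg_of_ae (by
    filter_upwards [hf] with x hx
    rcases hx with hx | hx
    · exact hx.ge
    · exact hx.1)
  have hES : 0 ≤ ∑ r ∈ I, E r := Finset.sum_nonneg hE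
  -- the main identity
  have hmain : N * N ≤ (∑ r ∈ I, E r + ∫ x, G x ∂μ) * (N * √B) := by
    have e1 : ∑ h ∈ S, w h * T h ^ 2 =
        ∑ r ∈ I, ∑ h ∈ S, w h * T h * (e h r * A h r) +
          ∫ x, ∑ h ∈ S, w h * T h * (g h x * f h x) ∂μ := by
      rw [integral_finsetSum _ (fun h hh => (hint h hh).const_mul _), Finset.sum_comm,
        ← Finset.sum_add_distrib]
      refine Finset.sum_congr rfl fun h hh => ?_
      have h3 : w h * T h ^ 2 = w h * T h * (∑ r ∈ I, e h r * A h r + ∫ x, g h x * f h x ∂μ) := by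
        rw [← hT h hh]
        ring
      rw [integral_const_mul, ← Finset.mul_sum, h3]
      ring
    rw [hN2, e1, add_mul]
    refine add_le_add ?_ ?_
    · rw [Finset.sum_mul]
      refine Finset.sum_le_sum fun r hr => ?_
      calc ∑ h ∈ S, w h * T h * (e h r * A h r)
          ≤ ∑ h ∈ S, E r * (w h * (|T h| * |A h r|)) := by
            refine Finset.sum_le_sum fun h hh => ?_
            calc w h * T h * (e h r * A h r) ≤ |w h * T h * (e h r * A h r)| := le_abs_self _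
              _ = |e h r| * (w h * (|T h| * |A h r|)) := by
                  rw [abs_mul, abs_mul, abs_mul, abs_of_nonneg (hw h hh)]
                  ring
              _ ≤ _ := by
                  have := hw h hh
                  gcongr
                  exact he h hh r hr
        _ = E r * ∑ h ∈ S, w h * (|T h| * |A h r|) := by rw [Finset.mul_sum]
        _ ≤ E r * (N * √B) := by
            have := hE r hr
            gcongr
            exact hcs _ (hA r hr)
    · rw [← integral_mul_const]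
      refine integral_mono_ae (integrable_finsetSum _ fun h hh => (hint h hh).const_mul _)
        (hG.mul_const _) ?_
      filter_upwards [hg, hf] with x hgx hfx
      rcases hfx with hfx | hfx
      · have h4 : ∑ h ∈ S, w h * T h * (g h x * f h x) = 0 := by
          refine Finset.sum_eq_zero fun h hh => ?_
          have h5 := hgx h hh
          rw [hfx] at h5
          rw [abs_nonpos_iff.1 h5]
          ring
        rw [h4, hfx, zero_mul]
      · calc ∑ h ∈ S, w h * T h * (g h x * f h x)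
            ≤ ∑ h ∈ S, G x * (w h * (|T h| * |f h x|)) := by
              refine Finset.sum_le_sum fun h hh => ?_
              calc w h * T h * (g h x * f h x) ≤ |w h * T h * (g h x * f h x)| := le_abs_self _
                _ = |g h x| * (w h * (|T h| * |f h x|)) := by
                    rw [abs_mul, abs_mul, abs_mul, abs_of_nonneg (hw h hh)]
                    ring
                _ ≤ _ := by
                    have := hw h hh
                    gcongr
                    exact hgx h hh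
          _ = G x * ∑ h ∈ S, w h * (|T h| * |f h x|) := by rw [Finset.mul_sum]
          _ ≤ G x * (N * √B) := by
              have := hfx.1
              gcongr
              exact hcs _ hfx.2
  rw [← hN2]
  rcases hN0.eq_or_lt with h0 | h0
  · rw [← h0]
    have : 0 ≤ (∑ r ∈ I, E r + ∫ x, G x ∂μ) ^ 2 * B := by positivity
    linarith
  · have h6 : N ≤ (∑ r ∈ I, E r + ∫ x, G x ∂μ) * √B := by
      by_contra h7
      push Not at h7
      have := mul_lt_mul_of_pos_right h7 h0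
      nlinarith
    calc N * N ≤ ((∑ r ∈ I, E r + ∫ x, G x ∂μ) * √B) * ((∑ r ∈ I, E r + ∫ x, G x ∂μ) * √B) := by
          gcongr
      _ = (∑ r ∈ I, E r + ∫ x, G x ∂μ) ^ 2 * (√B * √B) := by ring
      _ = _ := by rw [hB2]

/-! ### the function `δ_N` -/

/-- `c` at `N`, `0` elsewhere -/
noncomputable def dl (N : ℕ) (c : ℝ) : ArithmeticFunction ℝ :=
  ⟨fun n => if n = N ∧ n ≠ 0 then c else 0, by simp⟩

theorem dl_apply (N : ℕ) (c : ℝ) (n : ℕ) : dl N c n = if n = N ∧ n ≠ 0 then c else 0 := rfl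

theorem Pb_dl (N : ℕ) (c : ℝ) : Pb (dl N c) := by
  refine ⟨|c|, fun n => ?_⟩
  rw [dl_apply]
  split_ifs with h
  · have : (1 : ℝ) ≤ n := by exact_mod_cast Nat.one_le_iff_ne_zero.2 h.2
    have h2 : (1 : ℝ) ≤ (n : ℝ) ^ 3 := one_le_pow₀ this
    nlinarith [abs_nonneg c]
  · rw [abs_zero]; positivity

theorem Pb.add {f g : ArithmeticFunction ℝ} (hf : Pb f) (hg : Pb g) : Pb (f + g) := by
  obtain ⟨C₁, h1⟩ := hf
  obtain ⟨C₂, h2⟩ := hg
  refine ⟨C₁ + C₂, fun n => ?_⟩
  rw [ArithmeticFunction.add_apply]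
  calc |f n + g n| ≤ |f n| + |g n| := abs_add_le _ _
    _ ≤ C₁ * (n : ℝ) ^ 3 + C₂ * (n : ℝ) ^ 3 := add_le_add (h1 n) (h2 n)
    _ = _ := by ring

theorem PS_dl {N : ℕ} (hN : N ≠ 0) (c : ℝ) {x : ℝ} (hx : 0 ≤ x) :
    PS (dl N c) x = if (N : ℝ) ≤ x then c else 0 := by
  unfold PS
  simp only [dl_apply]
  split_ifs with h
  · rw [Finset.sum_eq_single N]
    · simp [hN]
    · intro n _ hn
      rw [if_neg (fun h1 => hn h1.1)]
    · intro h1
      exfalso
      apply h1
      rw [Finset.mem_range]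
      have := Nat.le_floor h
      omega
  · refine Finset.sum_eq_zero fun n hn => ?_
    rw [if_neg]
    rintro ⟨rfl, -⟩
    apply h
    have h1 : n ≤ ⌊x⌋₊ := by
      have := Finset.mem_range.1 hn
      omega
    exact (Nat.le_floor_iff hx).1 h1

theorem PS_add (f g : ArithmeticFunction ℝ) (x : ℝ) : PS (f + g) x = PS f x + PS g x := by
  unfold PS
  simp only [ArithmeticFunction.add_apply, Finset.sum_add_distrib]

theorem tr_add {f g : ArithmeticFunction ℝ} (hf : Pb f) (hg : Pb g) {K : ℝ → ℝ}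
    (hK : ∃ M : ℝ, ∀ t, 0 < t → |K t| ≤ M * Real.exp (-t)) {u : ℝ} (hu : 0 < u) :
    tr (f + g) K u = tr f K u + tr g K u := by
  unfold tr
  rw [← (summable_tr hf hK hu).tsum_add (summable_tr hg hK hu)]
  refine tsum_congr fun n => ?_
  rw [ArithmeticFunction.add_apply]
  ring

theorem tr_dl {b : ArithmeticFunction ℝ} (hb : Pb b) {K : ℝ → ℝ}
    (hK : ∃ M : ℝ, ∀ t, 0 < t → |K t| ≤ M * Real.exp (-t)) {u : ℝ} (hu : 0 < u) {N : ℕ} (hN : N ≠ 0)
    (c : ℝ) : tr (dl N c * b) K u = c * tr b K (N * u) := by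
  rw [tr_mul (Pb_dl N c) hb hK hu, tsum_eq_single N]
  · rw [dl_apply, if_pos ⟨rfl, hN⟩]
  · intro n hn
    rw [dl_apply, if_neg (fun h => hn h.1), zero_mul]

/-! ### measurability and integrability -/

theorem tr_bound {b : ArithmeticFunction ℝ} (hb : Pb b) {K : ℝ → ℝ}
    (hK : ∃ M : ℝ, ∀ t, 0 < t → |K t| ≤ M * Real.exp (-t)) {u : ℝ} (hu : 0 < u) :
    ∃ C : ℝ, 0 ≤ C ∧ ∀ x : ℝ, 1 ≤ x → |tr b K (x * u)| ≤ C * Real.exp (-(u / 2) * x) := by
  obtain ⟨C₂, h2⟩ := id hb
  obtain ⟨M, hM⟩ := id hK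
  have hC := nonneg_of_Pb h2
  have hs := Real.summable_pow_mul_exp_neg_nat_mul 3 (half_pos hu)
  refine ⟨C₂ * |M| * ∑' n : ℕ, ((n : ℝ) ^ 3 * Real.exp (-(u / 2) * n)),
    mul_nonneg (by positivity) (tsum_nonneg fun n => by positivity), fun x hx => ?_⟩
  have hx0 : 0 < x := by linarith
  have hterm : ∀ n : ℕ, ‖b n * K (n * (x * u))‖ ≤ (C₂ * |M| * Real.exp (-(u / 2) * x)) *
      ((n : ℝ) ^ 3 * Real.exp (-(u / 2) * n)) := by
    intro n
    rcases Nat.eq_zero_or_pos n with rfl | hn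
    · simp
    have hn' : (0 : ℝ) < n := by exact_mod_cast hn
    have hn1 : (1 : ℝ) ≤ n := by exact_mod_cast hn
    rw [Real.norm_eq_abs, abs_mul]
    have h3 : Real.exp (-(n * (x * u))) ≤ Real.exp (-(u / 2) * x) * Real.exp (-(u / 2) * n) := by
      rw [← Real.exp_add]
      apply Real.exp_le_exp.2
      nlinarith [mul_nonneg (mul_nonneg (sub_nonneg.2 hx) (sub_nonneg.2 hn1)) hu.le,
        mul_nonneg (sub_nonneg.2 hx) hu.le, mul_nonneg (sub_nonneg.2 hn1) hu.le]
    calc |b n| * |K (n * (x * u))| ≤ (C₂ * (n : ℝ) ^ 3) * (|M| * (Real.exp (-(u / 2) * x) *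
          Real.exp (-(u / 2) * n))) := by
          gcongr
          · exact h2 n
          · exact (hM _ (by positivity)).trans (by gcongr; exact le_abs_self M)
      _ = _ := by ring
  have hs2 := hs.mul_left (C₂ * |M| * Real.exp (-(u / 2) * x))
  unfold tr
  rw [← Real.norm_eq_abs]
  refine (tsum_of_norm_bounded hs2.hasSum hterm).trans (le_of_eq ?_)
  rw [tsum_mul_left]
  ring

theorem aesm_tr {b : ArithmeticFunction ℝ} (hb : Pb b) {K : ℝ → ℝ} (hKm : Measurable K)
    (hK : ∃ M : ℝ, ∀ t, 0 < t → |K t| ≤ M * Real.exp (-t)) {u : ℝ} (hu : 0 < u) :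
    AEStronglyMeasurable (fun x => tr b K (x * u)) (volume.restrict (Ioi 1)) := by
  refine aestronglyMeasurable_of_tendsto_ae (u := atTop)
    (f := fun N x => ∑ n ∈ Finset.range N, b n * K (n * (x * u))) (fun N => ?_) ?_
  · have : Measurable fun x : ℝ => ∑ n ∈ Finset.range N, b n * K (n * (x * u)) := by
      refine Finset.measurable_sum _ fun n _ => ?_
      exact (hKm.comp (by fun_prop)).const_mul _
    exact this.aestronglyMeasurable
  · refine (ae_restrict_iff' measurableSet_Ioi).2 (Eventually.of_forall fun x hx => ?_)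
    have hx0 : (0 : ℝ) < x := lt_trans zero_lt_one hx
    exact (summable_tr hb hK (mul_pos hx0 hu)).hasSum.tendsto_sum_nat

theorem measurable_PS (f : ArithmeticFunction ℝ) : Measurable (PS f) := by
  have h1 : Measurable fun n : ℕ => ∑ i ∈ Finset.range (n + 1), f i := measurable_from_nat
  exact h1.comp Nat.measurable_floor

theorem int_PS {κ b : ArithmeticFunction ℝ} (hb : Pb b) {K : ℝ → ℝ} (hKm : Measurable K)
    (hK : ∃ M : ℝ, ∀ t, 0 < t → |K t| ≤ M * Real.exp (-t)) {u : ℝ} (hu : 0 < u) {M : ℝ}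
    (hM : ∀ x, 1 ≤ x → |PS κ x| ≤ M) :
    Integrable (fun x => PS κ x / x * tr b K (x * u)) (volume.restrict (Ioi 1)) := by
  obtain ⟨C, hC, hCb⟩ := tr_bound hb hK hu
  have hexp : IntegrableOn (fun x : ℝ => Real.exp (-(u / 2) * x)) (Ioi 1) :=
    exp_neg_integrableOn_Ioi 1 (half_pos hu)
  refine Integrable.mono' (hexp.const_mul (M * C)) ?_ ?_
  · exact (((measurable_PS κ).div measurable_id).aestronglyMeasurable).mul (aesm_tr hb hKm hK hu)
  · refine (ae_restrict_iff' measurableSet_Ioi).2 (Eventually.of_forall fun x hx => ?_)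
    have hx1 : (1 : ℝ) < x := hx
    have h1 := hM x hx1.le
    have h2 := hCb x hx1.le
    have hM0 : 0 ≤ M := (abs_nonneg _).trans h1
    rw [norm_mul, norm_div, Real.norm_eq_abs, Real.norm_eq_abs, Real.norm_eq_abs,
      abs_of_pos (by linarith : (0 : ℝ) < x)]
    calc |PS κ x| / x * |tr b K (x * u)| ≤ M / 1 * (C * Real.exp (-(u / 2) * x)) := by gcongr
      _ = _ := by ring

theorem integral_rpow_tail {η a : ℝ} (hη : 0 < η) (ha : 0 < a) :
    IntegrableOn (fun x : ℝ => x ^ (-η - 1)) (Ioi a) ∧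
      ∫ x in Ioi a, x ^ (-η - 1) = a ^ (-η) / η := by
  have h1 : -η - 1 < -1 := by linarith
  refine ⟨integrableOn_Ioi_rpow_of_lt h1 ha, ?_⟩
  rw [integral_Ioi_rpow_of_lt h1 ha]
  rw [show -η - 1 + 1 = -η by ring]
  rw [div_neg, neg_div, neg_neg]

end P004E.KT
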