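import Vale.Agent.P004E.H253.K7

/-!
# P004E/H253: `StTS`, `StST`
-/

open Real MeasureTheory Set Filter
open scoped ENNReal Topology

namespace P004E.KT

open P004G

theorem log_ge_one {L : ℝ} (hL : 1 ≤ L) : 1 ≤ Real.log (3 + L) := by
  have h2 : Real.log (Real.exp 1) ≤ Real.log (3 + L) := by
    apply Real.log_le_log (Real.exp_pos 1)
    have := Real.exp_one_lt_d9
    linarith
  rwa [Real.log_exp] at h2

theorem kap_bd {k : ℝ → ℝ} (hk : Kn 0 k) :
    ∃ M : ℝ, ∀ t, 0 < t → |kap k t| ≤ M * Real.exp (-t) :=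
  ⟨1, fun t ht => by rw [one_mul]; exact abs_kap_le hk ht⟩

variable [Crv]

/-- the data for a given `L` -/
theorem data (hN : StN1) (hH : Hlam) : ∃ (C δ : ℝ), 1 ≤ C ∧ 0 < δ ∧ δ ≤ 1 / 100 ∧
    ∀ (L : ℝ), 1 ≤ L → ∀ (h : ℤ) (q : ℕ), h ≠ 0 → q ≠ 0 → |(h : ℝ)| * q ≤ Real.exp L →
      ∃ D : ℝ, ∀ x : ℝ, 0 < x → |PS (κv h q) x - D| ≤
        (C * Real.log (3 + L) ^ 96) * x ^ (-(δ / Real.log (3 + L))) := by
  obtain ⟨C, δ, hC, hδ, hδ1, hb⟩ := PS_κ_bound hN hH
  refine ⟨C * (Real.exp 160 * 2 ^ 96), δ, ?_, hδ, hδ1, fun L hL h q hh hq hlog => ?_⟩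
  · have : 1 ≤ Real.exp 160 := Real.one_le_exp (by norm_num)
    nlinarith
  have hl := log_ge_one hL
  have hη0 : 0 ≤ δ / Real.log (3 + L) := by positivity
  have hη1 : δ / Real.log (3 + L) ≤ δ := div_le_self hδ.le hl
  obtain ⟨D, hD⟩ := hb h q (δ / Real.log (3 + L)) hh hq hη0 hη1
  refine ⟨D, fun x hx => (hD x hx).trans ?_⟩
  have hM0 : h.natAbs * q ≠ 0 := mul_ne_zero (Int.natAbs_ne_zero.2 hh) hq
  have hML : Real.log ((h.natAbs * q : ℕ) : ℝ) ≤ L := by
    rw [← Real.log_exp L]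
    apply Real.log_le_log
    · exact_mod_cast Nat.pos_of_ne_zero hM0
    · push_cast
      rwa [Nat.cast_natAbs, Int.cast_abs]
  have h2 := exp_Vs_le hL hM0 hML hη0 (by
    rw [mul_assoc, div_mul_cancel₀ _ (by linarith : Real.log (3 + L) ≠ 0)]
    linarith)
  have h3 : (0 : ℝ) < x ^ (-(δ / Real.log (3 + L))) := Real.rpow_pos_of_pos hx _
  calc C * Real.exp (4 * Vs (δ / Real.log (3 + L)) (h.natAbs * q)) *
        x ^ (-(δ / Real.log (3 + L)))
      ≤ C * (Real.exp 160 * (2 * Real.log (3 + L)) ^ 96) * x ^ (-(δ / Real.log (3 + L))) := by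
        gcongr
    _ = _ := by rw [_root_.mul_pow]; ring

omit [Crv] in
theorem PS_one_eq {f : ArithmeticFunction ℝ} (hf : f 1 = 1) : PS f 1 = 1 := by
  unfold PS
  rw [Nat.floor_one, Finset.sum_range_succ, Finset.sum_range_succ, Finset.sum_range_zero, hf]
  simp

/-- the identity used for `StTS` -/
theorem ident_TS (hH : Hlam) (h : ℤ) (q : ℕ) (D : ℝ) {k : ℝ → ℝ} (hk : Kn 1 k) {u : ℝ}
    (hu : 0 < u) : tr (av h q) (kap k) u = D * tr (bv h q) (kap k) u +
      ∫ x in Ioi (1 : ℝ), PS (κv h q + dl 1 (-D)) x / x * tr (bv h q) (kap (deriv k)) (x * u) := by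
  have hKK := KK_kap hk
  have hκ' : Pb (κv h q + dl 1 (-D)) := (Pb_κv hH h q).add (Pb_dl 1 _)
  have h1 := tr_abel hκ' (Pb_bv h q) hKK hu
  have h2 : (κv h q + dl 1 (-D)) * bv h q = av h q + dl 1 (-D) * bv h q := by
    rw [add_mul, κ_mul_b]
  have hdb : Pb (dl 1 (-D) * bv h q) := by
    refine Pb.mul ⟨|D|, fun n => ?_⟩ ⟨1, bv_lin h q⟩
    rw [dl_apply]
    split_ifs with h3
    · rw [h3.1, abs_neg]
      simp
    · rw [abs_zero]; positivity
  rw [h2, tr_add (Pb_av h q) hdb hKK.bd hu, tr_dl (Pb_bv h q) hKK.bd hu one_ne_zero] at h1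
  have e1 : ∫ x in Ioi (1 : ℝ), PS (κv h q + dl 1 (-D)) x / x *
      tr (bv h q) (kap (deriv k)) (x * u) = ∫ x in Ioi (1 : ℝ), PS (κv h q + dl 1 (-D)) x *
      tr (bv h q) (kap (deriv k)) (x * u) / x := by
    refine setIntegral_congr_fun measurableSet_Ioi fun x hx => ?_
    ring
  rw [e1, ← h1, Nat.cast_one, one_mul]
  ring

/-- **Module S2a** -/
theorem pfTS (hN : StN1) (hH : StHlam) : StTS := by
  classical
  intro ε hε
  obtain ⟨C₀, δ, hC₀, hδ, hδ1, hdata⟩ := data hN hH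
  obtain ⟨C₁, hC₁, hlogp⟩ := log_pow_le 194 hε
  refine ⟨16 * (3 * C₀ / δ) ^ 2 * C₁, ?_, ?_⟩
  · have h1 : 1 ≤ 3 * C₀ / δ := by
      rw [le_div_iff₀ hδ]
      linarith
    have h2 : 1 ≤ (3 * C₀ / δ) ^ 2 := one_le_pow₀ h1
    nlinarith
  intro L B u n S w hL hu hB hS hSw k hk
  have hl := log_ge_one hL
  set η := δ / Real.log (3 + L) with hη
  have hη0 : 0 < η := by positivity
  set M₁ := C₀ * Real.log (3 + L) ^ 96 with hM₁
  have hM₁1 : 1 ≤ M₁ := by
    have : 1 ≤ Real.log (3 + L) ^ 96 := one_le_pow₀ hl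
    nlinarith
  have hex : ∀ h : ℤ, ∃ D : ℝ, h ∈ S → ∀ x : ℝ, 0 < x → |PS (κv h 1) x - D| ≤ M₁ * x ^ (-η) := by
    intro h
    by_cases hh : h ∈ S
    · obtain ⟨D, hD⟩ := hdata L hL h 1 (hS h hh).1 one_ne_zero (by
        rw [Nat.cast_one, mul_one]
        exact (hS h hh).2.1)
      exact ⟨D, fun _ => hD⟩
    · exact ⟨0, fun h1 => absurd h1 hh⟩
  choose D hD using hex
  have hk1 : Kn 1 k := kn_mono hk (by omega)
  have hk0 : Kn 0 k := kn_mono hk (by omega)
  have hkn : Kn n k := kn_mono hk (by omega)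
  have hk' : Kn n (deriv k) := kn_deriv hk
  have hk'0 : Kn 0 (deriv k) := kn_mono hk' (by omega)
  have hPS : ∀ h ∈ S, ∀ x : ℝ, 1 ≤ x → |PS (κv h 1 + dl 1 (-D h)) x| ≤ M₁ * x ^ (-η) := by
    intro h hh x hx
    rw [PS_add, PS_dl one_ne_zero _ (by linarith), Nat.cast_one, if_pos hx, ← sub_eq_add_neg]
    exact hD h hh x (by linarith)
  have hPS1 : ∀ h ∈ S, ∀ x : ℝ, 1 ≤ x → |PS (κv h 1 + dl 1 (-D h)) x| ≤ M₁ := by
    intro h hh x hx
    refine (hPS h hh x hx).trans ?_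
    have : x ^ (-η) ≤ 1 := Real.rpow_le_one_of_one_le_of_nonpos hx (by linarith)
    nlinarith
  obtain ⟨hGi, hGv⟩ := integral_rpow_tail hη0 zero_lt_one
  have hms := ms (S := S) (w := w) (fun h hh => (hS h hh).2.2)
    (T := fun h => tr (av h 1) (kap k) u) (I := {1}) (e := fun h _ => D h)
    (A := fun h _ => tr (bv h 1) (kap k) u) (E := fun _ => 1 + M₁)
    (f := fun h x => tr (bv h 1) (kap (deriv k)) (x * u))
    (g := fun h x => PS (κv h 1 + dl 1 (-D h)) x / x)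
    (G := fun x => M₁ * x ^ (-η - 1)) (μ := volume.restrict (Ioi 1)) hB
    (fun r _ => by positivity)
    (fun h hh => by
      rw [Finset.sum_singleton]
      exact ident_TS hH h 1 (D h) hk1 hu)
    (fun h hh r _ => by
      have h1 := hD h hh 1 one_pos
      rw [PS_one_eq (κ_mult h 1).map_one, Real.one_rpow, mul_one] at h1
      have h2 := abs_sub_abs_le_abs_sub (D h) 1
      rw [abs_one, abs_sub_comm] at h2
      linarith)
    (fun r _ => by
      have h1 := hSw u le_rfl k hkn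
      refine le_trans (le_of_eq ?_) h1
      refine Finset.sum_congr rfl fun h _ => ?_
      rw [Sw_eq hk0 hu])
    ((ae_restrict_iff' measurableSet_Ioi).2 (Eventually.of_forall fun x hx h hh => by
      have hx1 : (1 : ℝ) < x := hx
      have hx0 : (0 : ℝ) < x := by linarith
      rw [abs_div, abs_of_pos hx0, div_le_iff₀ hx0]
      refine (hPS h hh x hx1.le).trans (le_of_eq ?_)
      have h5 : x ^ (-η) = x ^ (-η - 1) * x := by
        rw [Real.rpow_sub_one hx0.ne']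
        field_simp
      rw [h5]
      ring))
    (hGi.const_mul M₁)
    ((ae_restrict_iff' measurableSet_Ioi).2 (Eventually.of_forall fun x hx => by
      have hx1 : (1 : ℝ) < x := hx
      have hx0 : (0 : ℝ) < x := by linarith
      refine Or.inr ⟨by positivity, ?_⟩
      have h1 := hSw (x * u) (by nlinarith) (deriv k) hk'
      refine le_trans (le_of_eq ?_) h1
      refine Finset.sum_congr rfl fun h _ => ?_
      rw [Sw_eq hk'0 (by positivity)]))
    (fun h hh => int_PS (Pb_bv h 1) (measurable_kap hk'0) (kap_bd hk'0) hu (hPS1 h hh))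
  rw [Finset.sum_singleton, integral_const_mul, hGv, Real.one_rpow] at hms
  have hfac : 1 + M₁ + M₁ * (1 / η) ≤ (3 * C₀ / δ) * Real.log (3 + L) ^ 97 := by
    have h1 : M₁ * (1 / η) = (C₀ / δ) * Real.log (3 + L) ^ 97 := by
      rw [hM₁, hη]
      field_simp
    have h2 : M₁ ≤ (C₀ / δ) * Real.log (3 + L) ^ 97 := by
      rw [← h1]
      have h3 : 1 ≤ 1 / η := by
        rw [le_div_iff₀ hη0, one_mul]
        have : η ≤ δ := div_le_self hδ.le hl
        linarith
      nlinarith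
    have h4 : (3 * C₀ / δ) * Real.log (3 + L) ^ 97 = 3 * ((C₀ / δ) * Real.log (3 + L) ^ 97) := by
      ring
    rw [h1, h4]
    linarith
  calc ∑ h ∈ S, w h * Tw h u k ^ 2 = 16 * ∑ h ∈ S, w h * tr (av h 1) (kap k) u ^ 2 := by
        rw [Finset.mul_sum]
        refine Finset.sum_congr rfl fun h _ => ?_
        rw [Tw_eq hk0 hu]
        ring
    _ ≤ 16 * ((1 + M₁ + M₁ * (1 / η)) ^ 2 * B) := by gcongr
    _ ≤ 16 * (((3 * C₀ / δ) * Real.log (3 + L) ^ 97) ^ 2 * B) := by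
        have : 0 ≤ 1 + M₁ + M₁ * (1 / η) := by positivity
        gcongr
    _ = 16 * (3 * C₀ / δ) ^ 2 * Real.log (3 + L) ^ 194 * B := by ring
    _ ≤ 16 * (3 * C₀ / δ) ^ 2 * (C₁ * L ^ ε) * B := by
        gcongr
        exact hlogp L hL
    _ = _ := by ring

/-! ### `StST` -/

/-- the truncation of `e` -/
noncomputable def er (h : ℤ) (q N : ℕ) : ArithmeticFunction ℝ :=
  ⟨fun n => if n < N then ev h q n else 0, by simp⟩

theorem er_apply (h : ℤ) (q N n : ℕ) : er h q N n = if n < N then ev h q n else 0 := rfl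

theorem abs_er_le (h : ℤ) (q N n : ℕ) : |er h q N n| ≤ Em n := by
  rw [er_apply]
  split_ifs
  · exact abs_ev_le h q n
  · rw [abs_zero]; exact Em_nonneg n

theorem er_lin (h : ℤ) (q N : ℕ) : ∃ C : ℝ, ∀ n : ℕ, |er h q N n| ≤ C * n := by
  refine ⟨∑ n ∈ Finset.range N, |ev h q n|, fun n => ?_⟩
  rw [er_apply]
  split_ifs with h1
  · rcases Nat.eq_zero_or_pos n with rfl | hn
    · simp
    have h2 : |ev h q n| ≤ ∑ n ∈ Finset.range N, |ev h q n| :=
      Finset.single_le_sum (f := fun n => |ev h q n|) (fun i _ => abs_nonneg _)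
        (Finset.mem_range.2 h1)
    have h3 : (1 : ℝ) ≤ n := by exact_mod_cast hn
    have h4 : 0 ≤ ∑ n ∈ Finset.range N, |ev h q n| := Finset.sum_nonneg fun i _ => abs_nonneg _
    nlinarith
  · rw [abs_zero]
    have h4 : 0 ≤ ∑ n ∈ Finset.range N, |ev h q n| := Finset.sum_nonneg fun i _ => abs_nonneg _
    positivity

theorem κ_sq (hH : Hlam) (h : ℤ) (q n : ℕ) : |κv h q n| ≤ 1 * (n : ℝ) ^ 2 := by
  rw [κv, ArithmeticFunction.mul_apply]
  refine (Finset.abs_sum_le_sum_abs _ _).trans ?_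
  calc ∑ p ∈ n.divisorsAntidiagonal, |av h q p.1 * βv h q p.2|
      ≤ ∑ p ∈ n.divisorsAntidiagonal, (n : ℝ) := by
        refine Finset.sum_le_sum fun p hp => ?_
        have h3 := (Nat.mem_divisorsAntidiagonal.1 hp).1
        rw [abs_mul, ← h3]
        push_cast
        calc |av h q p.1| * |βv h q p.2| ≤ (1 * (p.1 : ℝ)) * (1 * (p.2 : ℝ)) := by
              gcongr
              · exact av_lin h q _
              · exact βv_lin hH h q _
          _ = _ := by ring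
    _ = (n.divisors.card : ℝ) * (n : ℝ) := by
        rw [Nat.sum_divisorsAntidiagonal (fun _ _ => (n : ℝ)), Finset.sum_const, nsmul_eq_mul]
    _ ≤ (n : ℝ) * (n : ℝ) := by
        gcongr
        exact_mod_cast Nat.card_divisors_le_self n
    _ = 1 * (n : ℝ) ^ 2 := by ring

/-- the convolution `c = e_N * κ` -/
noncomputable def cc (h : ℤ) (q N : ℕ) : ArithmeticFunction ℝ := er h q N * κv h q

theorem Pb_cc (hH : Hlam) (h : ℤ) (q N : ℕ) : Pb (cc h q N) := by
  obtain ⟨C, hC⟩ := er_lin h q N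
  have hC0 : 0 ≤ C := by
    have := (abs_nonneg _).trans (hC 1)
    simpa using this
  refine ⟨C, fun n => ?_⟩
  rw [cc, ArithmeticFunction.mul_apply]
  refine (Finset.abs_sum_le_sum_abs _ _).trans ?_
  rcases Nat.eq_zero_or_pos n with rfl | hn
  · simp
  calc ∑ p ∈ n.divisorsAntidiagonal, |er h q N p.1 * κv h q p.2|
      ≤ ∑ p ∈ n.divisorsAntidiagonal, C * (n : ℝ) ^ 2 := by
        refine Finset.sum_le_sum fun p hp => ?_
        have h3 := (Nat.mem_divisorsAntidiagonal.1 hp).1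
        have h5 : p.1 ≠ 0 := by
          rintro h6
          rw [h6, zero_mul] at h3
          omega
        have h4 : (1 : ℝ) ≤ p.1 := by exact_mod_cast Nat.one_le_iff_ne_zero.2 h5
        rw [abs_mul, ← h3]
        push_cast
        calc |er h q N p.1| * |κv h q p.2| ≤ (C * (p.1 : ℝ)) * (1 * (p.2 : ℝ) ^ 2) := by
              gcongr
              · exact hC _
              · exact κ_sq hH h q _
          _ = C * ((p.1 : ℝ) ^ 1 * (p.2 : ℝ) ^ 2) := by ring
          _ ≤ C * ((p.1 : ℝ) ^ 2 * (p.2 : ℝ) ^ 2) := by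
              gcongr
              · norm_num
          _ = _ := by ring
    _ = (n.divisors.card : ℝ) * (C * (n : ℝ) ^ 2) := by
        rw [Nat.sum_divisorsAntidiagonal (fun _ _ => C * (n : ℝ) ^ 2), Finset.sum_const,
          nsmul_eq_mul]
    _ ≤ (n : ℝ) * (C * (n : ℝ) ^ 2) := by
        gcongr
        exact_mod_cast Nat.card_divisors_le_self n
    _ = C * (n : ℝ) ^ 3 := by ring

/-- below `N` the convolution is the unit -/
theorem PS_cc_one {h : ℤ} {q N : ℕ} {x : ℝ} (hx : 1 ≤ x) (hxN : x < N) : PS (cc h q N) x = 1 := by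
  have h1 : PS (cc h q N) x = PS (1 : ArithmeticFunction ℝ) x := by
    unfold PS
    refine Finset.sum_congr rfl fun n hn => ?_
    have h2 : n < N := by
      have h3 := Finset.mem_range.1 hn
      have h4 : (n : ℝ) ≤ x := by
        have : n ≤ ⌊x⌋₊ := by omega
        exact (Nat.le_floor_iff (by linarith)).1 this
      exact_mod_cast lt_of_le_of_lt h4 hxN
    rw [← e_mul_κ h q, cc, ArithmeticFunction.mul_apply, ArithmeticFunction.mul_apply]
    refine Finset.sum_congr rfl fun p hp => ?_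
    have h3 := Nat.mem_divisorsAntidiagonal.1 hp
    have h4 : p.1 ≤ n := Nat.le_of_dvd (Nat.pos_of_ne_zero h3.2) ⟨p.2, h3.1.symm⟩
    rw [er_apply, if_pos (lt_of_le_of_lt h4 h2)]
  rw [h1]
  unfold PS
  rw [Finset.sum_eq_single 1]
  · simp
  · intro n _ hn
    exact ArithmeticFunction.one_apply_ne hn
  · intro h2
    exfalso
    apply h2
    rw [Finset.mem_range]
    have : 1 ≤ ⌊x⌋₊ := Nat.le_floor (by exact_mod_cast hx)
    omega

/-- the tails of the convolution -/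
theorem PS_cc_bound {h : ℤ} {q N : ℕ} {D M₁ η : ℝ} (hM : 0 ≤ M₁) (hη : 0 ≤ η)
    (hD : ∀ x : ℝ, 0 < x → |PS (κv h q) x - D| ≤ M₁ * x ^ (-η)) {x : ℝ} (hx : 0 < x) (hN : 0 < N) :
    |PS (cc h q N) x - (∑ n ∈ Finset.range N, ev h q n) * D| ≤
      M₁ * PS Em N * (x / N) ^ (-η) := by
  classical
  set m := max ⌊x⌋₊ N with hm
  have hN' : (0 : ℝ) < N := by exact_mod_cast hN
  have e1 : PS (cc h q N) x = ∑ n ∈ Finset.Ioc 0 m, er h q N n * PS (κv h q) (x / n) := by
    rw [cc, PS_mul]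
    refine Finset.sum_subset (fun n hn => ?_) fun n hn hn2 => ?_
    · rw [Finset.mem_Ioc] at hn ⊢
      exact ⟨hn.1, hn.2.trans (le_max_left _ _)⟩
    · rw [Finset.mem_Ioc] at hn hn2
      have hn' : (0 : ℝ) < n := by exact_mod_cast hn.1
      have h3 : PS (κv h q) (x / n) = 0 := by
        unfold PS
        rw [Nat.floor_eq_zero.2]
        · simp
        · rw [div_lt_one hn']
          exact (Nat.floor_lt hx.le).1 (by omega)
      rw [h3, mul_zero]
  have e2 : ∑ n ∈ Finset.range N, ev h q n = ∑ n ∈ Finset.Ioc 0 m, er h q N n := by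
    have h3 : ∑ n ∈ Finset.range N, ev h q n = ∑ n ∈ Finset.range N, er h q N n :=
      Finset.sum_congr rfl fun n hn => by rw [er_apply, if_pos (Finset.mem_range.1 hn)]
    have h4 : ∑ n ∈ Finset.range N, er h q N n = ∑ n ∈ Finset.range (m + 1), er h q N n := by
      refine Finset.sum_subset (Finset.range_mono ?_) fun n _ hn => ?_
      · have := le_max_right ⌊x⌋₊ N
        omega
      · rw [er_apply, if_neg (fun h5 => hn (Finset.mem_range.2 h5))]
    rw [h3, h4]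
    symm
    refine Finset.sum_subset (fun n hn => ?_) fun n hn h5 => ?_
    · rw [Finset.mem_Ioc] at hn
      rw [Finset.mem_range]
      omega
    · rw [Finset.mem_Ioc] at h5
      rw [Finset.mem_range] at hn
      have : n = 0 := by omega
      rw [this]
      simp
  rw [e1, e2, Finset.sum_mul, ← Finset.sum_sub_distrib]
  refine (Finset.abs_sum_le_sum_abs _ _).trans ?_
  have h6 : ∀ n ∈ Finset.Ioc 0 m, |er h q N n * PS (κv h q) (x / n) - er h q N n * D| ≤
      (if n < N then Em n else 0) * (M₁ * (x / N) ^ (-η)) := by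
    intro n hn
    rw [Finset.mem_Ioc] at hn
    have hn' : (0 : ℝ) < n := by exact_mod_cast hn.1
    rw [← mul_sub, abs_mul]
    split_ifs with h7
    · have h8 : (n : ℝ) ≤ N := by exact_mod_cast h7.le
      have h9 : (x / n) ^ (-η) ≤ (x / N) ^ (-η) :=
        Real.rpow_le_rpow_of_nonpos (by positivity) (by gcongr) (by linarith)
      calc |er h q N n| * |PS (κv h q) (x / n) - D| ≤ Em n * (M₁ * (x / n) ^ (-η)) := by
            have := Em_nonneg n
            gcongr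
            · exact abs_er_le h q N n
            · exact hD _ (by positivity)
        _ ≤ Em n * (M₁ * (x / N) ^ (-η)) := by
            have := Em_nonneg n
            gcongr
    · rw [er_apply, if_neg h7, abs_zero, zero_mul, zero_mul]
  refine (Finset.sum_le_sum h6).trans ?_
  rw [← Finset.sum_mul]
  have h10 : ∑ n ∈ Finset.Ioc 0 m, (if n < N then Em n else 0) ≤ PS Em N := by
    rw [← Finset.sum_filter]
    unfold PS
    rw [Nat.floor_natCast]
    refine Finset.sum_le_sum_of_subset_of_nonneg (fun n hn => ?_) fun n _ _ => Em_nonneg n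
    rw [Finset.mem_filter] at hn
    rw [Finset.mem_range]
    omega
  calc (∑ n ∈ Finset.Ioc 0 m, (if n < N then Em n else 0)) * (M₁ * (x / N) ^ (-η))
      ≤ PS Em N * (M₁ * (x / N) ^ (-η)) := by
        gcongr
    _ = _ := by ring

/-- the identity used for `StST` -/
theorem ident_ST (hH : Hlam) (h : ℤ) (q : ℕ) {N : ℕ} (hN : N ≠ 0) (D : ℝ) {k : ℝ → ℝ}
    (hk : Kn 1 k) {u : ℝ} (hu : 0 < u) : tr (bv h q) (kap k) u =
      ∑ r ∈ Finset.range N, ev h q r * tr (av h q) (kap k) (r * u) +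
      (1 - D) * tr (bv h q) (kap k) (N * u) +
      ∫ x in Ioi (1 : ℝ), -(PS (cc h q N + (dl 1 (-1) + dl N (1 - D))) x / x) *
        tr (bv h q) (kap (deriv k)) (x * u) := by
  have hKK := KK_kap hk
  have hdl : ∀ (m : ℕ) (c : ℝ), Pb (dl m c * bv h q) := by
    intro m c
    refine Pb.mul ⟨|c|, fun n => ?_⟩ ⟨1, bv_lin h q⟩
    rw [dl_apply]
    split_ifs with h3
    · have : (1 : ℝ) ≤ n := by exact_mod_cast Nat.one_le_iff_ne_zero.2 h3.2
      nlinarith [abs_nonneg c]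
    · rw [abs_zero]; positivity
  have hc' : Pb (cc h q N + (dl 1 (-1) + dl N (1 - D))) :=
    (Pb_cc hH h q N).add ((Pb_dl 1 _).add (Pb_dl N _))
  have h1 := tr_abel hc' (Pb_bv h q) hKK hu
  have her : Pb (er h q N * av h q) := Pb.mul (er_lin h q N) ⟨1, av_lin h q⟩
  have h2 : (cc h q N + (dl 1 (-1) + dl N (1 - D))) * bv h q =
      er h q N * av h q + (dl 1 (-1) * bv h q + dl N (1 - D) * bv h q) := by
    rw [add_mul, add_mul, cc, mul_assoc, κ_mul_b]
  rw [h2, tr_add her ((hdl 1 _).add (hdl N _)) hKK.bd hu, tr_add (hdl 1 _) (hdl N _) hKK.bd hu,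
    tr_dl (Pb_bv h q) hKK.bd hu one_ne_zero, tr_dl (Pb_bv h q) hKK.bd hu hN,
    tr_mul (Pb.of_lin (er_lin h q N)) (Pb_av h q) hKK.bd hu] at h1
  have e0 : ∑' r : ℕ, er h q N r * tr (av h q) (kap k) (r * u) =
      ∑ r ∈ Finset.range N, ev h q r * tr (av h q) (kap k) (r * u) := by
    rw [tsum_eq_sum (s := Finset.range N)]
    · refine Finset.sum_congr rfl fun r hr => ?_
      rw [er_apply, if_pos (Finset.mem_range.1 hr)]
    · intro r hr
      rw [er_apply, if_neg (fun h3 => hr (Finset.mem_range.2 h3)), zero_mul]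
  have e1 : ∫ x in Ioi (1 : ℝ), -(PS (cc h q N + (dl 1 (-1) + dl N (1 - D))) x / x) *
      tr (bv h q) (kap (deriv k)) (x * u) =
      -∫ x in Ioi (1 : ℝ), PS (cc h q N + (dl 1 (-1) + dl N (1 - D))) x *
      tr (bv h q) (kap (deriv k)) (x * u) / x := by
    rw [← integral_neg]
    refine setIntegral_congr_fun measurableSet_Ioi fun x hx => ?_
    ring
  rw [e1, ← h1, e0, Nat.cast_one, one_mul]
  ring

omit [Crv] in
theorem num_fin {a Λ Es X Y C₁ C₂ B F : ℝ} (ha : 0 ≤ a) (hΛ : 0 ≤ Λ) (hEs : 0 ≤ Es)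
    (hB : 0 ≤ B) (h1 : F ≤ a * Λ ^ 97 * Es) (h0 : 0 ≤ F)
    (h2 : Es ≤ C₂ * (4 * X) ^ 32) (h3 : Λ ^ 194 ≤ C₁ * Y) (h4 : X ^ 64 ≤ Y) (hY : 0 ≤ Y)
    (hC₁ : 0 ≤ C₁) :
    F ^ 2 * B ≤ a ^ 2 * C₁ * (C₂ * 4 ^ 32) ^ 2 * (Y * Y) * B := by
  calc F ^ 2 * B ≤ (a * Λ ^ 97 * Es) ^ 2 * B := by gcongr
    _ ≤ (a * Λ ^ 97 * (C₂ * (4 * X) ^ 32)) ^ 2 * B := by gcongr
    _ = a ^ 2 * Λ ^ 194 * (C₂ * 4 ^ 32) ^ 2 * X ^ 64 * B := by ring
    _ ≤ a ^ 2 * (C₁ * Y) * (C₂ * 4 ^ 32) ^ 2 * Y * B := by gcongr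
    _ = _ := by ring

/-- the corrected convolution vanishes below `N` -/
theorem PSlow {h : ℤ} {q N : ℕ} (hN : 2 ≤ N) (D : ℝ) {x : ℝ} (hx : 1 ≤ x) (hxN : x < N) :
    PS (cc h q N + (dl 1 (-1) + dl N (1 - D))) x = 0 := by
  rw [PS_add, PS_add, PS_dl one_ne_zero _ (by linarith), PS_dl (by omega) _ (by linarith),
    Nat.cast_one, if_pos hx, if_neg (not_le.2 hxN), PS_cc_one hx hxN]
  ring

theorem PShigh {h : ℤ} {q N : ℕ} (hN : 2 ≤ N) {D M : ℝ} {η : ℝ}
    (hb : ∀ x : ℝ, 0 < x → |PS (cc h q N) x - D| ≤ M * (x / N) ^ (-η)) {x : ℝ} (hx : (N : ℝ) ≤ x) :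
    |PS (cc h q N + (dl 1 (-1) + dl N (1 - D))) x| ≤ M * (x / N) ^ (-η) := by
  have hN2 : (2 : ℝ) ≤ N := by exact_mod_cast hN
  rw [PS_add, PS_add, PS_dl one_ne_zero _ (by linarith), PS_dl (by omega) _ (by linarith),
    Nat.cast_one, if_pos (by linarith : (1 : ℝ) ≤ x), if_pos hx]
  have h1 := hb x (by linarith)
  refine le_trans (le_of_eq ?_) h1
  congr 1
  ring

theorem one_sub_le {h : ℤ} {q N : ℕ} (hN : 2 ≤ N) {D M : ℝ} {η : ℝ} (hM : 0 ≤ M) (h0 : 0 ≤ η)
    (h1 : η ≤ 1) (hb : ∀ x : ℝ, 0 < x → |PS (cc h q N) x - D| ≤ M * (x / N) ^ (-η)) :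
    |1 - D| ≤ 2 * M := by
  have hN2 : (2 : ℝ) ≤ N := by exact_mod_cast hN
  have hN0 : (0 : ℝ) < N := by linarith
  have h2 := hb (N - 1) (by linarith)
  rw [PS_cc_one (by linarith) (by linarith)] at h2
  refine h2.trans ?_
  have h3 : (1 : ℝ) / 2 ≤ (N - 1) / N := by
    rw [div_le_div_iff₀ (by norm_num) hN0]
    linarith
  have h4 : (((N : ℝ) - 1) / N) ^ (-η) ≤ 2 := by
    calc (((N : ℝ) - 1) / N) ^ (-η) ≤ (1 / 2 : ℝ) ^ (-η) :=
          Real.rpow_le_rpow_of_nonpos (by norm_num) h3 (by linarith)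
      _ = 2 ^ η := by
          rw [one_div, Real.inv_rpow (by norm_num), Real.rpow_neg (by norm_num), inv_inv]
      _ ≤ 2 ^ (1 : ℝ) := Real.rpow_le_rpow_of_exponent_le (by norm_num) h1
      _ = 2 := by norm_num
  nlinarith

/-- the weight -/
noncomputable def GG (N : ℕ) (M η : ℝ) : ℝ → ℝ :=
  (Ici (N : ℝ)).indicator (fun x => M * (N : ℝ) ^ η * x ^ (-η - 1))

omit [Crv] in
theorem GG_int {N : ℕ} (hN : 2 ≤ N) (M : ℝ) {η : ℝ} (hη : 0 < η) :
    Integrable (GG N M η) (volume.restrict (Ioi 1)) ∧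
      ∫ x, GG N M η x ∂(volume.restrict (Ioi 1)) = M / η := by
  have hN2 : (2 : ℝ) ≤ N := by exact_mod_cast hN
  have hN0 : (0 : ℝ) < N := by linarith
  obtain ⟨hGi, hGv⟩ := integral_rpow_tail hη hN0
  have hGi' : IntegrableOn (fun x : ℝ => M * (N : ℝ) ^ η * x ^ (-η - 1)) (Ici (N : ℝ)) := by
    rw [integrableOn_Ici_iff_integrableOn_Ioi]
    exact hGi.const_mul _
  refine ⟨((integrable_indicator_iff measurableSet_Ici).2 hGi').restrict, ?_⟩
  unfold GG
  rw [setIntegral_indicator measurableSet_Ici]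
  have e1 : (Ioi (1 : ℝ) ∩ Ici (N : ℝ) : Set ℝ) = Ici (N : ℝ) := by
    ext x
    simp only [Set.mem_inter_iff, Set.mem_Ioi, Set.mem_Ici]
    constructor
    · exact fun h => h.2
    · exact fun h => ⟨by linarith, h⟩
  rw [e1, integral_Ici_eq_integral_Ioi, integral_const_mul, hGv]
  have e2 : (N : ℝ) ^ η * (N : ℝ) ^ (-η) = 1 := by
    rw [← Real.rpow_add hN0]
    simp
  calc M * (N : ℝ) ^ η * ((N : ℝ) ^ (-η) / η) =
        M * ((N : ℝ) ^ η * (N : ℝ) ^ (-η)) / η := by ring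
    _ = _ := by rw [e2, mul_one]

theorem g_le {h : ℤ} {q N : ℕ} (hN : 2 ≤ N) {D M : ℝ} {η : ℝ}
    (hb : ∀ x : ℝ, 0 < x → |PS (cc h q N) x - D| ≤ M * (x / N) ^ (-η)) {x : ℝ} (hx1 : 1 < x) :
    |-(PS (cc h q N + (dl 1 (-1) + dl N (1 - D))) x / x)| ≤ GG N M η x := by
  have hN2 : (2 : ℝ) ≤ N := by exact_mod_cast hN
  have hN0 : (0 : ℝ) < N := by linarith
  have hx0 : (0 : ℝ) < x := by linarith
  rw [abs_neg, abs_div, abs_of_pos hx0, div_le_iff₀ hx0]
  unfold GG
  rcases lt_or_ge x N with h1 | h1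
  · rw [PSlow hN D hx1.le h1, abs_zero, Set.indicator_of_notMem (by simpa using h1)]
    simp
  · refine (PShigh hN hb h1).trans (le_of_eq ?_)
    rw [Set.indicator_of_mem (by simpa using h1)]
    have h5 : x ^ (-η) = x ^ (-η - 1) * x := by
      rw [Real.rpow_sub_one hx0.ne']
      field_simp
    have h6 : (x / N) ^ (-η) = (N : ℝ) ^ η * x ^ (-η) := by
      rw [Real.div_rpow hx0.le hN0.le, Real.rpow_neg hN0.le]
      field_simp
    rw [h6, h5]
    ring

theorem PS_bdd {h : ℤ} {q N : ℕ} (hN : 2 ≤ N) {D M : ℝ} {η : ℝ} (hM : 0 ≤ M) (h0 : 0 ≤ η)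
    (hb : ∀ x : ℝ, 0 < x → |PS (cc h q N) x - D| ≤ M * (x / N) ^ (-η)) {x : ℝ} (hx : 1 ≤ x) :
    |PS (cc h q N + (dl 1 (-1) + dl N (1 - D))) x| ≤ M := by
  have hN2 : (2 : ℝ) ≤ N := by exact_mod_cast hN
  have hN0 : (0 : ℝ) < N := by linarith
  rcases lt_or_ge x N with h1 | h1
  · rw [PSlow hN D hx h1, abs_zero]
    exact hM
  · refine (PShigh hN hb h1).trans ?_
    have h2 : (x / N) ^ (-η) ≤ 1 :=
      Real.rpow_le_one_of_one_le_of_nonpos (by rwa [le_div_iff₀ hN0, one_mul]) (by linarith)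
    nlinarith

/-- the finite part of the identity, over `1 ≤ r ≤ N` -/
theorem ident_ST' (hH : Hlam) (h : ℤ) (q : ℕ) {N : ℕ} (hN : 2 ≤ N) (D : ℝ) {k : ℝ → ℝ}
    (hk : Kn 1 k) {u : ℝ} (hu : 0 < u) : tr (bv h q) (kap k) u =
      ∑ r ∈ Finset.Icc 1 N, (if r < N then ev h q r else 1 - D) *
        (if r < N then tr (av h q) (kap k) (r * u) else tr (bv h q) (kap k) (N * u)) +
      ∫ x in Ioi (1 : ℝ), -(PS (cc h q N + (dl 1 (-1) + dl N (1 - D))) x / x) *
        tr (bv h q) (kap (deriv k)) (x * u) := by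
  have hN0 : N ≠ 0 := by omega
  rw [ident_ST hH h q hN0 D hk hu]
  congr 1
  have h2 : ∑ r ∈ Finset.Icc 1 N, (if r < N then ev h q r else 1 - D) *
      (if r < N then tr (av h q) (kap k) (r * u) else tr (bv h q) (kap k) (N * u)) =
      ∑ r ∈ Finset.range (N + 1), (if r < N then ev h q r else 1 - D) *
      (if r < N then tr (av h q) (kap k) (r * u) else tr (bv h q) (kap k) (N * u)) := by
    refine Finset.sum_subset (fun r hr => ?_) fun r hr h3 => ?_
    · rw [Finset.mem_Icc] at hr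
      rw [Finset.mem_range]
      omega
    · rw [Finset.mem_Icc] at h3
      rw [Finset.mem_range] at hr
      have h4 : r = 0 := by omega
      rw [h4, if_pos (by omega)]
      simp
  rw [h2, Finset.sum_range_succ, if_neg (lt_irrefl N), if_neg (lt_irrefl N)]
  congr 1
  refine Finset.sum_congr rfl fun r hr => ?_
  rw [if_pos (Finset.mem_range.1 hr), if_pos (Finset.mem_range.1 hr)]

omit [Crv] in
theorem sumE_le {N : ℕ} {M Es : ℝ} (hEsv : Es = ∑ r ∈ Finset.range (N + 1), Em r) (hM : 0 ≤ M) :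
    0 ≤ ∑ r ∈ Finset.Icc 1 N, (if r < N then Em r else 2 * M) ∧
    ∑ r ∈ Finset.Icc 1 N, (if r < N then Em r else 2 * M) ≤ Es + 2 * M := by
  have h0 : ∀ r : ℕ, 0 ≤ (if r < N then Em r else 2 * M) := fun r => by
    split_ifs
    · exact Em_nonneg r
    · positivity
  refine ⟨Finset.sum_nonneg fun r _ => h0 r, ?_⟩
  have h1 : ∑ r ∈ Finset.Icc 1 N, (if r < N then Em r else 2 * M) ≤
      ∑ r ∈ Finset.range (N + 1), (if r < N then Em r else 2 * M) := by
    refine Finset.sum_le_sum_of_subset_of_nonneg (fun r hr => ?_) fun r _ _ => h0 r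
    rw [Finset.mem_Icc] at hr
    rw [Finset.mem_range]
    omega
  refine h1.trans ?_
  rw [Finset.sum_range_succ, if_neg (lt_irrefl N)]
  have h2 : ∑ r ∈ Finset.range N, (if r < N then Em r else 2 * M) ≤ Es := by
    calc ∑ r ∈ Finset.range N, (if r < N then Em r else 2 * M)
        = ∑ r ∈ Finset.range N, Em r :=
          Finset.sum_congr rfl fun r hr => by rw [if_pos (Finset.mem_range.1 hr)]
      _ ≤ ∑ r ∈ Finset.range (N + 1), Em r :=
          Finset.sum_le_sum_of_subset_of_nonneg (Finset.range_mono (by omega))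
            fun i _ _ => Em_nonneg i
      _ = Es := hEsv.symm
  linarith

/-- the core of `StST` -/
theorem core_ST (hH : Hlam) {S : Finset ℤ} {w : ℤ → ℝ} (hw : ∀ h ∈ S, 0 ≤ w h) {q n N : ℕ}
    (hN : 2 ≤ N) {u η M Es B₁ B₂ : ℝ} (hu : 0 < u) (hη0 : 0 < η) (hη1 : η ≤ 1) (hM : 0 ≤ M)
    (hEsv : Es = ∑ r ∈ Finset.range (N + 1), Em r) (hB₁ : 0 ≤ B₁) (hB₂ : 0 ≤ B₂)
    (D : ℤ → ℝ) (hb : ∀ h ∈ S, ∀ x : ℝ, 0 < x → |PS (cc h q N) x - D h| ≤ M * (x / N) ^ (-η))
    (hTw : ∀ u' : ℝ, u ≤ u' → ∀ k, Kn n k → ∑ h ∈ S, w h * Tw (h * q ^ 2) u' k ^ 2 ≤ B₁)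
    (hSw : ∀ u' : ℝ, u * N ≤ u' → ∀ k, Kn n k → ∑ h ∈ S, w h * Sw h q u' k ^ 2 ≤ B₂)
    {k : ℝ → ℝ} (hk : Kn (n + 1) k) :
    ∑ h ∈ S, w h * Sw h q u k ^ 2 ≤ (Es + 2 * M + M / η) ^ 2 * (B₁ + B₂) := by
  have hN2 : (2 : ℝ) ≤ N := by exact_mod_cast hN
  have hN0 : (0 : ℝ) < N := by linarith
  have hk1 : Kn 1 k := kn_mono hk (by omega)
  have hk0 : Kn 0 k := kn_mono hk (by omega)
  have hkn : Kn n k := kn_mono hk (by omega)
  have hk' : Kn n (deriv k) := kn_deriv hk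
  have hk'0 : Kn 0 (deriv k) := kn_mono hk' (by omega)
  obtain ⟨hGint, hGval⟩ := GG_int hN M hη0
  have hB : 0 ≤ B₁ + B₂ := by linarith
  obtain ⟨hs0, hs1⟩ := sumE_le hEsv hM
  have hms := ms (S := S) (w := w) hw
    (T := fun h => tr (bv h q) (kap k) u) (I := Finset.Icc 1 N)
    (e := fun h r => if r < N then ev h q r else 1 - D h)
    (A := fun h r => if r < N then tr (av h q) (kap k) (r * u) else tr (bv h q) (kap k) (N * u))
    (E := fun r => if r < N then Em r else 2 * M)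
    (f := fun h x => tr (bv h q) (kap (deriv k)) (x * u))
    (g := fun h x => -(PS (cc h q N + (dl 1 (-1) + dl N (1 - D h))) x / x))
    (G := GG N M η) (μ := volume.restrict (Ioi 1)) hB
    (fun r _ => by
      split_ifs
      · exact Em_nonneg r
      · positivity)
    (fun h hh => ident_ST' hH h q hN (D h) hk1 hu)
    (fun h hh r _ => by
      split_ifs
      · exact abs_ev_le h q r
      · exact one_sub_le hN hM hη0.le hη1 (hb h hh))
    (fun r hr => by
      rw [Finset.mem_Icc] at hr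
      have hr1 : (1 : ℝ) ≤ r := by exact_mod_cast hr.1
      split_ifs
      · have h1 := hTw (r * u) (by nlinarith) k hkn
        calc ∑ h ∈ S, w h * tr (av h q) (kap k) (r * u) ^ 2
            = (∑ h ∈ S, w h * Tw (h * q ^ 2) (r * u) k ^ 2) / 16 := by
              rw [Finset.sum_div]
              refine Finset.sum_congr rfl fun h _ => ?_
              rw [Tw_sq_eq hk0 (by positivity)]
              ring
          _ ≤ B₁ + B₂ := by linarith
      · have h1 := hSw (N * u) (by nlinarith) k hkn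
        calc ∑ h ∈ S, w h * tr (bv h q) (kap k) (N * u) ^ 2
            = ∑ h ∈ S, w h * Sw h q (N * u) k ^ 2 := by
              refine Finset.sum_congr rfl fun h _ => ?_
              rw [Sw_eq hk0 (by positivity)]
          _ ≤ B₁ + B₂ := by linarith)
    ((ae_restrict_iff' measurableSet_Ioi).2 (Eventually.of_forall fun x hx h hh =>
      g_le hN (hb h hh) hx))
    hGint
    ((ae_restrict_iff' measurableSet_Ioi).2 (Eventually.of_forall fun x hx => by
      have hx1 : (1 : ℝ) < x := hx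
      have hx0 : (0 : ℝ) < x := by linarith
      rcases lt_or_ge x N with h1 | h1
      · left
        rw [GG, Set.indicator_of_notMem (by simpa using h1)]
      · right
        refine ⟨?_, ?_⟩
        · rw [GG, Set.indicator_of_mem (by simpa using h1)]
          positivity
        · have h2 := hSw (x * u) (by nlinarith) (deriv k) hk'
          calc ∑ h ∈ S, w h * tr (bv h q) (kap (deriv k)) (x * u) ^ 2
              = ∑ h ∈ S, w h * Sw h q (x * u) (deriv k) ^ 2 := by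
                refine Finset.sum_congr rfl fun h _ => ?_
                rw [Sw_eq hk'0 (by positivity)]
            _ ≤ B₁ + B₂ := by linarith))
    (fun h hh => by
      have h1 := (int_PS (Pb_bv h q) (measurable_kap hk'0) (kap_bd hk'0) hu
        (fun x hx => PS_bdd hN hM hη0.le (hb h hh) hx)).neg
      refine h1.congr (Eventually.of_forall fun x => ?_)
      simp only [Pi.neg_apply]
      ring)
  rw [hGval] at hms
  have hTS : ∑ h ∈ S, w h * Sw h q u k ^ 2 = ∑ h ∈ S, w h * tr (bv h q) (kap k) u ^ 2 := by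
    refine Finset.sum_congr rfl fun h _ => ?_
    rw [Sw_eq hk0 hu]
  rw [hTS]
  refine hms.trans ?_
  have h3 : 0 ≤ M / η := by positivity
  gcongr

/-- **Module S2b** -/
theorem pfST (hN : StN1) (hH : StHlam) : StST := by
  classical
  intro ε hε
  obtain ⟨C₀, δ, hC₀, hδ, hδ1, hdata⟩ := data hN hH
  obtain ⟨C₁, hC₁, hlogp⟩ := log_pow_le 194 (half_pos hε)
  obtain ⟨C₂, hC₂, hEm⟩ := Em_sum_le
  set δ' := min ε 1 / 200 with hδ'
  have hδ'0 : 0 < δ' := by positivity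
  have hδ'ε : 64 * δ' ≤ ε / 2 := by
    have := min_le_left ε 1
    rw [hδ']
    linarith
  refine ⟨δ', hδ'0, by linarith, (4 * C₀ / δ) ^ 2 * C₁ * (C₂ * 4 ^ 32) ^ 2, ?_, ?_⟩
  · have h1 : 1 ≤ 4 * C₀ / δ := by
      rw [le_div_iff₀ hδ]
      linarith
    have h2 : 1 ≤ (4 * C₀ / δ) ^ 2 := one_le_pow₀ h1
    have h3 : 1 ≤ (C₂ * 4 ^ 32) ^ 2 := one_le_pow₀ (by nlinarith)
    have h4 : 1 ≤ (4 * C₀ / δ) ^ 2 * C₁ := by nlinarith
    nlinarith
  intro L B₁ B₂ u q n S w hL hu hB₁ hB₂ hq hS hTw hSw k hk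
  have hl := log_ge_one hL
  set η := δ / Real.log (3 + L) with hη
  have hη0 : 0 < η := by positivity
  have hηδ : η ≤ δ := div_le_self hδ.le hl
  set M₁ := C₀ * Real.log (3 + L) ^ 96 with hM₁
  have hM₁1 : 1 ≤ M₁ := by
    have : 1 ≤ Real.log (3 + L) ^ 96 := one_le_pow₀ hl
    nlinarith
  set N := ⌈Real.exp (L ^ δ')⌉₊ with hNdef
  have hLδ : 1 ≤ L ^ δ' := Real.one_le_rpow hL hδ'0.le
  have hexp2 : 2 ≤ Real.exp (L ^ δ') := by
    have h1 := Real.add_one_le_exp (L ^ δ')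
    linarith
  have hNge : Real.exp (L ^ δ') ≤ N := Nat.le_ceil _
  have hN2 : (2 : ℝ) ≤ N := hexp2.trans hNge
  have hN2' : 2 ≤ N := by exact_mod_cast hN2
  have hN0 : (0 : ℝ) < N := by linarith
  have hNle : (N : ℝ) ≤ 2 * Real.exp (L ^ δ') := by
    have := Nat.ceil_lt_add_one (Real.exp_pos (L ^ δ')).le
    linarith
  set Es := PS Em N with hEs
  have hEsv : Es = ∑ r ∈ Finset.range (N + 1), Em r := by
    rw [hEs]
    unfold PS
    rw [Nat.floor_natCast]
  have hEs1 : 1 ≤ Es := by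
    rw [hEsv]
    have h1 : (1 : ℕ) ∈ Finset.range (N + 1) := by
      rw [Finset.mem_range]
      omega
    calc (1 : ℝ) = Em 1 := Em_mult.map_one.symm
      _ ≤ _ := Finset.single_le_sum (f := fun n => Em n) (fun i _ => Em_nonneg i) h1
  have hEsle : Es ≤ C₂ * (4 * L ^ δ') ^ 32 := by
    refine (hEm N hN0.le).trans ?_
    have h1 : Real.log (1 + N) ≤ 3 * L ^ δ' := by
      have h2 : (1 : ℝ) + N ≤ Real.exp (3 * L ^ δ') := by
        have h3 : Real.exp (3 * L ^ δ') = Real.exp (L ^ δ') * (Real.exp (L ^ δ') *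
            Real.exp (L ^ δ')) := by
          rw [← Real.exp_add, ← Real.exp_add]
          ring_nf
        rw [h3]
        nlinarith [mul_nonneg (sub_nonneg.2 hexp2) (sub_nonneg.2 hexp2),
          mul_nonneg (sub_nonneg.2 hexp2) (mul_nonneg (sub_nonneg.2 hexp2) (sub_nonneg.2 hexp2))]
      calc Real.log (1 + N) ≤ Real.log (Real.exp (3 * L ^ δ')) :=
            Real.log_le_log (by linarith) h2
        _ = _ := Real.log_exp _
    have h4 : 0 ≤ Real.log (1 + N) := Real.log_nonneg (by linarith)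
    gcongr
    linarith
  have hex : ∀ h : ℤ, ∃ D : ℝ, h ∈ S → ∀ x : ℝ, 0 < x → |PS (κv h q) x - D| ≤ M₁ * x ^ (-η) := by
    intro h
    by_cases hh : h ∈ S
    · obtain ⟨D, hD⟩ := hdata L hL h q (hS h hh).1 hq.ne' (hS h hh).2.1
      exact ⟨D, fun _ => hD⟩
    · exact ⟨0, fun h1 => absurd h1 hh⟩
  choose D hD using hex
  have hcore := core_ST hH (S := S) (w := w) (fun h hh => (hS h hh).2.2) (q := q) (n := n) hN2' hu
    hη0 (by linarith) (by positivity : 0 ≤ M₁ * Es) hEsv hB₁ hB₂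
    (fun h => (∑ n ∈ Finset.range N, ev h q n) * D h)
    (fun h hh x hx => PS_cc_bound (by linarith) hη0.le (hD h hh) hx (by omega))
    hTw (fun u' hu' k hk => hSw u' (le_trans (by gcongr) hu') k hk) hk
  have hfac : Es + 2 * (M₁ * Es) + M₁ * Es / η ≤
      (4 * C₀ / δ) * Real.log (3 + L) ^ 97 * Es := by
    have h1 : M₁ / η = (C₀ / δ) * Real.log (3 + L) ^ 97 := by
      rw [hM₁, hη]
      field_simp
    have h2 : M₁ ≤ M₁ / η := by
      rw [le_div_iff₀ hη0]
      nlinarith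
    have h4 : (4 * C₀ / δ) * Real.log (3 + L) ^ 97 = 4 * (M₁ / η) := by
      rw [h1]
      ring
    rw [h4]
    have h5 : M₁ * Es / η = M₁ / η * Es := by ring
    rw [h5]
    nlinarith
  have hfin := num_fin (a := 4 * C₀ / δ) (Λ := Real.log (3 + L)) (Es := Es) (X := L ^ δ')
    (Y := L ^ (ε / 2)) (C₁ := C₁) (C₂ := C₂) (B := B₁ + B₂)
    (F := Es + 2 * (M₁ * Es) + M₁ * Es / η)
    (by positivity) (by linarith) (by linarith) (by linarith) hfac (by positivity) hEsle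
    (hlogp L hL) (by
      rw [← Real.rpow_natCast, ← Real.rpow_mul (by linarith)]
      apply Real.rpow_le_rpow_of_exponent_le hL
      push_cast
      linarith) (by positivity) (by linarith)
  have hLL : L ^ ε = L ^ (ε / 2) * L ^ (ε / 2) := by
    rw [← Real.rpow_add (by linarith), add_halves]
  rw [hLL]
  exact hcore.trans hfin

end P004E.KT
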