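import Vale.Agent.P004E.H253.K8
import Vale.Agent.P004G.H503.AsmC

/-!
# P004E/H253: removal of the primes of `q`: `StTp`, `StTq`; the a priori bound `StAP`
-/

open Real MeasureTheory Set Filter
open scoped ENNReal Topology

namespace P004E.KT

open P004G

variable [Crv]

/-- the polynomial which removes the primes of `q` -/
noncomputable def Pq (h : ℤ) (q : ℕ) : ArithmeticFunction ℝ := αv h 1 * av h q

theorem Pq_mult (h : ℤ) (q : ℕ) : (Pq h q).IsMultiplicative := (αv_mult h 1).mul (av_mult h q)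

theorem Pq_mul (h : ℤ) (q : ℕ) : Pq h q * av h 1 = av h q := by
  rw [Pq, mul_comm (αv h 1), mul_assoc, mul_comm (αv h 1), a_mul_α, mul_one]

theorem Pb_Pq (hH : Hlam) (h : ℤ) (q : ℕ) : Pb (Pq h q) :=
  Pb.mul ⟨1, αv_lin hH h 1⟩ ⟨1, av_lin h q⟩

theorem Pq_pow_dvd (h : ℤ) {q p : ℕ} (hp : p.Prime) (hq : p ∣ q) (k : ℕ) :
    Pq h q (p ^ k) = αv h 1 (p ^ k) := by
  rw [Pq, mul_pow _ _ k hp, Finset.sum_range_succ, Finset.sum_eq_zero, Nat.sub_self, pow_zero,
    (av_mult h q).map_one, mul_one, zero_add]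
  intro i hi
  have hi' := Finset.mem_range.1 hi
  rw [av_pow h q hp, yv, if_pos hq, zero_pow (by omega), mul_zero, mul_zero]

theorem Pq_pow_not (h : ℤ) {q p : ℕ} (hp : p.Prime) (hq : ¬ p ∣ q) (k : ℕ) :
    Pq h q (p ^ k) = if k = 0 then 1 else 0 := by
  have h1 : Pq h q (p ^ k) = (av h 1 * αv h 1) (p ^ k) := by
    rw [Pq, mul_comm (av h 1), mul_pow _ _ k hp, mul_pow _ _ k hp]
    refine Finset.sum_congr rfl fun i _ => ?_
    rw [av_pow h q hp, av_pow h 1 hp, yv, yv, if_neg hq, if_neg]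
    intro h2
    exact hp.one_lt.ne' (Nat.dvd_one.1 h2)
  rw [h1, a_mul_α, one_pow_apply hp]

theorem Pq_zero {h : ℤ} {q n : ℕ} (hq : q ≠ 0) (hn : ¬ n ∣ q ^ 2) : Pq h q n = 0 := by
  rcases Nat.eq_zero_or_pos n with rfl | hn0
  · simp
  rw [(Pq_mult h q).multiplicative_factorization (Pq h q) hn0.ne']
  have h1 : ¬ n.factorization ≤ (q ^ 2).factorization := by
    intro h2
    exact hn ((Nat.factorization_le_iff_dvd hn0.ne' (pow_ne_zero 2 hq)).1 h2)
  have h2 : ∃ p, ¬ n.factorization p ≤ (q ^ 2).factorization p := by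
    by_contra h3
    push Not at h3
    exact h1 h3
  obtain ⟨p, hp⟩ := h2
  have hp0 : n.factorization p ≠ 0 := by omega
  have hpp : p.Prime := by
    by_contra h3
    exact hp0 (Nat.factorization_eq_zero_of_not_prime n h3)
  unfold Finsupp.prod
  apply Finset.prod_eq_zero (i := p) (Finsupp.mem_support_iff.2 hp0)
  rw [Nat.factorization_pow, Finsupp.smul_apply, smul_eq_mul] at hp
  change Pq h q (p ^ n.factorization p) = 0
  by_cases h3 : p ∣ q
  · have h4 := hpp.factorization_pos_of_dvd hq h3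
    rw [Pq_pow_dvd h hpp h3, αv_pow h 1 hpp, if_neg (by omega), if_neg (by omega),
      if_neg (by omega)]
  · rw [Pq_pow_not h hpp h3, if_neg hp0]

/-- its majorant -/
noncomputable def Pm (q : ℕ) : ArithmeticFunction ℝ :=
  mk fun p k => if k = 0 then 1 else if p ∣ q then (if k = 1 then 2 / √(p : ℝ) else
    if k = 2 then 1 / (p : ℝ) else 0) else 0

omit [Crv] in
theorem Pm_mult (q : ℕ) : (Pm q).IsMultiplicative := mk_mult _

omit [Crv] in
theorem Pm_pow (q : ℕ) {p : ℕ} (hp : p.Prime) (k : ℕ) : Pm q (p ^ k) =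
    if k = 0 then 1 else if p ∣ q then (if k = 1 then 2 / √(p : ℝ) else
      if k = 2 then 1 / (p : ℝ) else 0) else 0 := mk_pow _ (fun p => by simp) k hp

omit [Crv] in
theorem Pm_nonneg (q n : ℕ) : 0 ≤ Pm q n := by
  have h := mult_le (Pm_mult q) (Pm_mult q) (fun p k hp => by
    rw [Pm_pow q hp, abs_of_nonneg]
    split_ifs <;> positivity) n
  exact (abs_nonneg _).trans h

theorem abs_tv_le' (h : ℤ) (q : ℕ) {p : ℕ} (hp : p.Prime) : |tv h q p| ≤ 2 / √(p : ℝ) := by
  have hp0 : (0 : ℝ) < p := by exact_mod_cast hp.pos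
  have h1 := ca_prime_pow_le hp 1
  simp only [pow_one, Nat.cast_one] at h1
  unfold tv
  rw [abs_mul, abs_div, abs_of_pos hp0]
  calc |(ca p : ℝ)| / p * |yv h q p| ≤ ((1 + 1) * (1 / √(p : ℝ))) * 1 := by
        gcongr
        exact abs_yv_le h q p
    _ = 2 / √(p : ℝ) := by ring

theorem abs_sv_le' (h : ℤ) (q : ℕ) {p : ℕ} (hp : p.Prime) : |sv h q p| ≤ 1 / (p : ℝ) := by
  have hp0 : (0 : ℝ) < p := by exact_mod_cast hp.pos
  unfold sv
  split_ifs
  · rw [abs_zero]; positivity
  · rw [abs_div, abs_of_pos hp0, abs_pow]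
    have := abs_yv_le h q p
    gcongr
    exact pow_le_one₀ (abs_nonneg _) this

theorem abs_Pq_le (h : ℤ) (q n : ℕ) : |Pq h q n| ≤ Pm q n := by
  refine mult_le (Pq_mult h q) (Pm_mult q) (fun p k hp => ?_) n
  rw [Pm_pow q hp]
  by_cases h1 : p ∣ q
  · rw [Pq_pow_dvd h hp h1, αv_pow h 1 hp, if_pos h1]
    split_ifs
    · simp
    · rw [abs_neg]; exact abs_tv_le' h 1 hp
    · exact abs_sv_le' h 1 hp
    · simp
  · rw [Pq_pow_not h hp h1, if_neg h1]
    split_ifs <;> simp

omit [Crv] in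
theorem Pm_sum_le {q : ℕ} (hq : q ≠ 0) (N : ℕ) :
    ∑ n ∈ Finset.range N, Pm q n ≤ ∏ p ∈ q.primeFactors, (1 + 1 / √(p : ℝ)) ^ 2 := by
  classical
  have h1 := sum_le_prod (f := fun n => Pm q n) (Pm_nonneg q) (by simp) (Pm_mult q).map_one
    (fun {m n} hmn => (Pm_mult q).map_mul_of_coprime hmn)
    (fun p => if p ∣ q then (1 + 1 / √(p : ℝ)) ^ 2 else 1) (fun p hp K => by
      have hp0 : (0 : ℝ) < p := by exact_mod_cast hp.pos
      have hs : 0 < √(p : ℝ) := Real.sqrt_pos.2 hp0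
      have e1 : ∑ k ∈ Finset.range K, Pm q (p ^ k) ≤ ∑ k ∈ Finset.range (K + 3), Pm q (p ^ k) :=
        Finset.sum_le_sum_of_subset_of_nonneg (Finset.range_mono (by omega))
          fun i _ _ => Pm_nonneg q _
      refine e1.trans (le_of_eq ?_)
      have e2 : Pm q (p ^ 0) = 1 := by rw [Pm_pow q hp, if_pos rfl]
      have e5 : ∑ k ∈ Finset.range K, Pm q (p ^ (k + 1 + 1 + 1)) = 0 := by
        refine Finset.sum_eq_zero fun k _ => ?_
        rw [Pm_pow q hp, if_neg (by omega)]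
        by_cases h3 : p ∣ q
        · rw [if_pos h3, if_neg (by omega), if_neg (by omega)]
        · rw [if_neg h3]
      rw [Finset.sum_range_succ', Finset.sum_range_succ', Finset.sum_range_succ', e5, e2]
      by_cases h2 : p ∣ q
      · have e3 : Pm q (p ^ (0 + 1)) = 2 / √(p : ℝ) := by
          rw [Pm_pow q hp, if_neg (by omega), if_pos h2, if_pos rfl]
        have e4 : Pm q (p ^ (0 + 1 + 1)) = 1 / (p : ℝ) := by
          rw [Pm_pow q hp, if_neg (by omega), if_pos h2, if_neg (by omega), if_pos rfl]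
        rw [e3, e4, if_pos h2]
        have h3 : 1 / (p : ℝ) = (1 / √(p : ℝ)) * (1 / √(p : ℝ)) := by
          rw [div_mul_div_comm, Real.mul_self_sqrt hp0.le, one_mul]
        rw [h3]
        ring
      · have e3 : Pm q (p ^ (0 + 1)) = 0 := by
          rw [Pm_pow q hp, if_neg (by omega), if_neg h2]
        have e4 : Pm q (p ^ (0 + 1 + 1)) = 0 := by
          rw [Pm_pow q hp, if_neg (by omega), if_neg h2]
        rw [e3, e4, if_neg h2]
        ring) (max N (q + 1))
  have h2 : ∑ n ∈ Finset.range N, Pm q n ≤ ∑ n ∈ Finset.range (max N (q + 1)), Pm q n :=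
    Finset.sum_le_sum_of_subset_of_nonneg (Finset.range_mono (le_max_left _ _))
      fun i _ _ => Pm_nonneg q _
  refine h2.trans (h1.trans (le_of_eq ?_))
  rw [← Finset.prod_filter]
  refine Finset.prod_congr ?_ fun p _ => rfl
  ext p
  rw [Finset.mem_filter, Nat.mem_primeFactors]
  constructor
  · rintro ⟨h3, h4⟩
    exact ⟨Nat.prime_of_mem_primesBelow h3, h4, hq⟩
  · rintro ⟨h3, h4, -⟩
    refine ⟨?_, h4⟩
    rw [Nat.mem_primesBelow]
    have := Nat.le_of_dvd (Nat.pos_of_ne_zero hq) h4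
    exact ⟨lt_of_lt_of_le (by omega) (le_max_right _ _), h3⟩

/-- the identity -/
theorem tr_Pq (hH : Hlam) (h : ℤ) {q : ℕ} (hq : q ≠ 0) {K : ℝ → ℝ}
    (hK : ∃ M : ℝ, ∀ t, 0 < t → |K t| ≤ M * Real.exp (-t)) {u : ℝ} (hu : 0 < u) :
    tr (av h q) K u = ∑ r ∈ (q ^ 2).divisors, Pq h q r * tr (av h 1) K (r * u) := by
  rw [← Pq_mul h q, tr_mul (Pb_Pq hH h q) (Pb_av h 1) hK hu]
  refine tsum_eq_sum fun r hr => ?_
  rw [Pq_zero hq, zero_mul]
  intro h1
  exact hr (Nat.mem_divisors.2 ⟨h1, pow_ne_zero 2 hq⟩)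

/-- **Module S2d** -/
theorem pfTp (hH : StHlam) : StTp := by
  intro h p u k hh hp hb hu hk
  have hp0 : (p : ℝ) ≠ 0 := by exact_mod_cast hp.ne_zero
  have h1 := tr_Pq hH h hp.ne_zero (kap_bd hk) hu
  have h1p : ¬ p ∣ 1 := fun h2 => hp.one_lt.ne' (Nat.dvd_one.1 h2)
  rw [Tw_sq_eq hk hu, h1, Nat.divisors_prime_pow hp, Finset.sum_map]
  simp only [Function.Embedding.coeFn_mk]
  rw [Finset.sum_range_succ, Finset.sum_range_succ, Finset.sum_range_succ, Finset.sum_range_zero,
    Pq_pow_dvd h hp dvd_rfl, Pq_pow_dvd h hp dvd_rfl, Pq_pow_dvd h hp dvd_rfl, αv_pow h 1 hp,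
    αv_pow h 1 hp, αv_pow h 1 hp]
  have hp' : 0 < (p : ℝ) := by exact_mod_cast hp.pos
  rw [Tw_eq hk hu, Tw_eq hk (by positivity), Tw_eq hk (by positivity)]
  have e1 : tv h 1 p = lam p * chi h p / √(p : ℝ) := by
    unfold tv lam yv
    rw [if_neg h1p]
    have h3 : √(p : ℝ) * √(p : ℝ) = p := Real.mul_self_sqrt hp'.le
    have h4 : √(p : ℝ) ≠ 0 := (Real.sqrt_pos.2 hp').ne'
    rw [div_mul_eq_mul_div, div_mul_eq_mul_div, div_div, h3]
  have e2 : sv h 1 p = chi h p ^ 2 / p := by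
    unfold sv yv
    rw [if_neg hb, if_neg h1p]
  simp only [e1, e2]
  norm_num
  ring

/-- **Module S2c** -/
theorem pfTq (hH : StHlam) : StTq := by
  classical
  intro B u q n S w hu hB hq hS hTw k hk
  have hk0 : Kn 0 k := kn_mono hk (by omega)
  have hms := ms (S := S) (w := w) (fun h hh => (hS h hh).2)
    (T := fun h => tr (av h q) (kap k) u) (I := (q ^ 2).divisors)
    (e := fun h r => Pq h q r) (A := fun h r => tr (av h 1) (kap k) (r * u))
    (E := fun r => Pm q r) (f := fun _ _ => 0) (g := fun _ _ => 0) (G := fun _ => 0)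
    (μ := volume.restrict (Ioi 1)) (B := B / 16) (by positivity) (fun r _ => Pm_nonneg q r)
    (fun h _ => by
      simp only [mul_zero, integral_zero, add_zero]
      exact tr_Pq hH h hq.ne' (kap_bd hk0) hu)
    (fun h _ r _ => abs_Pq_le h q r)
    (fun r hr => by
      have hr1 : (1 : ℝ) ≤ r := by exact_mod_cast Nat.pos_of_mem_divisors hr
      have h1 := hTw (r * u) (by nlinarith) k hk
      calc ∑ h ∈ S, w h * tr (av h 1) (kap k) (r * u) ^ 2
          = (∑ h ∈ S, w h * Tw h (r * u) k ^ 2) / 16 := by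
            rw [Finset.sum_div]
            refine Finset.sum_congr rfl fun h _ => ?_
            rw [Tw_eq hk0 (by positivity)]
            ring
        _ ≤ B / 16 := by linarith)
    (Eventually.of_forall fun x h _ => by simp)
    (integrable_zero _ _ _)
    (Eventually.of_forall fun x => Or.inl rfl)
    (fun h _ => by simp)
  rw [integral_zero, add_zero] at hms
  have hsum : ∑ r ∈ (q ^ 2).divisors, Pm q r ≤ ∏ p ∈ q.primeFactors, (1 + 1 / √(p : ℝ)) ^ 2 := by
    refine le_trans ?_ (Pm_sum_le hq.ne' (q ^ 2 + 1))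
    refine Finset.sum_le_sum_of_subset_of_nonneg (fun r hr => ?_) fun r _ _ => Pm_nonneg q r
    rw [Finset.mem_range]
    have := Nat.divisor_le hr
    omega
  have hsum0 : 0 ≤ ∑ r ∈ (q ^ 2).divisors, Pm q r := Finset.sum_nonneg fun r _ => Pm_nonneg q r
  calc ∑ h ∈ S, w h * Tw (h * q ^ 2) u k ^ 2 = 16 * ∑ h ∈ S, w h * tr (av h q) (kap k) u ^ 2 := by
        rw [Finset.mul_sum]
        refine Finset.sum_congr rfl fun h _ => ?_
        rw [Tw_sq_eq hk0 hu]
        ring
    _ ≤ 16 * ((∑ r ∈ (q ^ 2).divisors, Pm q r) ^ 2 * (B / 16)) := by gcongr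
    _ ≤ 16 * ((∏ p ∈ q.primeFactors, (1 + 1 / √(p : ℝ)) ^ 2) ^ 2 * (B / 16)) := by gcongr
    _ = (∏ p ∈ q.primeFactors, (1 + 1 / √(p : ℝ)) ^ 2) ^ 2 * B := by ring
    _ = nu q * B := by
        unfold nu
        rw [← Finset.prod_pow]
        congr 1
        refine Finset.prod_congr rfl fun p _ => ?_
        rw [← pow_mul]

/-! ### the a priori bound -/

theorem Tw_le {h : ℤ} {v : ℝ} {k : ℝ → ℝ} (hk : Kn 0 k) (hv : 0 < v) (hfin : Jz h ≠ ⊤) :
    |Tw h v k| ≤ √(Jz h).toReal := by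
  have h1 := P004G.Asm.abs_int_le hfin hv (show v ≤ v * Real.exp 1 by
    have := Real.one_le_exp (show (0 : ℝ) ≤ 1 by norm_num)
    nlinarith)
  rw [mul_div_cancel_left₀ _ hv.ne', Real.log_exp, mul_one] at h1
  refine le_trans ?_ h1
  have hth := Th.continuousOn_theta h
  have hsub : ∀ x : ℝ, v * Real.exp x ∈ Ioi (0 : ℝ) := fun x => by
    have := Real.exp_pos x
    exact Set.mem_Ioi.2 (by positivity)
  -- substitution
  have h2 : ∫ x in (0 : ℝ)..1, |theta h (v * Real.exp x)| * (v * Real.exp x) =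
      ∫ y in (v * Real.exp 0)..(v * Real.exp 1), |theta h y| := by
    refine intervalIntegral.integral_comp_mul_deriv'' (f := fun x => v * Real.exp x)
      (f' := fun x => v * Real.exp x) (g := fun y => |theta h y|) ?_ ?_ ?_ ?_
    · exact (by fun_prop : Continuous fun x : ℝ => v * Real.exp x).continuousOn
    · intro x _
      exact ((Real.hasDerivAt_exp x).const_mul v).hasDerivWithinAt
    · exact (by fun_prop : Continuous fun x : ℝ => v * Real.exp x).continuousOn
    · refine hth.abs.mono ?_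
      rintro y ⟨x, -, rfl⟩
      exact hsub x
  rw [Real.exp_zero, mul_one] at h2
  rw [← intervalIntegral.integral_of_le (by
    have := Real.one_le_exp (show (0 : ℝ) ≤ 1 by norm_num)
    nlinarith : v ≤ v * Real.exp 1), ← h2]
  have hcont : Continuous fun x : ℝ => theta h (v * Real.exp x) :=
    hth.comp_continuous (by fun_prop) hsub
  unfold Tw
  have e1 : ∫ x, v * Real.exp x * theta h (v * Real.exp x) * k x =
      ∫ x in (0 : ℝ)..1, v * Real.exp x * theta h (v * Real.exp x) * k x := by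
    rw [intervalIntegral.integral_of_le zero_le_one, ← integral_Icc_eq_integral_Ioc]
    symm
    apply setIntegral_eq_integral_of_forall_compl_eq_zero
    intro x hx
    rw [kn_zero hk hx, mul_zero]
  rw [e1, ← Real.norm_eq_abs]
  refine intervalIntegral.norm_integral_le_of_norm_le zero_le_one
    (Eventually.of_forall fun x _ => ?_) ?_
  · have hx := Real.exp_pos x
    rw [norm_mul, norm_mul, Real.norm_of_nonneg (by positivity : 0 ≤ v * Real.exp x),
      Real.norm_eq_abs, Real.norm_eq_abs]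
    calc v * Real.exp x * |theta h (v * Real.exp x)| * |k x|
        ≤ v * Real.exp x * |theta h (v * Real.exp x)| * 1 := by
          gcongr
          exact kn_abs hk x
      _ = _ := by ring
  · exact (hcont.abs.mul (by fun_prop)).intervalIntegrable _ _

end P004E.KT
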