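import Vale.Agent.P004E.H394.K2
import Vale.Agent.P004E.H503.Strip

/-!
# P004E/H253: the strip from unit windows (`StLev → StStrip`)
-/

open Real MeasureTheory Set Filter
open scoped ENNReal Topology

namespace P004E.Str

open P004G

/-- the bump -/
noncomputable def rb (x : ℝ) : ℝ := Real.smoothTransition (2 * x) - Real.smoothTransition (2 * x - 1)

lemma rb_smooth (n : ℕ) : ContDiff ℝ n rb := by
  unfold rb
  have h : ContDiff ℝ n Real.smoothTransition := Real.smoothTransition.contDiff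
  exact (h.comp (by fun_prop)).sub (h.comp (by fun_prop))

lemma rb_zero {x : ℝ} (hx : x ∉ Icc (0 : ℝ) 1) : rb x = 0 := by
  unfold rb
  rcases lt_or_ge x 0 with h | h
  · rw [Real.smoothTransition.zero_of_nonpos (by linarith),
      Real.smoothTransition.zero_of_nonpos (by linarith), sub_zero]
  · have h1 : 1 < x := by
      by_contra h2
      exact hx ⟨h, not_lt.1 h2⟩
    rw [Real.smoothTransition.one_of_one_le (by linarith),
      Real.smoothTransition.one_of_one_le (by linarith), sub_self]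

lemma rb_iter_zero {i : ℕ} {x : ℝ} (hx : x ∉ Icc (0 : ℝ) 1) : iteratedDeriv i rb x = 0 := by
  have hU : (Icc (0 : ℝ) 1)ᶜ ∈ 𝓝 x := isClosed_Icc.isOpen_compl.mem_nhds hx
  have h1 : rb =ᶠ[𝓝 x] fun _ => (0 : ℝ) := by
    filter_upwards [hU] with y hy
    exact rb_zero hy
  rw [h1.iteratedDeriv_eq i]
  simp

lemma rb_bound (n : ℕ) : ∃ B : ℝ, 1 ≤ B ∧ ∀ i ≤ n, ∀ x, |iteratedDeriv i rb x| ≤ B := by
  have h1 : ∀ i : ℕ, ∃ B : ℝ, 0 ≤ B ∧ ∀ x, |iteratedDeriv i rb x| ≤ B := by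
    intro i
    have hc : Continuous (iteratedDeriv i rb) :=
      (rb_smooth i).continuous_iteratedDeriv i le_rfl
    obtain ⟨B, hB⟩ := isCompact_Icc.exists_bound_of_continuousOn (s := Icc (0 : ℝ) 1)
      hc.continuousOn
    refine ⟨|B|, abs_nonneg B, fun x => ?_⟩
    by_cases hx : x ∈ Icc (0 : ℝ) 1
    · have := hB x hx
      rw [Real.norm_eq_abs] at this
      exact this.trans (le_abs_self B)
    · rw [rb_iter_zero hx, abs_zero]
      exact abs_nonneg B
  choose B hB0 hB using h1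
  refine ⟨1 + ∑ i ∈ Finset.range (n + 1), B i, ?_, fun i hi x => ?_⟩
  · have := Finset.sum_nonneg (s := Finset.range (n + 1)) fun i _ => hB0 i
    linarith
  · have h2 : B i ≤ ∑ i ∈ Finset.range (n + 1), B i :=
      Finset.single_le_sum (fun i _ => hB0 i) (Finset.mem_range.2 (by omega))
    have := hB i x
    linarith

/-- the normalised bump is a window -/
lemma rb_Kn {n : ℕ} {B : ℝ} (hB1 : 1 ≤ B) (hB : ∀ i ≤ n, ∀ x, |iteratedDeriv i rb x| ≤ B) :
    Kn n (fun x => rb x / B) where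
  smooth := (rb_smooth n).div_const _
  supp := fun x hx => by
    by_contra h1
    apply hx
    have : x ∉ Icc (0 : ℝ) 1 := fun h2 => h1 ⟨h2.1, h2.2⟩
    rw [rb_zero this, zero_div]
  bound := by
    intro i hi x
    have hB0 : 0 < B := by linarith
    have e1 : iteratedDeriv i (fun x => rb x / B) x = iteratedDeriv i rb x / B := by
      simp_rw [div_eq_inv_mul]
      rw [iteratedDeriv_const_mul_field]
    rw [e1, abs_div, abs_of_pos hB0, div_le_one hB0]
    exact hB i hi x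

/-- the partition of unity -/
lemma rb_sum (N : ℕ) {x : ℝ} (hx : |x| ≤ ((N : ℝ) - 1) / 2) :
    ∑ i ∈ Finset.range (2 * N + 1), rb (x - ((i : ℝ) - N) / 2) = 1 := by
  obtain ⟨h1, h2⟩ := abs_le.1 hx
  have e : ∀ i : ℕ, rb (x - ((i : ℝ) - N) / 2) =
      Real.smoothTransition (2 * x + N - i) - Real.smoothTransition (2 * x + N - (i + 1 : ℕ)) := by
    intro i
    unfold rb
    congr 1
    · congr 1
      ring
    · congr 1
      push_cast
      ring
  simp only [e]
  rw [Finset.sum_range_sub' (fun i : ℕ => Real.smoothTransition (2 * x + N - i)),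
    Real.smoothTransition.one_of_one_le (by push_cast; linarith),
    Real.smoothTransition.zero_of_nonpos (by push_cast; linarith), sub_zero]

variable [Crv]

/-- the pieces -/
noncomputable def pc (n : ℕ) (B : ℝ) (h : ℝ → ℝ) (s x : ℝ) : ℝ := h (x + s) * (rb x / B) / (2 ^ n * 1)

omit [Crv] in
lemma pc_Kn {n : ℕ} {B : ℝ} (hB1 : 1 ≤ B) (hB : ∀ i ≤ n, ∀ x, |iteratedDeriv i rb x| ≤ B)
    {h : ℝ → ℝ} (hh : ContDiff ℝ n h) (hb : ∀ i ≤ n, ∀ x, |iteratedDeriv i h x| ≤ 1) (s : ℝ) :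
    Kn n (pc n B h s) := by
  refine (rb_Kn hB1 hB).mul_smooth (s := fun x => h (x + s)) (hh.comp (by fun_prop)) one_pos ?_
  intro i hi x _
  rw [iteratedDeriv_comp_add_const]
  exact hb i hi _

lemma Fw_pieces {n : ℕ} {B : ℝ} (hB1 : 1 ≤ B) {Y : ℕ} (hY : 3 ≤ Y) {h : ℝ → ℝ}
    (hh : ContDiff ℝ n h) {N : ℕ} (hs : ∀ x, h x ≠ 0 → |x| ≤ ((N : ℝ) - 1) / 2) (m : ℤ) :
    Fw Y h m = ∑ i ∈ Finset.range (2 * N + 1),
      (2 ^ n * B) * Tw m (Real.exp (((i : ℝ) - N) / 2) / Y) (pc n B h (((i : ℝ) - N) / 2)) := by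
  have hB0 : 0 < B := by linarith
  have hhc : Continuous h := hh.continuous
  have hrc : Continuous rb := (rb_smooth 0).continuous
  rw [Fin.Fw_eq m hY]
  have e1 : ∀ x, Fin.Ph m Y x * h x =
      ∑ i ∈ Finset.range (2 * N + 1), Fin.Ph m Y x * h x * rb (x - ((i : ℝ) - N) / 2) := by
    intro x
    rw [← Finset.mul_sum]
    by_cases h0 : h x = 0
    · rw [h0, mul_zero, zero_mul]
    · rw [rb_sum N (hs x h0), mul_one]
  rw [integral_congr_ae (Eventually.of_forall e1), integral_finsetSum]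
  · refine Finset.sum_congr rfl fun i _ => ?_
    set s := ((i : ℝ) - N) / 2 with hs'
    have e2 := integral_add_right_eq_self (μ := (volume : Measure ℝ))
      (fun x => Fin.Ph m Y x * h x * rb (x - s)) s
    rw [← e2]
    unfold Tw
    rw [← integral_const_mul]
    refine integral_congr_ae (Eventually.of_forall fun x => ?_)
    simp only [pc, Fin.Ph]
    rw [add_sub_cancel_right, Real.exp_add]
    rw [show Real.exp x * Real.exp s / Y = Real.exp s / Y * Real.exp x by ring]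
    field_simp
  · intro i _
    have hc : Continuous fun x => Fin.Ph m Y x * h x * rb (x - ((i : ℝ) - N) / 2) :=
      ((Fin.Ph_cont m hY).mul hhc).mul (hrc.comp (by fun_prop))
    refine hc.integrable_of_hasCompactSupport (HasCompactSupport.intro
      (K := Icc (((i : ℝ) - N) / 2) (((i : ℝ) - N) / 2 + 1)) isCompact_Icc fun x hx => ?_)
    rw [rb_zero, mul_zero]
    intro h1
    exact hx ⟨by linarith [h1.1], by linarith [h1.2]⟩

/-- **Module S, last step** -/
theorem strip_of (hlev : ∃ n, StLev n (78 / 100)) : StStrip := by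
  obtain ⟨n, C, hC, hlev⟩ := hlev
  obtain ⟨B, hB1, hB⟩ := rb_bound n
  refine ⟨n, 169 * (2 ^ n * B) ^ 2 * C, ?_, fun Y h hY hh hs hb => ?_⟩
  · have h1 : (1 : ℝ) ≤ 2 ^ n := one_le_pow₀ (by norm_num)
    have h2 : 1 ≤ (2 ^ n * B) ^ 2 := one_le_pow₀ (by nlinarith)
    nlinarith
  have hY1 : (1 : ℝ) < Y := by exact_mod_cast (by omega : 1 < Y)
  set L := Real.log Y with hL
  have hL1 : 1 ≤ L := by
    have h2 : Real.log (Real.exp 1) ≤ Real.log Y := by
      apply Real.log_le_log (Real.exp_pos 1)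
      have := Real.exp_one_lt_d9
      have h3 : (3 : ℝ) ≤ Y := by exact_mod_cast hY
      linarith
    rwa [Real.log_exp] at h2
  set R := L ^ (1 / 100 : ℝ) with hR
  have hR1 : 1 ≤ R := Real.one_le_rpow hL1 (by norm_num)
  set N := ⌈4 * R⌉₊ + 1 with hN
  have hNge : 4 * R + 1 ≤ N := by
    rw [hN]
    push_cast
    have := Nat.le_ceil (4 * R)
    linarith
  have hNle : (N : ℝ) ≤ 4 * R + 2 := by
    rw [hN]
    push_cast
    have := Nat.ceil_lt_add_one (show 0 ≤ 4 * R by linarith)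
    linarith
  have hs' : ∀ x, h x ≠ 0 → |x| ≤ ((N : ℝ) - 1) / 2 := fun x hx => by
    have := hs x hx
    linarith
  set K := 2 * N + 1 with hK
  have hK13 : (K : ℝ) ≤ 13 * R := by
    rw [hK]
    push_cast
    linarith
  have hK0 : (0 : ℝ) ≤ K := by positivity
  have hpc := fun s => pc_Kn hB1 hB hh hb s
  have hFw : ∀ m : ℤ, Fw Y h m ^ 2 ≤ K * ∑ i ∈ Finset.range K, (2 ^ n * B) ^ 2 *
      Tw m (Real.exp (((i : ℝ) - N) / 2) / Y) (pc n B h (((i : ℝ) - N) / 2)) ^ 2 := by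
    intro m
    rw [Fw_pieces hB1 hY hh hs' m]
    have h1 := sq_sum_le_card_mul_sum_sq (s := Finset.range K) (f := fun i : ℕ => (2 ^ n * B) *
      Tw m (Real.exp (((i : ℝ) - N) / 2) / Y) (pc n B h (((i : ℝ) - N) / 2)))
    rw [Finset.card_range] at h1
    refine h1.trans (le_of_eq ?_)
    congr 1
    refine Finset.sum_congr rfl fun i _ => ?_
    rw [mul_pow]
  have hMT : ∀ i ∈ Finset.range K, ∑ m ∈ sqZ Y,
      Tw m (Real.exp (((i : ℝ) - N) / 2) / Y) (pc n B h (((i : ℝ) - N) / 2)) ^ 2 ≤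
      C * L ^ (78 / 100 : ℝ) * Y := by
    intro i _
    exact hlev L Y hL1 (by omega) le_rfl _ (by positivity) _ (hpc _)
  calc ∑ m ∈ (sqZ Y).filter (fun m => Y < 2 * m.natAbs), Fw Y h m ^ 2
      ≤ ∑ m ∈ sqZ Y, Fw Y h m ^ 2 :=
        Finset.sum_le_sum_of_subset_of_nonneg (Finset.filter_subset _ _) fun m _ _ => sq_nonneg _
    _ ≤ ∑ m ∈ sqZ Y, ((K : ℝ) * ∑ i ∈ Finset.range K, (2 ^ n * B) ^ 2 *
      Tw m (Real.exp (((i : ℝ) - N) / 2) / Y) (pc n B h (((i : ℝ) - N) / 2)) ^ 2) :=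
        Finset.sum_le_sum fun m _ => hFw m
    _ = (K : ℝ) * ∑ i ∈ Finset.range K, (2 ^ n * B) ^ 2 * ∑ m ∈ sqZ Y,
      Tw m (Real.exp (((i : ℝ) - N) / 2) / Y) (pc n B h (((i : ℝ) - N) / 2)) ^ 2 := by
        rw [← Finset.mul_sum, Finset.sum_comm]
        congr 1
        refine Finset.sum_congr rfl fun i _ => ?_
        rw [Finset.mul_sum]
    _ ≤ (K : ℝ) * ∑ i ∈ Finset.range K, (2 ^ n * B) ^ 2 * (C * L ^ (78 / 100 : ℝ) * Y) := by
        gcongr with i hi
        exact hMT i hi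
    _ = (K : ℝ) ^ 2 * (2 ^ n * B) ^ 2 * (C * L ^ (78 / 100 : ℝ) * Y) := by
        rw [Finset.sum_const, Finset.card_range, nsmul_eq_mul]
        ring
    _ ≤ (13 * R) ^ 2 * (2 ^ n * B) ^ 2 * (C * L ^ (78 / 100 : ℝ) * Y) := by gcongr
    _ = 169 * (2 ^ n * B) ^ 2 * C * Y * (R ^ 2 * L ^ (78 / 100 : ℝ)) := by ring
    _ = 169 * (2 ^ n * B) ^ 2 * C * Y * L ^ (4 / 5 : ℝ) := by
        congr 1
        rw [hR, ← Real.rpow_natCast, ← Real.rpow_mul (by linarith), ← Real.rpow_add (by linarith)]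
        norm_num

/-- the level statement is monotone in the exponent -/
lemma lev_mono {n : ℕ} {α β : ℝ} (h : StLev n α) (hαβ : α ≤ β) : StLev n β := by
  obtain ⟨C, hC, h⟩ := h
  refine ⟨C, hC, fun L X hL hX hlog u hu k hk => (h L X hL hX hlog u hu k hk).trans ?_⟩
  gcongr

theorem strip_of' (hlev : ∃ n, StLev n (77 / 100)) : StStrip := by
  obtain ⟨n, h⟩ := hlev
  exact strip_of ⟨n, lev_mono h (by norm_num)⟩

end P004E.Str
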